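import Vale.Agent.Lib.P162.QF.Defs

/-!
# Algebra of the partial averages and partial passes (module M1)
-/

namespace Vale.Agent.Lib.P162.QF

open Vale.Agent.Lib.P162 Equiv Finset

set_option linter.unusedSectionVars false

section gen
variable {ι Y : Type*} [Fintype ι] [DecidableEq ι] [Fintype Y] [Nonempty Y]

lemma nsq_nonneg (F : (ι → Y) → ℝ) : 0 ≤ nsq F := avg_nonneg fun _ => sq_nonneg _

/-- averages compose -/
lemma EA_EA (S T : Finset ι) (F : (ι → Y) → ℝ) : EA S (EA T F) = EA (S ∪ T) F := by
  funext x
  unfold EA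
  have e : ∀ z w : ι → Y, merge T (merge S x z) w = merge (S ∪ T) x (merge T z w) := by
    intro z w
    funext i
    by_cases h1 : i ∈ T
    · simp [merge, h1]
    · by_cases h2 : i ∈ S
      · simp [merge, h1, h2]
      · simp [merge, h1, h2]
  simp only [e]
  exact avg_merge T (fun v => F (merge (S ∪ T) x v))

/-- `EA T` is a contraction -/
lemma nsq_EA_le (T : Finset ι) (F : (ι → Y) → ℝ) : nsq (EA T F) ≤ nsq F := by
  unfold nsq EA
  have h1 : ∀ x : ι → Y, (avg fun z : ι → Y => F (merge T x z)) ^ 2 ≤
      avg fun z : ι → Y => F (merge T x z) ^ 2 := by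
    intro x
    have := avg_nonneg (fun z : ι → Y => sq_nonneg (F (merge T x z) - avg fun z : ι → Y => F (merge T x z)))
    have e : (avg fun z : ι → Y => (F (merge T x z) - avg fun z : ι → Y => F (merge T x z)) ^ 2) =
        (avg fun z : ι → Y => F (merge T x z) ^ 2) - (avg fun z : ι → Y => F (merge T x z)) ^ 2 := by
      set a := avg fun z : ι → Y => F (merge T x z) with ha
      have e2 : ∀ z : ι → Y, (F (merge T x z) - a) ^ 2 =
          F (merge T x z) ^ 2 - 2 * a * F (merge T x z) + a ^ 2 := fun z => by ring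
      simp only [e2]
      rw [avg_add, avg_sub, avg_mul_left, avg_const, ← ha]
      ring
    rw [e] at this
    linarith
  refine (avg_mono h1).trans (le_of_eq ?_)
  exact avg_merge T (fun y => F y ^ 2)

lemma VanOn.EA {A T : Finset ι} {F : (ι → Y) → ℝ} (h : VanOn A F) (hT : Disjoint T A) :
    VanOn A (EA T F) := by
  intro x a ha b hb hab hx
  unfold Vale.Agent.Lib.P162.QF.EA
  have h0 : ∀ z : ι → Y, F (merge T x z) = 0 := by
    intro z
    apply h _ a ha b hb hab
    rw [merge_not_mem (Finset.disjoint_right.mp hT ha), merge_not_mem (Finset.disjoint_right.mp hT hb)]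
    exact hx
  simp only [h0]
  exact avg_const 0

lemma EA_empty (F : (ι → Y) → ℝ) : EA (∅ : Finset ι) F = F := by
  funext x
  unfold EA
  have e : ∀ z : ι → Y, merge ∅ x z = x := by
    intro z
    funext i
    simp [merge]
  simp only [e]
  exact avg_const _

end gen

section pass
variable {ι : Type*} [Fintype ι] [DecidableEq ι] {D : ℕ}

/-- `EA T` and `QA A` commute when `T` and `A` are disjoint -/
lemma EA_QA (T A : Finset ι) (hT : Disjoint T A) (F : (ι → Pos D) → ℝ) :
    EA T (QA D A F) = QA D A (EA T F) := by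
  funext x
  unfold EA QA
  rw [Exp_avg]
  refine Exp_congr D fun g => avg_congr fun z => ?_
  congr 1
  funext i
  by_cases h1 : i ∈ A
  · have h2 : i ∉ T := Finset.disjoint_right.mp hT h1
    simp [merge, h1, h2]
  · by_cases h2 : i ∈ T
    · simp [merge, h1, h2]
    · simp [merge, h1, h2]

lemma VanOn.QA {A B : Finset ι} {F : (ι → Pos D) → ℝ} (h : VanOn A F) (hB : Disjoint B A) :
    VanOn A (QA D B F) := by
  intro x a ha b hb hab hx
  unfold Vale.Agent.Lib.P162.QF.QA
  have h0 : ∀ g : Perm (Pos D), F (fun i => if i ∈ B then g⁻¹ (x i) else x i) = 0 := by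
    intro g
    apply h _ a ha b hb hab
    simp only [Finset.disjoint_right.mp hB ha, Finset.disjoint_right.mp hB hb, if_false]
    exact hx
  simp only [h0]
  exact Exp_zero_fun D

end pass

end Vale.Agent.Lib.P162.QF
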