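import Vale.Agent.Lib.P162.QF.Bonami

/-!
# The core lemma: assembly of the parts
-/

namespace Vale.Agent.Lib.P162.QF

open Vale.Agent.Lib.P162 Equiv Finset

set_option linter.unusedSectionVars false
set_option linter.unusedSimpArgs false
set_option linter.unusedVariables false

variable {ι Y : Type*} [Fintype ι] [DecidableEq ι] [Fintype Y] [DecidableEq Y] [Nonempty Y]

lemma prI_nonneg (K : Finset ι) (χ : ι → Bool) (u : ι → Y) : 0 ≤ prI K χ u := by
  unfold prI; split_ifs <;> norm_num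

lemma prI_sq (K : Finset ι) (χ : ι → Bool) (u : ι → Y) : prI K χ u ^ 2 = prI K χ u := by
  unfold prI; split_ifs <;> norm_num

lemma prI_congr_u {K : Finset ι} {χ : ι → Bool} {u v : ι → Y} (h : ∀ a ∈ K, u a = v a) :
    prI K χ u = prI K χ v := by
  have : Proper K χ u ↔ Proper K χ v := by
    constructor
    · intro hp a ha b hb hab huv
      exact hp a ha b hb hab (by rw [h a ha, h b hb]; exact huv)
    · intro hp a ha b hb hab huv
      exact hp a ha b hb hab (by rw [← h a ha, ← h b hb]; exact huv)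
  unfold prI
  by_cases hu : Proper K χ u
  · rw [if_pos hu, if_pos (this.mp hu)]
  · rw [if_neg hu, if_neg (fun h => hu (this.mpr h))]

lemma prI_zero_of_not_TF {K : Finset ι} {u : ι → Y} (h : ¬ TF K u) (χ : ι → Bool) :
    prI K χ u = 0 := by
  unfold prI
  rw [if_neg]
  exact fun hp => h hp.TF

lemma fibK_congr {K : Finset ι} {u v : ι → Y} (h : ∀ a ∈ K, u a = v a) (l : Y) :
    fibK K u l = fibK K v l := by
  unfold fibK
  refine filter_congr fun a ha => ?_
  rw [h a ha]

lemma TF_congr {K : Finset ι} {u v : ι → Y} (h : ∀ a ∈ K, u a = v a) : TF K u ↔ TF K v := by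
  unfold TF
  simp only [fibK_congr h]

lemma ePairs_congr {K : Finset ι} {u v : ι → Y} (h : ∀ a ∈ K, u a = v a) :
    ePairs K u = ePairs K v := by
  unfold ePairs
  simp only [fibK_congr h]

lemma Sing_congr {K : Finset ι} {u v : ι → Y} (h : ∀ a ∈ K, u a = v a) : Sing K u = Sing K v := by
  unfold Sing
  refine filter_congr fun a ha => ?_
  rw [fibK_congr h, h a ha]

lemma merge_sdiff_eq {W K : Finset ι} (u u' : ι → Y) :
    ∀ a ∈ K \ W, merge W u u' a = u a := by
  intro a ha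
  exact merge_not_mem (mem_sdiff.mp ha).2

/-- Cauchy-Schwarz for averages -/
lemma avg_CS {Z : Type*} [Fintype Z] (a b : Z → ℝ) :
    (avg fun z => a z * b z) ^ 2 ≤ (avg fun z => a z ^ 2) * avg fun z => b z ^ 2 := by
  unfold avg
  have h := Finset.sum_mul_sq_le_sq_mul_sq (Finset.univ : Finset Z) a b
  set c : ℝ := (Fintype.card Z : ℝ)⁻¹ with hc
  have hc0 : 0 ≤ c ^ 2 := sq_nonneg _
  calc (c * ∑ z, a z * b z) ^ 2 = c ^ 2 * (∑ z, a z * b z) ^ 2 := by ring
    _ ≤ c ^ 2 * ((∑ z, a z ^ 2) * ∑ z, b z ^ 2) := mul_le_mul_of_nonneg_left h hc0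
    _ = _ := by ring

open Classical in
/-- the part of the `W`-average with a given partner set -/
noncomputable def hT (W K T : Finset ι) (φ : (ι → Y) → ℝ) (u : ι → Y) : ℝ :=
  avg fun u' : ι → Y => if Cfg W K T (merge W u u') then φ (merge W u u') else 0

/-- the Fourier coefficients in the remaining colours -/
noncomputable def xT (W K T : Finset ι) (φ : (ι → Y) → ℝ) (u : ι → Y) : ℝ :=
  (-(1 / 2 : ℝ)) ^ ((W.card + T.card) / 2) * hT W K T φ u

open Classical in
lemma Cfg_iff {W K T : Finset ι} {v : ι → Y} :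
    Cfg W K T v ↔ (TF K v ∧ AllPaired W K v) ∧ T = Tpart W (K \ W) v := by
  unfold Cfg
  constructor
  · rintro ⟨h1, h2, h3⟩; exact ⟨⟨h1, h2⟩, h3.symm⟩
  · rintro ⟨⟨h1, h2⟩, h3⟩; exact ⟨h1, h2, h3.symm⟩

lemma Tpart_subset (W S : Finset ι) (v : ι → Y) : Tpart W S v ⊆ S := filter_subset _ _

/-- the `W`-Fourier coefficient of `prI * φ` -/
theorem inner_eq {W K : Finset ι} (hW : W ⊆ K) (φ : (ι → Y) → ℝ) (χ : ι → Bool) (u : ι → Y) :
    (avg fun χ' : ι → Bool => wsign W χ' *
        avg fun u' : ι → Y => prI K (merge W χ χ') (merge W u u') * φ (merge W u u')) =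
      prI (K \ W) χ u * ∑ T ∈ (K \ W).powerset, wsign T χ * xT W K T φ u := by
  classical
  have e1 : (avg fun χ' : ι → Bool => wsign W χ' *
        avg fun u' : ι → Y => prI K (merge W χ χ') (merge W u u') * φ (merge W u u')) =
      avg fun u' : ι → Y => φ (merge W u u') *
        avg fun χ' : ι → Bool => wsign W χ' * prI K (merge W χ χ') (merge W u u') := by
    simp only [← avg_mul_left]
    rw [avg_comm]
    refine avg_congr fun u' => avg_congr fun χ' => ?_
    ring
  rw [e1]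
  have e2 : prI (K \ W) χ u * ∑ T ∈ (K \ W).powerset, wsign T χ * xT W K T φ u =
      avg fun u' : ι → Y => prI (K \ W) χ u * ∑ T ∈ (K \ W).powerset, wsign T χ *
        ((-(1 / 2 : ℝ)) ^ ((W.card + T.card) / 2) *
          if Cfg W K T (merge W u u') then φ (merge W u u') else 0) := by
    rw [avg_mul_left, avg_sum]
    congr 1
    refine sum_congr rfl fun T _ => ?_
    unfold xT hT
    rw [avg_mul_left, avg_mul_left]
  rw [e2]
  refine avg_congr fun u' => ?_
  set v := merge W u u' with hv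
  have hpr : prI (K \ W) χ v = prI (K \ W) χ u := prI_congr_u (merge_sdiff_eq u u')
  by_cases hTF : TF K v
  · rw [coef_formula hW χ v hTF]
    by_cases hP : AllPaired W K v
    · rw [if_pos hP, hpr]
      have hmem : Tpart W (K \ W) v ∈ (K \ W).powerset := mem_powerset.mpr (Tpart_subset _ _ _)
      rw [sum_eq_single_of_mem _ hmem]
      · rw [if_pos ⟨hTF, hP, rfl⟩]
        ring
      · intro T _ hne
        rw [if_neg]
        · ring
        · rintro ⟨_, _, h3⟩
          exact hne h3.symm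
    · rw [if_neg hP]
      have : ∀ T ∈ (K \ W).powerset, wsign T χ *
          ((-(1 / 2 : ℝ)) ^ ((W.card + T.card) / 2) *
            if Cfg W K T v then φ v else 0) = 0 := by
        intro T _
        rw [if_neg]
        · ring
        · rintro ⟨_, h2, _⟩
          exact hP h2
      rw [sum_eq_zero this]
      ring
  · have h0 : ∀ χ' : ι → Bool, wsign W χ' * prI K (merge W χ χ') v = 0 := by
      intro χ'
      rw [prI_zero_of_not_TF hTF, mul_zero]
    simp only [h0]
    have h00 : (avg fun _ : ι → Bool => (0 : ℝ)) = 0 := avg_const 0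
    rw [h00]
    have : ∀ T ∈ (K \ W).powerset, wsign T χ *
        ((-(1 / 2 : ℝ)) ^ ((W.card + T.card) / 2) *
          if Cfg W K T v then φ v else 0) = 0 := by
      intro T _
      rw [if_neg]
      · ring
      · rintro ⟨h1, _, _⟩
        exact hTF h1
    rw [sum_eq_zero this]
    ring

/-- the weight of a partner set -/
noncomputable def zT (m r t : ℕ) : ℝ :=
  3 ^ t * (1 / 4 : ℝ) ^ ((r + t) / 2) * Nfib t ((r - t) / 2) * ((m : ℝ) ^ ((r + t) / 2))⁻¹

lemma Nfib_nonneg (t1 t2 : ℕ) : 0 ≤ Nfib t1 t2 := by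
  unfold Nfib; positivity

lemma zT_nonneg (m r t : ℕ) : 0 ≤ zT m r t := by
  unfold zT
  have := Nfib_nonneg t ((r - t) / 2)
  positivity

lemma Gtwo_nonneg (g : ℕ → ℝ) (f s' : ℕ) : 0 ≤ Gtwo g f s' := Real.sqrt_nonneg _

open Classical in
/-- the mass of `φ ^ 2` on the configurations -/
noncomputable def iP (W K T : Finset ι) (φ : (ι → Y) → ℝ) (u : ι → Y) : ℝ :=
  avg fun u' : ι → Y => if Cfg W K T (merge W u u') then φ (merge W u u') ^ 2 else 0

lemma iP_nonneg (W K T : Finset ι) (φ : (ι → Y) → ℝ) (u : ι → Y) : 0 ≤ iP W K T φ u := by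
  classical
  unfold iP
  refine avg_nonneg fun u' => ?_
  split_ifs
  · positivity
  · exact le_rfl

/-- Cauchy-Schwarz and the density bound -/
lemma xT_sq_le {W K T : Finset ι} (hW : W ⊆ K) (φ : (ι → Y) → ℝ) (u : ι → Y) :
    (3 : ℝ) ^ T.card * xT W K T φ u ^ 2 ≤ zT (Fintype.card Y) W.card T.card * iP W K T φ u := by
  classical
  by_cases hex : ∃ u' : ι → Y, Cfg W K T (merge W u u')
  · obtain ⟨u0, h1, h2, h3⟩ := hex
    obtain ⟨t2, ht1, ht2⟩ := pattern_numbers hW (merge W u u0) h1 h2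
    rw [h3] at ht1
    have e1 : (W.card + T.card) / 2 = T.card + t2 := by omega
    have e2 : (W.card - T.card) / 2 = t2 := by omega
    have hCS : hT W K T φ u ^ 2 ≤
        (avg fun u' : ι → Y => if Cfg W K T (merge W u u') then (1 : ℝ) else 0) * iP W K T φ u := by
      have := avg_CS (fun u' : ι → Y => if Cfg W K T (merge W u u') then (1 : ℝ) else 0)
        (fun u' : ι → Y => if Cfg W K T (merge W u u') then φ (merge W u u') else 0)
      have e3 : ∀ u' : ι → Y, (if Cfg W K T (merge W u u') then (1 : ℝ) else 0) *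
          (if Cfg W K T (merge W u u') then φ (merge W u u') else 0) =
          if Cfg W K T (merge W u u') then φ (merge W u u') else 0 := by
        intro u'; split_ifs <;> simp
      have e4 : ∀ u' : ι → Y, (if Cfg W K T (merge W u u') then (1 : ℝ) else 0) ^ 2 =
          if Cfg W K T (merge W u u') then (1 : ℝ) else 0 := by
        intro u'; split_ifs <;> simp
      have e5 : ∀ u' : ι → Y, (if Cfg W K T (merge W u u') then φ (merge W u u') else 0) ^ 2 =
          if Cfg W K T (merge W u u') then φ (merge W u u') ^ 2 else 0 := by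
        intro u'; split_ifs <;> simp
      simp only [e3, e4, e5] at this
      exact this
    have hdens := fib_density hW u T.card t2 rfl ht1
    have hiP := iP_nonneg W K T φ u
    have h4 : hT W K T φ u ^ 2 ≤ (Nfib T.card t2 * (((Fintype.card Y : ℝ)) ^ (T.card + t2))⁻¹) *
        iP W K T φ u := hCS.trans (mul_le_mul_of_nonneg_right hdens hiP)
    unfold xT zT
    rw [e1, e2]
    have e6 : ((-(1 / 2 : ℝ)) ^ (T.card + t2) * hT W K T φ u) ^ 2 =
        (1 / 4 : ℝ) ^ (T.card + t2) * hT W K T φ u ^ 2 := by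
      rw [mul_pow, ← pow_mul, mul_comm (T.card + t2) 2, pow_mul]
      norm_num
    rw [e6]
    have h5 : (0 : ℝ) ≤ 3 ^ T.card * (1 / 4 : ℝ) ^ (T.card + t2) := by positivity
    calc (3 : ℝ) ^ T.card * ((1 / 4 : ℝ) ^ (T.card + t2) * hT W K T φ u ^ 2)
        = (3 ^ T.card * (1 / 4 : ℝ) ^ (T.card + t2)) * hT W K T φ u ^ 2 := by ring
      _ ≤ (3 ^ T.card * (1 / 4 : ℝ) ^ (T.card + t2)) *
          ((Nfib T.card t2 * (((Fintype.card Y : ℝ)) ^ (T.card + t2))⁻¹) * iP W K T φ u) :=
          mul_le_mul_of_nonneg_left h4 h5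
      _ = _ := by ring
  · push Not at hex
    have h1 : hT W K T φ u = 0 := by
      unfold hT
      simp only [if_neg (hex _), avg_const]
    have h2 : iP W K T φ u = 0 := by
      unfold iP
      simp only [if_neg (hex _), avg_const]
    unfold xT
    rw [h1, h2]
    simp

open Classical in
/-- the coefficient of `φ (v) ^ 2` coming from `W` -/
noncomputable def cc (g : ℕ → ℝ) (W K : Finset ι) (v : ι → Y) : ℝ :=
  ((2 : ℝ) ^ ePairs (K \ W) v)⁻¹ * Gtwo g (ePairs (K \ W) v) ((K \ W).card - 2 * ePairs (K \ W) v) *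
    ∑ T ∈ (K \ W).powerset, zT (Fintype.card Y) W.card T.card * if Cfg W K T v then (1 : ℝ) else 0

/-- the term of `W` is bounded by the coefficient `cc` -/
theorem term_le (g : ℕ → ℝ) (hg : ∀ s, 0 ≤ g s) {W K : Finset ι} (hW : W ⊆ K) (φ : (ι → Y) → ℝ) :
    (avg fun χ : ι → Bool => avg fun u : ι → Y =>
      gg g χ (K \ W) *
        (avg fun χ' : ι → Bool => wsign W χ' *
          avg fun u' : ι → Y => prI K (merge W χ χ') (merge W u u') * φ (merge W u u')) ^ 2) ≤
      avg fun v : ι → Y => cc g W K v * φ v ^ 2 := by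
  classical
  simp only [inner_eq hW φ]
  rw [avg_comm]
  rw [← avg_merge W (fun v : ι → Y => cc g W K v * φ v ^ 2)]
  refine avg_mono fun u => ?_
  set S := K \ W with hS
  set X : (ι → Bool) → ℝ := fun χ => ∑ T ∈ S.powerset, wsign T χ * xT W K T φ u with hX
  have hGP : 0 ≤ ((2 : ℝ) ^ ePairs S u)⁻¹ * Gtwo g (ePairs S u) (S.card - 2 * ePairs S u) :=
    mul_nonneg (by positivity) (Gtwo_nonneg _ _ _)
  have h1 : (avg fun χ : ι → Bool => gg g χ S * (prI S χ u * X χ) ^ 2) ≤
      ((2 : ℝ) ^ ePairs S u)⁻¹ * Gtwo g (ePairs S u) (S.card - 2 * ePairs S u) *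
        ∑ T ∈ S.powerset, (3 : ℝ) ^ T.card * xT W K T φ u ^ 2 := by
    by_cases hTF : TF S u
    · have := avg_gg_proper_le g hg S u hTF (fun T => xT W K T φ u) (by
        intro T _ hTs
        have h0 : hT W K T φ u = 0 := by
          unfold hT
          have : ∀ u' : ι → Y, ¬ Cfg W K T (merge W u u') := by
            rintro u' ⟨h1, _, h3⟩
            apply hTs
            rw [← h3]
            refine (Tpart_subset_Sing hW _ h1).trans ?_
            rw [hS, Sing_congr (merge_sdiff_eq u u')]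
          simp only [if_neg (this _), avg_const]
        show xT W K T φ u = 0
        unfold xT
        rw [h0, mul_zero])
      refine le_trans (le_of_eq ?_) this
      refine avg_congr fun χ => ?_
      rw [mul_pow, prI_sq]
      ring
    · have h0 : ∀ χ : ι → Bool, gg g χ S * (prI S χ u * X χ) ^ 2 = 0 := by
        intro χ
        rw [prI_zero_of_not_TF hTF]
        ring
      simp only [h0, avg_const]
      refine mul_nonneg hGP (sum_nonneg fun T _ => ?_)
      positivity
  refine h1.trans ?_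
  have h2 : ∑ T ∈ S.powerset, (3 : ℝ) ^ T.card * xT W K T φ u ^ 2 ≤
      ∑ T ∈ S.powerset, zT (Fintype.card Y) W.card T.card * iP W K T φ u :=
    sum_le_sum fun T _ => xT_sq_le hW φ u
  refine (mul_le_mul_of_nonneg_left h2 hGP).trans (le_of_eq ?_)
  unfold iP
  simp only [← avg_mul_left]
  rw [← avg_sum, ← avg_mul_left]
  refine avg_congr fun u' => ?_
  unfold cc
  rw [← hS, ePairs_congr (merge_sdiff_eq u u' : ∀ a ∈ S, _)]
  have e : ∀ T ∈ S.powerset, zT (Fintype.card Y) W.card T.card *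
      (if Cfg W K T (merge W u u') then φ (merge W u u') ^ 2 else 0) =
      (zT (Fintype.card Y) W.card T.card * if Cfg W K T (merge W u u') then (1 : ℝ) else 0) *
        φ (merge W u u') ^ 2 := by
    intro T _
    split_ifs <;> ring
  rw [sum_congr rfl e, ← sum_mul]
  ring

lemma card_eq_sum_fib (K : Finset ι) (u : ι → Y) : K.card = ∑ l : Y, (fibK K u l).card := by
  unfold fibK
  exact Finset.card_eq_sum_card_fiberwise (fun a _ => Finset.mem_coe.mpr (Finset.mem_univ (u a)))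

lemma TF.card_le {K : Finset ι} {u : ι → Y} (h : TF K u) : K.card ≤ 2 * Fintype.card Y := by
  rw [card_eq_sum_fib K u]
  calc ∑ l : Y, (fibK K u l).card ≤ ∑ _l : Y, 2 := sum_le_sum fun l _ => h l
    _ = 2 * Fintype.card Y := by rw [sum_const, card_univ, smul_eq_mul, mul_comm]

lemma two_ePairs_le (K : Finset ι) (u : ι → Y) : 2 * ePairs K u ≤ K.card := by
  rw [card_eq_sum_fib K u]
  unfold ePairs
  calc 2 * (univ.filter fun l : Y => (fibK K u l).card = 2).card
      = ∑ l ∈ univ.filter fun l : Y => (fibK K u l).card = 2, (fibK K u l).card := by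
        rw [sum_congr rfl (fun l hl => (mem_filter.mp hl).2), sum_const, smul_eq_mul, mul_comm]
    _ ≤ ∑ l : Y, (fibK K u l).card :=
        sum_le_sum_of_subset (filter_subset _ _)

/-- the value of a valid `W` with pattern numbers `t1, t2` -/
noncomputable def valT (g : ℕ → ℝ) (m e s t1 t2 : ℕ) : ℝ :=
  ((2 : ℝ) ^ (e - t1 - t2))⁻¹ * Gtwo g (e - t1 - t2) (s - (t1 + 2 * t2) - 2 * (e - t1 - t2)) *
    (3 ^ t1 * (1 / 4 : ℝ) ^ (t1 + t2) * Nfib t1 t2 * ((m : ℝ) ^ (t1 + t2))⁻¹)

lemma valT_nonneg (g : ℕ → ℝ) (m e s t1 t2 : ℕ) : 0 ≤ valT g m e s t1 t2 := by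
  unfold valT
  have h1 := Nfib_nonneg t1 t2
  have h2 := Gtwo_nonneg g (e - t1 - t2) (s - (t1 + 2 * t2) - 2 * (e - t1 - t2))
  positivity

lemma cc_not_paired (g : ℕ → ℝ) {W K : Finset ι} {v : ι → Y} (h : ¬ (TF K v ∧ AllPaired W K v)) :
    cc g W K v = 0 := by
  classical
  unfold cc
  have : ∀ T ∈ (K \ W).powerset, zT (Fintype.card Y) W.card T.card *
      (if Cfg W K T v then (1 : ℝ) else 0) = 0 := by
    intro T _
    rw [if_neg, mul_zero]
    rintro ⟨h1, h2, _⟩
    exact h ⟨h1, h2⟩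
  rw [sum_eq_zero this, mul_zero]

lemma cc_eq_val (g : ℕ → ℝ) {W K : Finset ι} (hW : W ⊆ K) {v : ι → Y} (h1 : TF K v)
    (h2 : AllPaired W K v) {t2 : ℕ} (ht1 : W.card = (Tpart W (K \ W) v).card + 2 * t2)
    (ht2 : ePairs K v = ePairs (K \ W) v + (Tpart W (K \ W) v).card + t2) :
    cc g W K v = valT g (Fintype.card Y) (ePairs K v) K.card (Tpart W (K \ W) v).card t2 := by
  classical
  unfold cc valT
  set T0 := Tpart W (K \ W) v with hT0
  have hmem : T0 ∈ (K \ W).powerset := mem_powerset.mpr (Tpart_subset _ _ _)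
  rw [sum_eq_single_of_mem _ hmem]
  · rw [if_pos ⟨h1, h2, rfl⟩, mul_one]
    have e1 : ePairs (K \ W) v = ePairs K v - T0.card - t2 := by omega
    have e2 : (K \ W).card = K.card - (T0.card + 2 * t2) := by
      rw [card_sdiff_of_subset hW, ht1]
    rw [← e1, ← e2]
    unfold zT
    have e3 : (W.card + T0.card) / 2 = T0.card + t2 := by omega
    have e4 : (W.card - T0.card) / 2 = t2 := by omega
    rw [e3, e4]
  · intro T _ hne
    rw [if_neg, mul_zero]
    rintro ⟨_, _, h3⟩
    exact hne h3.symm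

/-- the sum of the coefficients of the nonempty `W` -/
theorem sum_cc_le (g : ℕ → ℝ) (K : Finset ι) (v : ι → Y) (hv : TF K v) :
    ∑ W ∈ K.powerset.erase ∅, cc g W K v ≤
      ∑ t2 ∈ range (ePairs K v + 1), ∑ t1 ∈ range (ePairs K v - t2 + 1),
        if t1 = 0 ∧ t2 = 0 then 0 else
          (((ePairs K v).choose t2 : ℝ) * ((ePairs K v - t2).choose t1 : ℝ) * 2 ^ t1) *
            valT g (Fintype.card Y) (ePairs K v) K.card t1 t2 := by
  classical
  set e := ePairs K v with he
  set 𝒲 := (K.powerset.erase ∅).filter fun W => AllPaired W K v with h𝒲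
  have h1 : ∑ W ∈ K.powerset.erase ∅, cc g W K v = ∑ W ∈ 𝒲, cc g W K v := by
    rw [h𝒲, sum_filter]
    refine sum_congr rfl fun W _ => ?_
    split_ifs with hP
    · rfl
    · exact cc_not_paired g (fun h => hP h.2)
  rw [h1, Finset.sum_sigma']
  set tt : Finset ι → (Σ _ : ℕ, ℕ) := fun W =>
    ⟨(W.card - (Tpart W (K \ W) v).card) / 2, (Tpart W (K \ W) v).card⟩ with htt
  have hmaps : ∀ W ∈ 𝒲, tt W ∈ (range (e + 1)).sigma fun t2 => range (e - t2 + 1) := by
    intro W hW
    obtain ⟨hW1, hW2⟩ := mem_filter.mp hW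
    have hWK : W ⊆ K := mem_powerset.mp (mem_of_mem_erase hW1)
    obtain ⟨t2, ht1, ht2⟩ := pattern_numbers hWK v hv hW2
    rw [← he] at ht2
    have e4 : (W.card - (Tpart W (K \ W) v).card) / 2 = t2 := by omega
    simp only [htt, mem_sigma, mem_range, e4]
    omega
  rw [← Finset.sum_fiberwise_of_maps_to hmaps]
  refine sum_le_sum fun y hy => ?_
  rcases y with ⟨t2, t1⟩
  have hy' := mem_sigma.mp hy
  simp only [mem_range] at hy'
  have hfib : ∀ W ∈ 𝒲.filter (fun W => tt W = ⟨t2, t1⟩),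
      cc g W K v = valT g (Fintype.card Y) e K.card t1 t2 ∧
        W ∈ K.powerset.filter fun W => AllPaired W K v ∧ (Tpart W (K \ W) v).card = t1 ∧
          W.card = t1 + 2 * t2 := by
    intro W hW
    obtain ⟨hW0, hW3⟩ := mem_filter.mp hW
    obtain ⟨hW1, hW2⟩ := mem_filter.mp hW0
    have hWK : W ⊆ K := mem_powerset.mp (mem_of_mem_erase hW1)
    obtain ⟨t2', ht1, ht2⟩ := pattern_numbers hWK v hv hW2
    have e4 : (W.card - (Tpart W (K \ W) v).card) / 2 = t2' := by omega
    simp only [htt, e4, Sigma.mk.injEq, heq_eq_eq] at hW3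
    obtain ⟨h5, h6⟩ := hW3
    subst h5
    have h7 := cc_eq_val g hWK hv hW2 ht1 ht2
    rw [h6] at h7 ht1
    refine ⟨h7, mem_filter.mpr ⟨mem_powerset.mpr hWK, hW2, h6, ht1⟩⟩
  have hV := valT_nonneg g (Fintype.card Y) e K.card t1 t2
  by_cases h00 : t1 = 0 ∧ t2 = 0
  · rw [if_pos h00]
    have : 𝒲.filter (fun W => tt W = ⟨t2, t1⟩) = ∅ := by
      rw [Finset.filter_eq_empty_iff]
      intro W hW hW3
      have := (hfib W (mem_filter.mpr ⟨hW, hW3⟩)).2
      obtain ⟨_, _, _, h8⟩ := mem_filter.mp this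
      obtain ⟨hW1, _⟩ := mem_filter.mp hW
      have h9 : W ≠ ∅ := ne_of_mem_erase hW1
      apply h9
      rw [← card_eq_zero, h8, h00.1, h00.2]
    rw [this, sum_empty]
  · rw [if_neg h00]
    have hsum : ∑ W ∈ 𝒲.filter (fun W => tt W = ⟨t2, t1⟩), cc g W K v =
        ((𝒲.filter (fun W => tt W = ⟨t2, t1⟩)).card : ℝ) * valT g (Fintype.card Y) e K.card t1 t2 := by
      rw [sum_congr rfl (fun W hW => (hfib W hW).1), sum_const, nsmul_eq_mul]
    rw [hsum]
    refine mul_le_mul_of_nonneg_right ?_ hV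
    refine le_trans ?_ (count_W K v hv t1 t2)
    exact_mod_cast card_le_card fun W hW => (hfib W hW).2

/-- the identity between the weights and the terms of `tot` -/
lemma val_mul_eq (g : ℕ → ℝ) (m e s t1 t2 : ℕ) (h : t1 + t2 ≤ e) :
    ((e.choose t2 : ℝ) * ((e - t2).choose t1 : ℝ) * 2 ^ t1) * valT g m e s t1 t2 =
      ((2 : ℝ) ^ e)⁻¹ * ((e.choose t2 : ℝ) * ((e - t2).choose t1 : ℝ) * 6 ^ t1 *
        (((2 * m : ℕ) : ℝ) ^ (t1 + t2))⁻¹ * Nfib t1 t2 *
          Gtwo g (e - t1 - t2) (s - (t1 + 2 * t2) - 2 * (e - t1 - t2))) := by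
  unfold valT
  have e1 : (2 : ℝ) ^ e = 2 ^ (e - t1 - t2) * 2 ^ (t1 + t2) := by
    rw [← pow_add]; congr 1; omega
  have e2 : (((2 * m : ℕ) : ℝ) ^ (t1 + t2))⁻¹ = ((2 : ℝ) ^ (t1 + t2))⁻¹ * ((m : ℝ) ^ (t1 + t2))⁻¹ := by
    push_cast
    rw [mul_pow, mul_inv]
  have e3 : (6 : ℝ) ^ t1 = 2 ^ t1 * 3 ^ t1 := by
    rw [← mul_pow]; norm_num
  have e4 : (1 / 4 : ℝ) ^ (t1 + t2) = ((2 : ℝ) ^ (t1 + t2))⁻¹ * ((2 : ℝ) ^ (t1 + t2))⁻¹ := by
    rw [← mul_inv, ← mul_pow, one_div, inv_pow]
    norm_num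
  rw [e1, e2, e3, e4, mul_inv]
  have h2 : (2 : ℝ) ^ (t1 + t2) ≠ 0 := by positivity
  field_simp

/-- the core lemma, abstract in the label set `Y` and in the function `φ` -/
theorem core_lemma (g : ℕ → ℝ) (hg : ∀ s, 0 ≤ g s) (K : Finset ι) (φ : (ι → Y) → ℝ) (C : ℝ)
    (hC : ∀ e, 2 * e ≤ K.card → K.card ≤ 2 * Fintype.card Y → tot g (Fintype.card Y) e K.card ≤ C) :
    (∑ W ∈ K.powerset, avg fun χ : ι → Bool => avg fun u : ι → Y =>
      gg g χ (K \ W) *
        (avg fun χ' : ι → Bool => wsign W χ' *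
          avg fun u' : ι → Y => prI K (merge W χ χ') (merge W u u') * φ (merge W u u')) ^ 2) ≤
      C * avg fun u : ι → Y => (avg fun χ : ι → Bool => prI K χ u) * φ u ^ 2 := by
  classical
  have hemp : (∅ : Finset ι) ∈ K.powerset := empty_mem_powerset K
  rw [← add_sum_erase _ _ hemp]
  have hmerge0 : ∀ a b : ι → Y, merge ∅ a b = a := fun a b => by funext i; simp [merge]
  have hmerge0' : ∀ a b : ι → Bool, merge ∅ a b = a := fun a b => by funext i; simp [merge]
  have h0 : (avg fun χ : ι → Bool => avg fun u : ι → Y =>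
      gg g χ (K \ ∅) *
        (avg fun χ' : ι → Bool => wsign ∅ χ' *
          avg fun u' : ι → Y => prI K (merge ∅ χ χ') (merge ∅ u u') * φ (merge ∅ u u')) ^ 2) =
      avg fun v : ι → Y => (avg fun χ : ι → Bool => gg g χ K * prI K χ v) * φ v ^ 2 := by
    rw [avg_comm]
    refine avg_congr fun v => ?_
    simp only [hmerge0, hmerge0', sdiff_empty, wsign, prod_empty, one_mul, avg_const]
    rw [← avg_mul_right]
    refine avg_congr fun χ => ?_
    rw [mul_pow, prI_sq]
    ring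
  rw [h0]
  have h1 : ∑ W ∈ K.powerset.erase ∅, (avg fun χ : ι → Bool => avg fun u : ι → Y =>
      gg g χ (K \ W) *
        (avg fun χ' : ι → Bool => wsign W χ' *
          avg fun u' : ι → Y => prI K (merge W χ χ') (merge W u u') * φ (merge W u u')) ^ 2) ≤
      ∑ W ∈ K.powerset.erase ∅, avg fun v : ι → Y => cc g W K v * φ v ^ 2 :=
    sum_le_sum fun W hW => term_le g hg (mem_powerset.mp (mem_of_mem_erase hW)) φ
  refine (add_le_add_right h1 _).trans ?_
  rw [← avg_sum, ← avg_add, ← avg_mul_left]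
  refine avg_mono fun v => ?_
  have hφ : 0 ≤ φ v ^ 2 := sq_nonneg _
  by_cases hTF : TF K v
  · have h2 := sum_cc_le g K v hTF
    set e := ePairs K v with he
    have h3 : (avg fun χ : ι → Bool => gg g χ K * prI K χ v) =
        ((2 : ℝ) ^ e)⁻¹ * Gone g e (K.card - 2 * e) := avg_gg_proper_eq g K v hTF
    have h4 := avg_prI K v hTF
    rw [← he] at h4
    rw [h4, h3, ← sum_mul, ← add_mul, ← mul_assoc]
    refine mul_le_mul_of_nonneg_right ?_ hφ
    have h5 : ∑ t2 ∈ range (e + 1), ∑ t1 ∈ range (e - t2 + 1),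
        (if t1 = 0 ∧ t2 = 0 then 0 else
          ((e.choose t2 : ℝ) * ((e - t2).choose t1 : ℝ) * 2 ^ t1) *
            valT g (Fintype.card Y) e K.card t1 t2) =
        ((2 : ℝ) ^ e)⁻¹ * ∑ t2 ∈ range (e + 1), ∑ t1 ∈ range (e - t2 + 1),
          (if t1 = 0 ∧ t2 = 0 then 0 else
            (e.choose t2 : ℝ) * ((e - t2).choose t1 : ℝ) * 6 ^ t1 *
              (((2 * Fintype.card Y : ℕ) : ℝ) ^ (t1 + t2))⁻¹ * Nfib t1 t2 *
                Gtwo g (e - t1 - t2) (K.card - (t1 + 2 * t2) - 2 * (e - t1 - t2))) := by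
      rw [mul_sum]
      refine sum_congr rfl fun t2 ht2 => ?_
      rw [mul_sum]
      refine sum_congr rfl fun t1 ht1 => ?_
      have h6 := mem_range.mp ht1
      have h7 := mem_range.mp ht2
      split_ifs with h8
      · simp
      · exact val_mul_eq g _ e _ t1 t2 (by omega)
    rw [h5] at h2
    have h6 : ((2 : ℝ) ^ e)⁻¹ * Gone g e (K.card - 2 * e) +
        ∑ W ∈ K.powerset.erase ∅, cc g W K v ≤ ((2 : ℝ) ^ e)⁻¹ * tot g (Fintype.card Y) e K.card := by
      unfold tot
      rw [mul_add]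
      exact add_le_add_right h2 _
    refine h6.trans ?_
    have h7 := hC e (two_ePairs_le K v) hTF.card_le
    calc ((2 : ℝ) ^ e)⁻¹ * tot g (Fintype.card Y) e K.card ≤ ((2 : ℝ) ^ e)⁻¹ * C :=
          mul_le_mul_of_nonneg_left h7 (by positivity)
      _ = C * ((2 : ℝ) ^ e)⁻¹ := by ring
  · have h2 : ∀ χ : ι → Bool, prI K χ v = 0 := prI_zero_of_not_TF hTF
    simp only [h2, mul_zero, avg_const, zero_mul]
    have h3 : ∀ W ∈ K.powerset.erase ∅, cc g W K v * φ v ^ 2 = 0 := by
      intro W _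
      rw [cc_not_paired g (fun h => hTF h.1), zero_mul]
    rw [sum_eq_zero h3]
    simp

end Vale.Agent.Lib.P162.QF
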