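import Vale.Agent.Lib.P162.QF.Num4

/-!
# The numerical inequality: statement
-/

namespace Vale.Agent.Lib.P162.QF

open Vale.Agent.Lib.P162 Equiv Finset

lemma gD_nonneg (D s : ℕ) : 0 ≤ gD D s := gD_nonneg' D s

private lemma passive_geo (a b : ℝ) (t1 t2 : ℕ) (ha0 : 0 ≤ a) (hb0 : 0 ≤ b) (ha : a ≤ 72 / 10 ^ 4)
    (hb : b ≤ 72 / 10 ^ 4) (h : ¬(t1 = 0 ∧ t2 = 0)) :
    a ^ t1 * b ^ t2 ≤ 144 / 10 ^ 4 * ((1 / 2) ^ t1 * (1 / 2) ^ t2) := by
  have key : (2 * a) ^ t1 * (2 * b) ^ t2 ≤ 144 / 10 ^ 4 := by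
    have h2a : 2 * a ≤ 144 / 10 ^ 4 := by linarith
    have h2b : 2 * b ≤ 144 / 10 ^ 4 := by linarith
    have h2a1 : 2 * a ≤ 1 := by linarith [show (144 : ℝ) / 10 ^ 4 ≤ 1 by norm_num]
    have h2b1 : 2 * b ≤ 1 := by linarith [show (144 : ℝ) / 10 ^ 4 ≤ 1 by norm_num]
    by_cases ht1 : t1 = 0
    · have ht2 : t2 ≠ 0 := fun e => h ⟨ht1, e⟩
      subst ht1
      rw [pow_zero, one_mul]
      exact (pow_le_of_le_one (by positivity) h2b1 ht2).trans h2b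
    · have p1 : (2 * a) ^ t1 ≤ 2 * a := pow_le_of_le_one (by positivity) h2a1 ht1
      have p2 : (2 * b) ^ t2 ≤ 1 := pow_le_one₀ (by positivity) h2b1
      calc (2 * a) ^ t1 * (2 * b) ^ t2 ≤ 2 * a * 1 :=
            mul_le_mul p1 p2 (by positivity) (by positivity)
        _ ≤ _ := by linarith
  have e : a ^ t1 * b ^ t2 = ((2 * a) ^ t1 * (2 * b) ^ t2) * ((1 / 2) ^ t1 * (1 / 2) ^ t2) := by
    rw [mul_pow, mul_pow]
    have h1 : (2 : ℝ) ^ t1 * (1 / 2) ^ t1 = 1 := by rw [← mul_pow]; norm_num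
    have h2 : (2 : ℝ) ^ t2 * (1 / 2) ^ t2 = 1 := by rw [← mul_pow]; norm_num
    calc a ^ t1 * b ^ t2 = a ^ t1 * b ^ t2 * (((2 : ℝ) ^ t1 * (1 / 2) ^ t1) * ((2 : ℝ) ^ t2 * (1 / 2) ^ t2)) := by
          rw [h1, h2]; ring
      _ = _ := by ring
  rw [e]
  exact mul_le_mul_of_nonneg_right key (by positivity)

/-- (INEQ) -/
theorem tot_le (D e s : ℕ) (he : 2 * e ≤ s) (hs : s ≤ 2 * 2 ^ D) :
    tot (gD D) (2 ^ D) e s ≤ gD (D + 1) s := by
  unfold tot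
  by_cases he0 : e = 0
  · subst he0
    simpa using Gone_zero_le D s
  have hs1 : s ≠ 1 := by omega
  have hh0 : 0 ≤ gD (D + 1) s := gD_nonneg' _ _
  have hmain : Gone (gD D) e (s - 2 * e) ≤ 4 / 5 * gD (D + 1) s := by
    have h1 := Gone_le_Gtwo (gD D) e (s - 2 * e)
    have h2 := Gtwo_le D e (s - 2 * e)
    rw [if_neg he0, show 2 * e + (s - 2 * e) = s by omega] at h2
    exact h1.trans h2
  have hterm : ∀ t2 ∈ range (e + 1), ∀ t1 ∈ range (e - t2 + 1),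
      (if t1 = 0 ∧ t2 = 0 then 0 else
        (e.choose t2 : ℝ) * ((e - t2).choose t1 : ℝ) * 6 ^ t1 *
          (((2 * 2 ^ D : ℕ) : ℝ) ^ (t1 + t2))⁻¹ * Nfib t1 t2 *
          Gtwo (gD D) (e - t1 - t2) (s - (t1 + 2 * t2) - 2 * (e - t1 - t2))) ≤
        3 / 2 * (144 / 10 ^ 4 * ((1 / 2) ^ t1 * (1 / 2) ^ t2)) * gD (D + 1) s := by
    intro t2 ht2 t1 ht1
    have ht2' : t2 ≤ e := by simpa [Nat.lt_succ_iff] using ht2
    have ht1' : t1 ≤ e - t2 := by simpa [Nat.lt_succ_iff] using ht1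
    split_ifs with h
    · positivity
    · refine (passive_term D e s t1 t2 he hs hs1 ht2' ht1').trans ?_
      apply mul_le_mul_of_nonneg_right _ hh0
      apply mul_le_mul_of_nonneg_left _ (by norm_num)
      exact passive_geo _ _ t1 t2 (by norm_num) (by norm_num) le_rfl (by norm_num) h
  have hsum := Finset.sum_le_sum fun t2 ht2 => Finset.sum_le_sum (hterm t2 ht2)
  have hgeo : ∑ t2 ∈ range (e + 1), ∑ t1 ∈ range (e - t2 + 1),
      3 / 2 * (144 / 10 ^ 4 * (((1 : ℝ) / 2) ^ t1 * (1 / 2) ^ t2)) * gD (D + 1) s ≤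
        27 / 250 * gD (D + 1) s := by
    have h1 : ∀ t2 ∈ range (e + 1), ∑ t1 ∈ range (e - t2 + 1),
        3 / 2 * (144 / 10 ^ 4 * (((1 : ℝ) / 2) ^ t1 * (1 / 2) ^ t2)) * gD (D + 1) s ≤
          (3 / 2 * (144 / 10 ^ 4) * 2 * gD (D + 1) s) * (1 / 2) ^ t2 := by
      intro t2 _
      have g2 := sum_geometric_two_le (e - t2 + 1)
      have e1 : ∑ t1 ∈ range (e - t2 + 1),
          3 / 2 * (144 / 10 ^ 4 * (((1 : ℝ) / 2) ^ t1 * (1 / 2) ^ t2)) * gD (D + 1) s =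
          (∑ t1 ∈ range (e - t2 + 1), ((1 : ℝ) / 2) ^ t1) *
            (3 / 2 * (144 / 10 ^ 4) * gD (D + 1) s * (1 / 2) ^ t2) := by
        rw [Finset.sum_mul]
        apply Finset.sum_congr rfl
        intros; ring
      rw [e1]
      calc _ ≤ 2 * (3 / 2 * (144 / 10 ^ 4) * gD (D + 1) s * (1 / 2) ^ t2) :=
            mul_le_mul_of_nonneg_right g2 (by positivity)
        _ = _ := by ring
    refine (Finset.sum_le_sum h1).trans ?_
    rw [← Finset.mul_sum]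
    have g2 := sum_geometric_two_le (e + 1)
    calc _ ≤ (3 / 2 * (144 / 10 ^ 4) * 2 * gD (D + 1) s) * 2 :=
          mul_le_mul_of_nonneg_left g2 (by positivity)
      _ ≤ _ := by
          have : (3 / 2 * (144 / 10 ^ 4) * 2 * gD (D + 1) s) * 2 = (216 / 2500) * gD (D + 1) s := by
            ring
          rw [this]
          apply mul_le_mul_of_nonneg_right (by norm_num) hh0
  calc _ ≤ 4 / 5 * gD (D + 1) s + 27 / 250 * gD (D + 1) s :=
        add_le_add hmain (hsum.trans hgeo)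
    _ ≤ gD (D + 1) s := by nlinarith

end Vale.Agent.Lib.P162.QF
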