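import Vale.Agent.Lib.P162.QF.PhiS
import Vale.Agent.Lib.P162.QF.CoreStmt
import Vale.Agent.Lib.P162.QF.NumStmt

/-!
# The operator norm bound of a pass on `WW`: induction and conclusion
-/

namespace Vale.Agent.Lib.P162.QF

open Vale.Agent.Lib.P162 Equiv Finset

set_option linter.unusedSectionVars false

variable {ι : Type*} [Fintype ι] [DecidableEq ι] {D : ℕ}

open Classical in
/-- the common value of `PhiA` at the proper colourings with prescribed colours off `K` -/
noncomputable def phiC (K : Finset ι) (F : (ι → Pos (D + 1)) → ℝ) (χ0 : ι → Bool)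
    (u : ι → Pos D) : ℝ :=
  if h : ∃ χ, Proper K χ u ∧ ∀ i, i ∉ K → χ i = χ0 i then PhiA K F h.choose u else 0

lemma PhiA_eq_prI {K : Finset ι} {F : (ι → Pos (D + 1)) → ℝ} (hF : VanOn K F) (χ0 χ : ι → Bool)
    (hoff : ∀ i, i ∉ K → χ i = χ0 i) (u : ι → Pos D) :
    PhiA K F χ u = prI K χ u * phiC K F χ0 u := by
  classical
  by_cases hp : Proper K χ u
  · have h : ∃ χ, Proper K χ u ∧ ∀ i, i ∉ K → χ i = χ0 i := ⟨χ, hp, hoff⟩
    have hs := h.choose_spec
    have e : PhiA K F χ u = PhiA K F h.choose u :=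
      PhiA_proper_eq F hp hs.1 fun i hi => (hoff i hi).trans (hs.2 i hi).symm
    unfold prI phiC
    rw [if_pos hp, dif_pos h, one_mul, e]
  · unfold prI
    rw [if_neg hp, zero_mul]
    exact PhiA_not_proper hF hp

lemma Proper_congr {K : Finset ι} {χ χ' : ι → Bool} (h : ∀ a ∈ K, χ a = χ' a) (u : ι → Pos D) :
    Proper K χ u ↔ Proper K χ' u := by
  constructor
  · intro hp a ha b hb hab hu
    rw [← h a ha, ← h b hb]
    exact hp a ha b hb hab hu
  · intro hp a ha b hb hab hu
    rw [h a ha, h b hb]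
    exact hp a ha b hb hab hu

lemma prI_congr_col {K : Finset ι} {χ χ' : ι → Bool} (h : ∀ a ∈ K, χ a = χ' a) (u : ι → Pos D) :
    prI K χ u = prI K χ' u := by
  classical
  unfold prI
  by_cases hp : Proper K χ u
  · rw [if_pos hp, if_pos ((Proper_congr h u).mp hp)]
  · rw [if_neg hp, if_neg fun h' => hp ((Proper_congr h u).mpr h')]

lemma gg_congr_col (g : ℕ → ℝ) {S : Finset ι} {χ χ' : ι → Bool} (h : ∀ a ∈ S, χ a = χ' a) :
    gg g χ S = gg g χ' S := by
  unfold gg
  have e : ∀ b : Bool, (S.filter fun a => χ a = b) = S.filter fun a => χ' a = b := by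
    intro b
    refine filter_congr fun a ha => ?_
    rw [h a ha]
  rw [e false, e true]

lemma card_posD (D : ℕ) : Fintype.card (Pos D) = 2 ^ D := by
  simp [Pos]

lemma tot_zero_nonneg {g : ℕ → ℝ} (hg : ∀ s, 0 ≤ g s) (m s : ℕ) : 0 ≤ tot g m 0 s := by
  unfold tot
  have e : (∑ t2 ∈ range (0 + 1), ∑ t1 ∈ range (0 - t2 + 1),
      if t1 = 0 ∧ t2 = 0 then (0 : ℝ) else
        ((0 : ℕ).choose t2 : ℝ) * ((0 - t2).choose t1 : ℝ) * 6 ^ t1 *
          (((2 * m : ℕ) : ℝ) ^ (t1 + t2))⁻¹ *
          Nfib t1 t2 * Gtwo g (0 - t1 - t2) (s - (t1 + 2 * t2) - 2 * (0 - t1 - t2))) = 0 := by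
    simp
  rw [e, add_zero]
  unfold Gone binE
  refine mul_nonneg (by positivity) (sum_nonneg fun i _ => ?_)
  exact mul_nonneg (by positivity) (mul_nonneg (hg _) (hg _))

lemma van_eq_zero {K : Finset ι} {F : (ι → Pos (D + 1)) → ℝ} (hF : VanOn K F)
    (hK : ¬ K.card ≤ 2 * 2 ^ D) : ∀ x, F x = 0 := by
  intro x
  have hc : (univ : Finset (Pos (D + 1))).card < K.card := by
    rw [card_univ, card_posD, pow_succ]
    omega
  obtain ⟨a, ha, b, hb, hab, hx⟩ :=
    exists_ne_map_eq_of_card_lt_of_maps_to hc (f := x) (fun a _ => mem_coe.mpr (mem_univ _))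
  exact hF x a ha b hb hab hx

/-- application of the core lemma to `PhiA` -/
theorem PsiK_le (g : ℕ → ℝ) (hg : ∀ s, 0 ≤ g s) (K : Finset ι) (F : (ι → Pos (D + 1)) → ℝ)
    (hF : VanOn K F) (C : ℝ)
    (hC : ∀ e, 2 * e ≤ K.card → K.card ≤ 2 * 2 ^ D → tot g (2 ^ D) e K.card ≤ C) :
    PsiK g K F ≤ C * nsq F := by
  classical
  have hcore : ∀ χ0 : ι → Bool, (∑ W ∈ K.powerset, avg fun χ : ι → Bool => avg fun u : ι → Pos D =>
      gg g χ (K \ W) *
        (avg fun χ' : ι → Bool => wsign W χ' *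
          avg fun u' : ι → Pos D => prI K (merge W χ χ') (merge W u u') *
            phiC K F χ0 (merge W u u')) ^ 2) ≤
      C * avg fun u : ι → Pos D => (avg fun χ : ι → Bool => prI K χ u) * phiC K F χ0 u ^ 2 := by
    intro χ0
    refine core_lemma g hg K (phiC K F χ0) C fun e h1 h2 => ?_
    rw [card_posD] at h2 ⊢
    exact hC e h1 h2
  -- rewrite `PsiK`
  have hrw : PsiK g K F = avg fun χ0 : ι → Bool => ∑ W ∈ K.powerset,
      avg fun χ : ι → Bool => avg fun u : ι → Pos D =>
      gg g χ (K \ W) *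
        (avg fun χ' : ι → Bool => wsign W χ' *
          avg fun u' : ι → Pos D => prI K (merge W χ χ') (merge W u u') *
            phiC K F χ0 (merge W u u')) ^ 2 := by
    unfold PsiK
    rw [avg_sum]
    refine sum_congr rfl fun W hW => ?_
    have hWK : W ⊆ K := mem_powerset.mp hW
    rw [← avg_merge K]
    refine avg_congr fun χ0 => avg_congr fun χ1 => avg_congr fun u => ?_
    have e1 : gg g (merge K χ0 χ1) (K \ W) = gg g χ1 (K \ W) :=
      gg_congr_col g fun a ha => merge_mem (mem_sdiff.mp ha).1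
    rw [e1]
    congr 2
    refine avg_congr fun χ' => ?_
    congr 1
    refine avg_congr fun u' => ?_
    have hoff : ∀ i, i ∉ K → merge W (merge K χ0 χ1) χ' i = χ0 i := by
      intro i hi
      rw [merge_not_mem (fun h => hi (hWK h)), merge_not_mem hi]
    rw [PhiA_eq_prI hF χ0 _ hoff]
    congr 1
    refine prI_congr_col (fun a ha => ?_) _
    by_cases h : a ∈ W
    · rw [merge_mem h, merge_mem h]
    · rw [merge_not_mem h, merge_not_mem h, merge_mem ha]
  -- the squares
  have hX : (avg fun χ0 : ι → Bool => avg fun u : ι → Pos D =>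
        (avg fun χ : ι → Bool => prI K χ u) * phiC K F χ0 u ^ 2) =
      avg fun χ : ι → Bool => avg fun u : ι → Pos D => PhiA K F χ u ^ 2 := by
    rw [← avg_merge K fun χ => avg fun u : ι → Pos D => PhiA K F χ u ^ 2]
    refine avg_congr fun χ0 => ?_
    rw [avg_comm]
    refine avg_congr fun u => ?_
    rw [← avg_mul_right]
    refine avg_congr fun χ1 => ?_
    have hoff : ∀ i, i ∉ K → merge K χ0 χ1 i = χ0 i := fun i hi => merge_not_mem hi
    rw [PhiA_eq_prI hF χ0 _ hoff, mul_pow, prI_sq]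
    congr 1
    exact prI_congr_col (fun a ha => (merge_mem ha).symm) _
  have hJ := avg_PhiA_sq_le K F
  have hJ0 : 0 ≤ avg fun χ : ι → Bool => avg fun u : ι → Pos D => PhiA K F χ u ^ 2 :=
    avg_nonneg fun _ => avg_nonneg fun _ => sq_nonneg _
  rw [hrw]
  refine (avg_mono hcore).trans ?_
  rw [avg_mul_left, hX]
  by_cases hK : K.card ≤ 2 * 2 ^ D
  · have hC0 : 0 ≤ C := (tot_zero_nonneg hg _ _).trans (hC 0 (by omega) hK)
    exact mul_le_mul_of_nonneg_left hJ hC0
  · have h0 : nsq F = 0 := by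
      unfold nsq
      simp [van_eq_zero hF hK, avg]
    have h1 : (avg fun χ : ι → Bool => avg fun u : ι → Pos D => PhiA K F χ u ^ 2) = 0 :=
      le_antisymm (hJ.trans h0.le) hJ0
    rw [h0, h1]

/-- the induction step -/
theorem QFB_step {g g' : ℕ → ℝ} (hg : ∀ s, 0 ≤ g s)
    (hC : ∀ e s, 2 * e ≤ s → s ≤ 2 * 2 ^ D → tot g (2 ^ D) e s ≤ g' s) (h : QFB ι D g) :
    QFB ι (D + 1) g' := by
  intro A F hF
  have h1 : nsq (QA (D + 1) A F) ≤
      avg fun χ : ι → Bool => ∑ S ∈ A.powerset, gg g χ S * nsq (EA (A \ S) (PhiA A F χ)) := by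
    rw [nsq_QA_succ]
    exact avg_mono fun χ => QFB_twice hg h hF χ
  refine h1.trans ?_
  rw [avg_twice_eq]
  have h2 : ∀ T ∈ A.powerset, PsiK g (A \ T) (EA T F) ≤ g' (A \ T).card * nsq (EA T F) := by
    intro T hT
    have hTA : T ⊆ A := mem_powerset.mp hT
    refine PsiK_le g hg (A \ T) (EA T F) ?_ _ fun e h1 h2 => hC e _ h1 h2
    exact VanOn.EA (fun x a ha b hb hab hx => hF x a (mem_sdiff.mp ha).1 b (mem_sdiff.mp hb).1 hab hx)
      (disjoint_sdiff)
  refine (sum_le_sum h2).trans (le_of_eq ?_)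
  refine sum_nbij' (fun T => A \ T) (fun S => A \ S) ?_ ?_ ?_ ?_ ?_
  · intro T _; exact mem_powerset.mpr sdiff_subset
  · intro T _; exact mem_powerset.mpr sdiff_subset
  · intro T hT; exact Finset.sdiff_sdiff_eq_self (mem_powerset.mp hT)
  · intro T hT; exact Finset.sdiff_sdiff_eq_self (mem_powerset.mp hT)
  · intro T hT; rw [Finset.sdiff_sdiff_eq_self (mem_powerset.mp hT)]

lemma gD_zero_zero : gD 0 0 = 1 := by
  simp [gD, hh, a3]

/-- base of the induction -/
theorem QFB_zero : QFB ι 0 (gD 0) := by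
  intro A F _
  have hsub : ∀ (T : Finset ι) (G : (ι → Pos 0) → ℝ), EA T G = G := by
    intro T G
    funext x
    unfold EA
    have : ∀ z : ι → Pos 0, merge T x z = x := fun z => Subsingleton.elim _ _
    simp only [this]
    exact avg_const _
  have hQ : QA 0 A F = F := by
    funext x
    unfold QA
    show F _ = F x
    congr 1
    exact Subsingleton.elim _ _
  rw [hQ]
  have hle : gD 0 (∅ : Finset ι).card * nsq (EA (A \ ∅) F) ≤
      ∑ S ∈ A.powerset, gD 0 S.card * nsq (EA (A \ S) F) :=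
    single_le_sum (f := fun S : Finset ι => gD 0 S.card * nsq (EA (A \ S) F))
      (fun S _ => mul_nonneg (gD_nonneg _ _) (nsq_nonneg _)) (empty_mem_powerset A)
  rw [hsub, card_empty, gD_zero_zero, one_mul] at hle
  exact hle

/-- the quadratic form bound at all levels -/
theorem QFB_all (D : ℕ) : QFB ι D (gD D) := by
  induction D with
  | zero => exact QFB_zero
  | succ D ih =>
    exact QFB_step (gD_nonneg D) (fun e s h1 h2 => tot_le D e s h1 h2) ih

/-- the average over a set of coordinates containing `i` of a function with vanishing marginals -/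
lemma EA_eq_zero_of_marginal {F : (ι → Pos D) → ℝ}
    (hF : ∀ (x : ι → Pos D) (i : ι), ∑ v, F (Function.update x i v) = 0) {T : Finset ι}
    (hT : T.Nonempty) : EA T F = 0 := by
  obtain ⟨i, hi⟩ := hT
  funext x
  unfold EA
  rw [← avg_update i]
  have : ∀ z : ι → Pos D, (avg fun p : Pos D => F (merge T x (Function.update z i p))) = 0 := by
    intro z
    have e : ∀ p : Pos D, merge T x (Function.update z i p) =
        Function.update (merge T x z) i p := by
      intro p
      funext j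
      by_cases hj : j = i
      · subst hj
        simp [merge, hi]
      · simp [merge, hj]
    simp only [e]
    unfold avg
    rw [hF, mul_zero]
  simp only [this]
  simp [avg]

/-- **Theorem B**: the norm of a pass on `WW` -/
theorem QT_norm_le {u : TupSp ι (Pos D)} (hu : u ∈ WW ι (Pos D)) :
    ‖QT ι D u‖ ^ 2 ≤ gD D (Fintype.card ι) * ‖u‖ ^ 2 := by
  classical
  have hu1 := hu.1
  have hu2 := hu.2
  let F : (ι → Pos D) → ℝ := fun x => u x
  have hvan : VanOn (univ : Finset ι) F := by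
    intro x a _ b _ hab hx
    exact hu1 x fun hinj => hab (hinj hx)
  have h := QFB_all (ι := ι) D univ F hvan
  -- only `S = univ` survives
  have hsum : (∑ S ∈ (univ : Finset ι).powerset, gD D S.card * nsq (EA (univ \ S) F)) =
      gD D (Fintype.card ι) * nsq F := by
    rw [sum_eq_single univ]
    · have : (univ : Finset ι) \ univ = ∅ := Finset.sdiff_self _
      rw [this, card_univ]
      congr 2
      funext x
      unfold EA
      have : ∀ z : ι → Pos D, merge ∅ x z = x := fun z => by funext i; simp [merge]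
      simp only [this]
      exact avg_const _
    · intro S _ hS
      have hne : ((univ : Finset ι) \ S).Nonempty := by
        rw [sdiff_nonempty]
        intro hsub
        exact hS (univ_subset_iff.mp hsub)
      rw [EA_eq_zero_of_marginal (F := F) (fun x i => hu2 x i) hne]
      simp [nsq, avg]
    · intro hn
      exact absurd (mem_powerset.mpr (Subset.refl _)) hn
  have hQ : ∀ x, QA D univ F x = QT ι D u x := by
    intro x
    rw [QT_apply]
    unfold QA
    simp [F]
  have hcard : (0 : ℝ) < (Fintype.card (ι → Pos D) : ℝ) := by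
    exact_mod_cast Fintype.card_pos
  have hnorm : ∀ v : TupSp ι (Pos D), nsq (fun x => v x) = (Fintype.card (ι → Pos D) : ℝ)⁻¹ * ‖v‖ ^ 2 := by
    intro v
    rw [EuclideanSpace.real_norm_sq_eq]
    rfl
  have h2 : nsq (QA D univ F) = (Fintype.card (ι → Pos D) : ℝ)⁻¹ * ‖QT ι D u‖ ^ 2 := by
    rw [← hnorm]
    congr 1
    funext x
    exact hQ x
  have h3 : nsq F = (Fintype.card (ι → Pos D) : ℝ)⁻¹ * ‖u‖ ^ 2 := hnorm u
  rw [hsum, h2, h3] at h
  have hinv : (0 : ℝ) < (Fintype.card (ι → Pos D) : ℝ)⁻¹ := inv_pos.mpr hcard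
  have h4 : (Fintype.card (ι → Pos D) : ℝ)⁻¹ * ‖QT ι D u‖ ^ 2 ≤
      (Fintype.card (ι → Pos D) : ℝ)⁻¹ * (gD D (Fintype.card ι) * ‖u‖ ^ 2) := by
    calc _ ≤ _ := h
      _ = _ := by ring
  exact le_of_mul_le_mul_left h4 hinv

end Vale.Agent.Lib.P162.QF
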