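import Vale.Agent.Lib.P162.Final2
import Vale.Agent.Lib.P162.QF.Main

/-!
# From a moment bound with a fixed exponent to `t_mix (2 ^ (d + 1)) = O (d + 1)`

The hypothesis `MomentHyp a G` is the bound of the `(1 + q)`-th moment of the density of the
kernel of two passes, `q = 1 / (2 ^ (a + 1) - 1)`.  With `QT_norm_le` and `QT_gap` it gives mixing
in a constant number of passes.
-/

namespace Vale.Agent.Lib.P162.QF

open Vale.Agent.Lib.P162 Equiv Finset Matrix
open scoped InnerProductSpace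

set_option linter.unusedSectionVars false
set_option linter.unusedSimpArgs false
set_option linter.unusedVariables false

/-- the moment hypothesis -/
def MomentHyp (a : ℕ) (G : ℝ) : Prop :=
  ∀ (ι : Type) [Fintype ι] [DecidableEq ι] (D : ℕ) (x : ι → Pos D), Function.Injective x →
    normP D Finset.univ x (1 + 1 / ((2 : ℝ) ^ (a + 1) - 1)) ≤
      Real.exp ((Fintype.card ι : ℝ) * ((1 / ((2 : ℝ) ^ (a + 1) - 1)) * G))

section one

variable {ι : Type} [Fintype ι] [DecidableEq ι] {D : ℕ}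

/-- the moment bound in the counting normalisation -/
lemma KK_moment4 {a : ℕ} {G : ℝ} (hM : MomentHyp a G) (x : MT ι D) {q : ℝ} (hq0 : 0 < q)
    (hq : q = 1 / ((2 : ℝ) ^ (a + 1) - 1)) :
    ∑ y : MT ι D, KK ι D x y ^ (1 + q) ≤
      (((2 : ℝ) ^ D) ^ Fintype.card ι) ^ (-q) *
        Real.exp (Fintype.card ι * (q * G)) := by
  set m : ℝ := ((2 : ℝ) ^ D) ^ Fintype.card ι with hm
  have hm0 : 0 < m := by positivity
  have hinj : InjF x.1 Finset.univ := fun i _ j _ h => x.2 h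
  have h1 := hM ι D x.1 x.2
  rw [← hq] at h1
  have h2 : ∀ y : MT ι D, KK ι D x y ^ (1 + q) = m ^ (-(1 + q)) * betaD D Finset.univ x.1 y.1 ^ (1 + q) := by
    intro y
    rw [KK_eq_beta, ← hm, Real.mul_rpow hm0.le (KK_nonneg _ _), ← mul_assoc, ← Real.rpow_add hm0]
    simp
  simp only [h2]
  rw [← mul_sum]
  have h3 : ∑ y : MT ι D, betaD D Finset.univ x.1 y.1 ^ (1 + q) ≤ m * normP D Finset.univ x.1 (1 + q) := by
    unfold normP avg
    rw [card_tuples, ← hm, ← mul_assoc, mul_inv_cancel₀ hm0.ne', one_mul, sum_MT (F := fun y => betaD D Finset.univ x.1 y ^ (1 + q))]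
    intro y hy
    have h4 : betaD D Finset.univ x.1 y = 0 := by
      unfold Function.Injective at hy
      push Not at hy
      obtain ⟨i, j, hij, hne⟩ := hy
      exact betaD_eq_zero D Finset.univ hinj.injOn (mem_coe.mp (mem_univ i)) (mem_coe.mp (mem_univ j)) hne hij
    rw [h4, Real.zero_rpow (by linarith)]
  have h5 : m ^ (-(1 + q)) * m = m ^ (-q) := by
    nth_rewrite 2 [← Real.rpow_one m]
    rw [← Real.rpow_add hm0]
    congr 1
    ring
  calc m ^ (-(1 + q)) * ∑ y : MT ι D, betaD D Finset.univ x.1 y.1 ^ (1 + q)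
      ≤ m ^ (-(1 + q)) * (m * normP D Finset.univ x.1 (1 + q)) :=
        mul_le_mul_of_nonneg_left h3 (by positivity)
    _ = m ^ (-q) * normP D Finset.univ x.1 (1 + q) := by rw [← mul_assoc, h5]
    _ ≤ _ := mul_le_mul_of_nonneg_left h1 (by positivity)

/-- the Hilbert-Schmidt bound -/
theorem hs_bound4 {a : ℕ} {G : ℝ} (hM : MomentHyp a G) (ha : 1 ≤ a) {d : ℕ}
    (e : OrthonormalBasis (Fin d) ℝ (WW ι (Pos D))) :
    ∑ α, ‖((QT ι D) ^ (2 ^ (a + 1))) (e α : TupSp ι (Pos D))‖ ^ 2 ≤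
      Real.exp ((Fintype.card ι : ℝ) * G) := by
  classical
  refine (hs_le_frobenius _ e).trans ?_
  refine (power_bound (AA ι D) (a + 1)).trans ?_
  set G' : ℝ := (2 : ℝ) ^ (a + 1) - 1 with hG
  have hpow : (4 : ℝ) ≤ (2 : ℝ) ^ (a + 1) := by
    calc (4 : ℝ) = 2 ^ 2 := by norm_num
      _ ≤ 2 ^ (a + 1) := pow_le_pow_right₀ (by norm_num) (by omega)
  have hG0 : 0 < G' := by rw [hG]; linarith
  set q : ℝ := 1 / G' with hq
  have hq0 : 0 < q := by positivity
  have hqG : q * G' = 1 := by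
    rw [hq]; field_simp
  set m : ℝ := ((2 : ℝ) ^ D) ^ Fintype.card ι with hm
  have hm0 : 0 < m := by positivity
  set k : ℝ := (Fintype.card ι : ℝ) with hk
  have hk0 : 0 ≤ k := Nat.cast_nonneg _
  set L : ℝ := m ^ (-q) * Real.exp (k * (q * G)) with hL
  have hL0 : 0 ≤ L := by positivity
  have hKL : ∀ x : MT ι D, ∑ y, KK ι D x y ^ pexp (a + 1) 0 ≤ L := by
    intro x
    rw [pexp_eq, ← hG, ← hq]
    exact KK_moment4 hM x hq0 hq
  have hY : ∀ x : MT ι D, ∑ y, ((KK ι D) ^ (2 ^ a)) x y ^ 2 ≤ L ^ G' :=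
    fun x => young_final (KK ι D) KK_nonneg KK_symm a L hL0 hKL x
  have hLG : L ^ G' ≤ m⁻¹ * Real.exp (k * G) := by
    rw [hL, Real.mul_rpow (by positivity) (by positivity), ← Real.rpow_mul hm0.le, ← Real.exp_mul]
    have e1 : -q * G' = -1 := by rw [neg_mul, hqG]
    rw [e1, Real.rpow_neg_one]
    apply mul_le_mul_of_nonneg_left _ (by positivity)
    apply Real.exp_le_exp.mpr
    apply le_of_eq
    calc k * (q * G) * G' = k * G * (q * G') := by ring
      _ = k * G := by rw [hqG, mul_one]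
  set P := (KK ι D) ^ (2 ^ a) with hP
  have hPsym : Pᵀ = P := by
    rw [hP, transpose_pow]
    congr 1
    ext x y
    exact KK_symm y x
  have e1 : (AA ι D * (AA ι D)ᵀ) ^ (2 ^ (a + 1)) = P * Pᵀ := by
    rw [hPsym, hP, ← pow_add, pow_succ]
    congr 1
    ring
  rw [e1, tr_mul_transpose]
  calc ∑ x, ∑ y, P x y ^ 2 ≤ ∑ _x : MT ι D, (m⁻¹ * Real.exp (k * G)) :=
        sum_le_sum fun x _ => (hY x).trans hLG
    _ = (Fintype.card (MT ι D) : ℝ) * (m⁻¹ * Real.exp (k * G)) := by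
        rw [sum_const, card_univ, nsmul_eq_mul]
    _ ≤ m * (m⁻¹ * Real.exp (k * G)) :=
        mul_le_mul_of_nonneg_right card_MT_le (by positivity)
    _ = Real.exp (k * G) := by
        rw [← mul_assoc, mul_inv_cancel₀ hm0.ne', one_mul]

/-- the Hilbert-Schmidt norm of a long power -/
lemma hs_power4 {a : ℕ} {G : ℝ} (hM : MomentHyp a G) (ha : 1 ≤ a) (m : ℕ) {c : ℝ} (hc0 : 0 ≤ c)
    (h : ∀ u ∈ WW ι (Pos D), ‖QT ι D u‖ ^ 2 ≤ c * ‖u‖ ^ 2) {d : ℕ}
    (e : OrthonormalBasis (Fin d) ℝ (WW ι (Pos D))) :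
    ∑ α, ‖((QT ι D) ^ (m + 2 ^ (a + 1))) (e α : TupSp ι (Pos D))‖ ^ 2 ≤
      c ^ m * Real.exp ((Fintype.card ι : ℝ) * G) := by
  have h1 : ∀ α, ‖((QT ι D) ^ (m + 2 ^ (a + 1))) (e α : TupSp ι (Pos D))‖ ^ 2 ≤
      c ^ m * ‖((QT ι D) ^ (2 ^ (a + 1))) (e α : TupSp ι (Pos D))‖ ^ 2 := by
    intro α
    rw [pow_add, mul_ap]
    exact pow_norm_le hc0 h m (pow_mem_WW _ _ (e α).2)
  refine (sum_le_sum fun α _ => h1 α).trans ?_
  rw [← mul_sum]
  exact mul_le_mul_of_nonneg_left (hs_bound4 hM ha e) (pow_nonneg hc0 _)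

end one

section two

/-- `gD` in exponential form -/
lemma gD_le_exp (H : ℕ) {k : ℕ} (hk : 1 ≤ k) :
    gD H k ≤ Real.exp ((k : ℝ) / 2 * (19 + Real.log k - Real.log ((2 ^ H : ℕ) : ℝ))) := by
  set n : ℝ := ((2 ^ H : ℕ) : ℝ) with hn
  have hn0 : 0 < n := by rw [hn]; positivity
  have hnn : (2 : ℝ) ^ H = n := by rw [hn]; push_cast; rfl
  have hk0 : (0 : ℝ) < k := by exact_mod_cast hk
  unfold gD hh
  rw [hnn]
  have ha : a3 k ≤ 1 := by
    unfold a3
    split_ifs
    · norm_num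
    · have h2 : (1 : ℝ) ≤ (k : ℝ) + 1 := by linarith
      have h3 : ((k : ℝ) + 1)⁻¹ ≤ 1 := inv_le_one_of_one_le₀ h2
      have h4 : 0 ≤ ((k : ℝ) + 1)⁻¹ := by positivity
      exact pow_le_one₀ h4 h3
  have ha0 : 0 ≤ a3 k := by
    unfold a3
    split_ifs
    · exact le_rfl
    · positivity
  set A : ℝ := 10 ^ 4 / Real.sqrt n with hA
  have hA0 : 0 < A := by
    rw [hA]
    have := Real.sqrt_pos.mpr hn0
    positivity
  have hAsq : A ^ 2 = 10 ^ 8 / n := by
    rw [hA, div_pow, Real.sq_sqrt hn0.le]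
    norm_num
  have h1 : Real.sqrt (k.factorial : ℝ) * A ^ k * a3 k ≤ Real.sqrt (k.factorial : ℝ) * A ^ k :=
    mul_le_of_le_one_right (by positivity) ha
  refine h1.trans ?_
  set y : ℝ := 10 ^ 8 * (k : ℝ) / n with hy
  have hy0 : 0 < y := by positivity
  have h2 : Real.sqrt (k.factorial : ℝ) * A ^ k ≤ Real.sqrt (y ^ k) := by
    have e1 : A ^ k = Real.sqrt ((A ^ 2) ^ k) := by
      rw [← pow_mul, mul_comm 2 k, pow_mul, Real.sqrt_sq (by positivity)]
    rw [e1, ← Real.sqrt_mul (by positivity)]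
    apply Real.sqrt_le_sqrt
    rw [hAsq]
    have e2 : y ^ k = (k : ℝ) ^ k * (10 ^ 8 / n) ^ k := by
      rw [← mul_pow, hy]
      congr 1
      ring
    rw [e2]
    apply mul_le_mul_of_nonneg_right _ (by positivity)
    exact_mod_cast Nat.factorial_le_pow k
  refine h2.trans ?_
  have h3 : Real.sqrt (y ^ k) = Real.exp ((k : ℝ) / 2 * Real.log y) := by
    have h4 : 0 < Real.sqrt (y ^ k) := Real.sqrt_pos.mpr (by positivity)
    rw [← Real.exp_log h4, Real.log_sqrt (by positivity), Real.log_pow]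
    congr 1
    ring
  rw [h3]
  apply Real.exp_le_exp.mpr
  apply mul_le_mul_of_nonneg_left _ (by positivity)
  have h5 : Real.log y = Real.log (10 ^ 8) + Real.log k - Real.log n := by
    rw [hy, Real.log_div (by positivity) hn0.ne', Real.log_mul (by positivity) hk0.ne']
  rw [h5]
  have h6 : Real.log (10 ^ 8 : ℝ) ≤ 19 := by
    rw [Real.log_le_iff_le_exp (by positivity)]
    have h7 : Real.exp 19 = Real.exp 1 ^ 19 := by
      rw [← Real.exp_nat_mul]
      norm_num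
    rw [h7]
    have h8 : (2.7 : ℝ) ^ 19 ≤ Real.exp 1 ^ 19 :=
      pow_le_pow_left₀ (by norm_num) (by linarith [Real.exp_one_gt_d9]) 19
    refine le_trans ?_ h8
    norm_num
  linarith

variable {ι : Type} [Fintype ι] [DecidableEq ι] {H : ℕ}

/-- the contribution of a nontrivial level -/
theorem level_term4 {a : ℕ} {G : ℝ} (hM : MomentHyp a G) (ha : 1 ≤ a) (hG : 0 ≤ G) {m : ℕ}
    (hm : 1200 * (G + 42) ≤ m) (hk1 : 1 ≤ Fintype.card ι) (hk2 : Fintype.card ι ≤ 2 ^ H) {d : ℕ}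
    (e : OrthonormalBasis (Fin d) ℝ (WW ι (Pos H))) :
    ∑ α, ‖((QT ι H) ^ (m + 2 ^ (a + 1))) (e α : TupSp ι (Pos H))‖ ^ 2 ≤
      (((2 ^ H).choose (Fintype.card ι) : ℝ))⁻¹ * Real.exp (-3 * (Fintype.card ι : ℝ)) := by
  set j : ℝ := (Fintype.card ι : ℝ) with hj
  have hj1 : 1 ≤ j := by rw [hj]; exact_mod_cast hk1
  set L : ℝ := Real.log ((2 ^ H : ℕ) : ℝ) - Real.log j with hL
  have hchoose : (((2 ^ H).choose (Fintype.card ι) : ℕ) : ℝ) ≤ Real.exp (j * (1 + L)) := by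
    have h1 := choose_le_exp (2 ^ H) (Fintype.card ι) (Nat.one_le_two_pow) hk1
    rw [← hj] at h1
    refine h1.trans (Real.exp_le_exp.mpr (le_of_eq ?_))
    rw [hL]
    ring
  have hcpos : (0 : ℝ) < ((2 ^ H).choose (Fintype.card ι) : ℝ) := by
    exact_mod_cast Nat.choose_pos hk2
  have hinv : Real.exp (-(j * (1 + L))) ≤ (((2 ^ H).choose (Fintype.card ι) : ℝ))⁻¹ := by
    rw [Real.exp_neg]
    exact inv_anti₀ hcpos hchoose
  suffices hS : ∑ α, ‖((QT ι H) ^ (m + 2 ^ (a + 1))) (e α : TupSp ι (Pos H))‖ ^ 2 ≤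
      Real.exp (-(j * (1 + L)) + -3 * j) by
    refine hS.trans ?_
    rw [Real.exp_add]
    exact mul_le_mul_of_nonneg_right hinv (Real.exp_pos _).le
  have hm0 : (0 : ℝ) ≤ m := Nat.cast_nonneg m
  by_cases hcase : 38 ≤ L
  · -- small density of marks: the operator norm bound
    have hc := gD_le_exp H hk1
    rw [← hj] at hc
    have hc' : gD H (Fintype.card ι) ≤ Real.exp (-(j / 4 * L)) := by
      refine hc.trans (Real.exp_le_exp.mpr ?_)
      have e1 : (19 + Real.log j - Real.log ((2 ^ H : ℕ) : ℝ)) = 19 - L := by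
        rw [hL]; ring
      rw [e1]
      have hj0 : 0 ≤ j := by linarith
      nlinarith
    have hb := hs_power4 hM ha m (Real.exp_pos _).le
      (fun u hu => (QT_norm_le hu).trans (mul_le_mul_of_nonneg_right hc' (by positivity))) e
    refine hb.trans ?_
    rw [← Real.exp_nat_mul, ← Real.exp_add]
    apply Real.exp_le_exp.mpr
    rw [← hj]
    have e2 : (m : ℝ) * -(j / 4 * L) = j * (-((m : ℝ) / 4 * L)) := by ring
    rw [e2]
    have hkey : -((m : ℝ) / 4 * L) + G + (1 + L) + 3 ≤ 0 := by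
      have h1 : (m : ℝ) / 4 ≥ 300 * (G + 42) := by linarith
      have h2 : (m : ℝ) / 4 * L ≥ 300 * (G + 42) * L :=
        mul_le_mul_of_nonneg_right h1 (by linarith)
      nlinarith
    nlinarith
  · -- high density: the spectral gap
    push Not at hcase
    have hb := hs_power4 hM ha m (Real.exp_pos _).le
      (fun u hu => QT_gap hk1 hk2 hu) e
    refine hb.trans ?_
    rw [← Real.exp_nat_mul, ← Real.exp_add]
    apply Real.exp_le_exp.mpr
    rw [← hj]
    have e1 : (m : ℝ) * (-(1 / 600 * (j / 2))) = j * (-((m : ℝ) / 1200)) := by ring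
    rw [e1]
    have hkey : -((m : ℝ) / 1200) + G + (1 + L) + 3 ≤ 0 := by linarith
    nlinarith

/-- the sum over all the levels -/
theorem chi_total4 {a : ℕ} {G : ℝ} (hM : MomentHyp a G) (ha : 1 ≤ a) (hG : 0 ≤ G) {m : ℕ}
    (hm : 1200 * (G + 42) ≤ m) (H : ℕ) :
    ((Fintype.card (Pos H)).factorial : ℝ) *
      ‖((Qrec H (lreg (X := Pos H))) ^ (m + 2 ^ (a + 1))) (deltaOne (Pos H))‖ ^ 2 ≤
      20 / 19 := by
  classical
  set b : ℕ → ℝ := fun j => (((2 ^ H).choose j : ℝ))⁻¹ * Real.exp (-3 * (j : ℝ)) with hb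
  have h1 := chi_le_sum H (m + 2 ^ (a + 1)) (fun J => b J.card) (by
    intro J e
    by_cases hJ : J = ∅
    · subst hJ
      have : IsEmpty ((∅ : Finset (Pos H)) : Type _) := ⟨fun x => Finset.notMem_empty _ x.2⟩
      refine (level_zero _ e).trans (le_of_eq ?_)
      simp [hb]
    · have hk1 : 1 ≤ Fintype.card J := by
        rw [Fintype.card_coe]
        exact Finset.card_pos.mpr (Finset.nonempty_iff_ne_empty.mpr hJ)
      have hk2 : Fintype.card J ≤ 2 ^ H := by
        rw [Fintype.card_coe]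
        simpa using Finset.card_le_univ J
      have := level_term4 hM ha hG hm hk1 hk2 e
      rw [Fintype.card_coe] at this
      exact this)
  refine h1.trans ?_
  have h2 : ∑ J : Finset (Pos H), b J.card = ∑ J ∈ (Finset.univ : Finset (Pos H)).powerset, b J.card := by
    rw [Finset.powerset_univ]
  rw [h2, Finset.sum_powerset_apply_card]
  have hcard : (Finset.univ : Finset (Pos H)).card = 2 ^ H := by
    simp
  rw [hcard]
  have h3 : ∀ j ∈ range (2 ^ H + 1), ((2 ^ H).choose j) • b j = (Real.exp (-3)) ^ j := by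
    intro j hj
    have hj' : j ≤ 2 ^ H := Nat.lt_succ_iff.mp (mem_range.mp hj)
    have hc : (0 : ℝ) < ((2 ^ H).choose j : ℝ) := by exact_mod_cast Nat.choose_pos hj'
    rw [nsmul_eq_mul, hb]
    simp only
    rw [← mul_assoc, mul_inv_cancel₀ hc.ne', one_mul, ← Real.exp_nat_mul]
    congr 1
    ring
  rw [sum_congr rfl h3]
  have hy : Real.exp (-3) ≤ 1 / 20 := by
    have h4 : (20 : ℝ) ≤ Real.exp 3 := by
      have h5 : Real.exp 3 = Real.exp 1 ^ 3 := by
        rw [← Real.exp_nat_mul]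
        norm_num
      rw [h5]
      have h6 : (2.718 : ℝ) ^ 3 ≤ Real.exp 1 ^ 3 :=
        pow_le_pow_left₀ (by norm_num) (by linarith [Real.exp_one_gt_d9]) 3
      refine le_trans ?_ h6
      norm_num
    rw [Real.exp_neg, inv_eq_one_div]
    exact one_div_le_one_div_of_le (by norm_num) h4
  have hy0 : 0 ≤ Real.exp (-3) := (Real.exp_pos _).le
  have hgeo : ∀ m : ℕ, ∑ j ∈ range m, Real.exp (-3) ^ j ≤ 20 / 19 := by
    intro m
    induction m with
    | zero => simp; norm_num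
    | succ m ih =>
      rw [Finset.sum_range_succ', Finset.sum_congr rfl (fun j _ => pow_succ (Real.exp (-3)) j),
        ← Finset.sum_mul]
      simp only [pow_zero]
      nlinarith
  exact hgeo _

/-- total variation at a constant number of passes -/
theorem tv_at_passes4 {a : ℕ} {G : ℝ} (hM : MomentHyp a G) (ha : 1 ≤ a) (hG : 0 ≤ G) {m : ℕ}
    (hm : 1200 * (G + 42) ≤ m) (D : ℕ) :
    tvToUniform (convPowP (thorpLaw (2 ^ D)) ((m + 2 ^ (a + 1)) * (D + 1))) ≤ 1 / 4 := by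
  set r := m + 2 ^ (a + 1) with hr
  have h1 := chi_total4 hM ha hG hm (D + 1)
  rw [← hr, ← law_transport] at h1
  set μ := convPowP (thorpLaw (2 ^ D)) (r * (D + 1)) with hμ
  have hmass : ∑ g, μ g = 1 := convPow_sum _ (thorpLaw_sum _) _
  have hnorm : ‖lawVec (2 ^ D) (r * (D + 1))‖ ^ 2 = ∑ g, μ g ^ 2 := by
    rw [EuclideanSpace.real_norm_sq_eq]
    rfl
  rw [hnorm] at h1
  have hcard : Fintype.card (Pos (D + 1)) = 2 * 2 ^ D := by
    simp [pow_succ']
  rw [hcard] at h1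
  have htv := tv_sq_le μ hmass
  have h3 : (tvToUniform μ) ^ 2 ≤ (1 / 4) ^ 2 := by
    refine htv.trans ?_
    norm_num
    linarith
  have h4 : 0 ≤ (1 / 4 : ℝ) := by norm_num
  exact abs_le_of_sq_le_sq' h3 h4 |>.2

/-- **From the moment bound to mixing in `O (d)` steps.** -/
theorem thorp_of_moment {a : ℕ} {G : ℝ} (hM : MomentHyp a G) (ha : 1 ≤ a) (hG : 0 ≤ G) {m : ℕ}
    (hm : 1200 * (G + 42) ≤ m) (d : ℕ) :
    (∀ t : ℕ, (m + 2 ^ (a + 1)) * (d + 1) ≤ t →
      tvToUniform (convPowP (thorpLaw (2 ^ d)) t) ≤ 1 / 4) ∧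
    thorpMix (2 ^ d) ≤ (m + 2 ^ (a + 1)) * (d + 1) := by
  have h0 := tv_at_passes4 hM ha hG hm d
  have hmono : ∀ t : ℕ, (m + 2 ^ (a + 1)) * (d + 1) ≤ t →
      tvToUniform (convPowP (thorpLaw (2 ^ d)) t) ≤ 1 / 4 := by
    intro t ht
    induction t, ht using Nat.le_induction with
    | base => exact h0
    | succ t _ ih =>
      exact (tv_conv_le _ _ (thorpLaw_nonneg _) (thorpLaw_sum _)).trans ih
  exact ⟨hmono, Nat.sInf_le h0⟩

end two

end Vale.Agent.Lib.P162.QF
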