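import Vale.Agent.Lib.P162.QF.CoreParts

/-!
# The core lemma: Bonami and the colour averages (C2, C3)
-/

namespace Vale.Agent.Lib.P162.QF

open Vale.Agent.Lib.P162 Equiv Finset

set_option linter.unusedSectionVars false

section cs

variable {X : Type*} [Fintype X]

/-- Cauchy-Schwarz for averages -/
lemma avg_mul_sq_le (f g : X → ℝ) :
    (avg fun y => f y * g y) ^ 2 ≤ avg (fun y => f y ^ 2) * avg (fun y => g y ^ 2) := by
  unfold avg
  have h := Finset.sum_mul_sq_le_sq_mul_sq (univ : Finset X) f g
  calc ((Fintype.card X : ℝ)⁻¹ * ∑ y, f y * g y) ^ 2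
      = ((Fintype.card X : ℝ)⁻¹) ^ 2 * (∑ y, f y * g y) ^ 2 := by ring
    _ ≤ ((Fintype.card X : ℝ)⁻¹) ^ 2 * ((∑ y, f y ^ 2) * ∑ y, g y ^ 2) :=
        mul_le_mul_of_nonneg_left h (by positivity)
    _ = _ := by ring

end cs

section flip

variable {ι : Type*} [DecidableEq ι]

/-- flip one colour -/
def flipAt (b : ι) : (ι → Bool) ≃ (ι → Bool) where
  toFun χ := Function.update χ b (!χ b)
  invFun χ := Function.update χ b (!χ b)
  left_inv χ := by
    funext i
    by_cases h : i = b
    · subst h; simp
    · simp [Function.update_of_ne h]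
  right_inv χ := by
    funext i
    by_cases h : i = b
    · subst h; simp
    · simp [Function.update_of_ne h]

lemma flipAt_self (b : ι) (χ : ι → Bool) : flipAt b χ b = !χ b := by
  simp [flipAt]

lemma flipAt_ne {b i : ι} (h : i ≠ b) (χ : ι → Bool) : flipAt b χ i = χ i := by
  simp [flipAt, Function.update_of_ne h]

lemma wsign_flipAt {b : ι} {T : Finset ι} (h : b ∉ T) (χ : ι → Bool) :
    wsign T (flipAt b χ) = wsign T χ := by
  unfold wsign
  refine prod_congr rfl fun a ha => ?_
  have hne : a ≠ b := fun e => h (e ▸ ha)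
  rw [flipAt_ne hne]

lemma wsign_insert {b : ι} {T : Finset ι} (h : b ∉ T) (χ : ι → Bool) :
    wsign (insert b T) χ = sgnB (χ b) * wsign T χ := by
  unfold wsign
  rw [prod_insert h]

end flip

variable {ι Y : Type*} [Fintype ι] [DecidableEq ι] [Fintype Y] [DecidableEq Y] [Nonempty Y]

/-- C3: the four-two hypercontractive inequality on the cube -/
theorem bonami (B : Finset ι) (x : Finset ι → ℝ) :
    (avg fun χ : ι → Bool => (∑ T ∈ B.powerset, wsign T χ * x T) ^ 4) ≤
      (∑ T ∈ B.powerset, (3 : ℝ) ^ T.card * x T ^ 2) ^ 2 := by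
  induction B using Finset.induction_on generalizing x with
  | empty =>
    simp only [powerset_empty, sum_singleton, wsign, prod_empty, one_mul, card_empty, pow_zero]
    rw [avg_const]
    exact le_of_eq (by ring)
  | insert b B hb ih =>
    set A : (ι → Bool) → ℝ := fun χ => ∑ T ∈ B.powerset, wsign T χ * x T with hA
    set C : (ι → Bool) → ℝ := fun χ => ∑ T ∈ B.powerset, wsign T χ * x (insert b T) with hC
    set a : ℝ := ∑ T ∈ B.powerset, (3 : ℝ) ^ T.card * x T ^ 2 with ha
    set c : ℝ := ∑ T ∈ B.powerset, (3 : ℝ) ^ T.card * x (insert b T) ^ 2 with hc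
    have hb' : ∀ T ∈ B.powerset, b ∉ T := fun T hT h => hb (mem_powerset.mp hT h)
    have hF : ∀ χ : ι → Bool, (∑ T ∈ (insert b B).powerset, wsign T χ * x T) =
        A χ + sgnB (χ b) * C χ := by
      intro χ
      rw [sum_powerset_insert hb, hA, hC]
      congr 1
      rw [mul_sum]
      refine sum_congr rfl fun T hT => ?_
      rw [wsign_insert (hb' T hT)]
      ring
    have hR : (∑ T ∈ (insert b B).powerset, (3 : ℝ) ^ T.card * x T ^ 2) = a + 3 * c := by
      rw [sum_powerset_insert hb, ha, hc]
      congr 1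
      rw [mul_sum]
      refine sum_congr rfl fun T hT => ?_
      rw [card_insert_of_notMem (hb' T hT), pow_succ]
      ring
    have hAf : ∀ χ, A (flipAt b χ) = A χ := by
      intro χ
      simp only [hA]
      exact sum_congr rfl fun T hT => by rw [wsign_flipAt (hb' T hT)]
    have hCf : ∀ χ, C (flipAt b χ) = C χ := by
      intro χ
      simp only [hC]
      exact sum_congr rfl fun T hT => by rw [wsign_flipAt (hb' T hT)]
    have hs2 : ∀ χ : ι → Bool, sgnB (χ b) ^ 2 = 1 := by
      intro χ
      have := sgnB_sq (χ b)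
      nlinarith
    set F : (ι → Bool) → ℝ := fun χ => (A χ + sgnB (χ b) * C χ) ^ 4 with hFdef
    have hsym : avg F = avg fun χ => F (flipAt b χ) := (avg_equiv (flipAt b) F).symm
    have hsum : (avg F) + (avg fun χ => F (flipAt b χ)) =
        2 * (avg (fun χ => A χ ^ 4) + 6 * avg (fun χ => A χ ^ 2 * C χ ^ 2) +
          avg (fun χ => C χ ^ 4)) := by
      rw [← avg_add, ← avg_mul_left 6, ← avg_add, ← avg_add, ← avg_mul_left 2]
      refine avg_congr fun χ => ?_
      simp only [hFdef, hAf, hCf, flipAt_self, sgnB_not]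
      have h2 := hs2 χ
      set s := sgnB (χ b)
      have h4 : s ^ 4 = 1 := by
        calc s ^ 4 = (s ^ 2) ^ 2 := by ring
          _ = 1 := by rw [h2]; norm_num
      have key : (A χ + s * C χ) ^ 4 + (A χ + -s * C χ) ^ 4 =
          2 * A χ ^ 4 + 12 * s ^ 2 * (A χ ^ 2 * C χ ^ 2) + 2 * s ^ 4 * C χ ^ 4 := by ring
      rw [key, h2, h4]
      ring
    have hE : avg F = avg (fun χ => A χ ^ 4) + 6 * avg (fun χ => A χ ^ 2 * C χ ^ 2) +
          avg (fun χ => C χ ^ 4) := by
      rw [← hsym] at hsum
      linarith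
    have hIa : avg (fun χ => A χ ^ 4) ≤ a ^ 2 := ih x
    have hIc : avg (fun χ => C χ ^ 4) ≤ c ^ 2 := ih (fun T => x (insert b T))
    have ha0 : 0 ≤ a := sum_nonneg fun T _ => by positivity
    have hc0 : 0 ≤ c := sum_nonneg fun T _ => by positivity
    have hcs : avg (fun χ => A χ ^ 2 * C χ ^ 2) ≤ a * c := by
      have h1 := avg_mul_sq_le (fun χ => A χ ^ 2) (fun χ => C χ ^ 2)
      have e1 : (fun y => (A y ^ 2) ^ 2) = fun y => A y ^ 4 := by funext y; ring
      have e2 : (fun y => (C y ^ 2) ^ 2) = fun y => C y ^ 4 := by funext y; ring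
      rw [e1, e2] at h1
      have h2 : avg (fun χ => A χ ^ 4) * avg (fun χ => C χ ^ 4) ≤ a ^ 2 * c ^ 2 :=
        mul_le_mul hIa hIc (avg_nonneg fun χ => by positivity) (by positivity)
      have h3 : (avg fun χ => A χ ^ 2 * C χ ^ 2) ^ 2 ≤ (a * c) ^ 2 := by
        calc _ ≤ _ := h1
          _ ≤ _ := h2
          _ = _ := by ring
      exact abs_le_of_sq_le_sq' h3 (mul_nonneg ha0 hc0) |>.2
    rw [hR]
    have hLHS : (avg fun χ : ι → Bool => (∑ T ∈ (insert b B).powerset, wsign T χ * x T) ^ 4) = avg F := by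
      refine avg_congr fun χ => ?_
      rw [hF]
    rw [hLHS, hE]
    nlinarith [mul_nonneg ha0 hc0, sq_nonneg c]

/-- the law of the number of `false` colours on a set -/
lemma avg_card_filter (B : Finset ι) (f : ℕ → ℝ) :
    (avg fun χ : ι → Bool => f (B.filter fun a => χ a = false).card) = binE B.card f := by
  classical
  have h1 : ∀ χ : ι → Bool, f (B.filter fun a => χ a = false).card =
      ∑ W ∈ B.powerset, (if ∀ i ∈ B, χ i = decide (i ∉ W) then f W.card else 0) := by
    intro χ
    rw [sum_eq_single (B.filter fun a => χ a = false)]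
    · rw [if_pos]
      intro i hi
      by_cases h : χ i = false
      · simp [hi, h]
      · have h' : χ i = true := by simpa using h
        simp [hi, h']
    · intro W hW hne
      rw [if_neg]
      intro h
      apply hne
      ext i
      simp only [mem_filter]
      constructor
      · intro hi
        have hi' := mem_powerset.mp hW hi
        refine ⟨hi', ?_⟩
        rw [h i hi']
        simp [hi]
      · rintro ⟨hi, hc⟩
        by_contra hn
        have := h i hi
        rw [hc] at this
        simp [hn] at this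
    · intro h
      exact absurd (mem_powerset.mpr (filter_subset _ _)) h
  simp_rw [h1]
  rw [avg_sum]
  have h2 : ∀ W ∈ B.powerset, (avg fun χ : ι → Bool =>
      if ∀ i ∈ B, χ i = decide (i ∉ W) then f W.card else 0) = ((2 : ℝ) ^ B.card)⁻¹ * f W.card := by
    intro W _
    have h3 := avg_hit (Y := Bool) B (fun i => decide (i ∉ W))
    simp only [Fintype.card_bool, Nat.cast_ofNat] at h3
    rw [← h3, ← avg_mul_right]
    refine avg_congr fun χ => ?_
    split_ifs <;> simp
  rw [sum_congr rfl h2, ← mul_sum, sum_powerset_apply_card]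
  unfold binE
  simp [nsmul_eq_mul]

section combi

variable {S : Finset ι} {u : ι → Y}

lemma mem_fibK_self {a : ι} (ha : a ∈ S) : a ∈ fibK S u (u a) := by
  simp [fibK, ha]

lemma not_mem_Sing_of_pair {a b : ι} (ha : a ∈ S) (hb : b ∈ S) (hab : a ≠ b) (hu : u a = u b) :
    a ∉ Sing S u := by
  intro h
  have h1 : (fibK S u (u a)).card = 1 := (mem_filter.mp h).2
  obtain ⟨c, hc⟩ := card_eq_one.mp h1
  have h2 : a ∈ fibK S u (u a) := mem_fibK_self ha
  have h3 : b ∈ fibK S u (u a) := by simp [fibK, hb, hu]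
  rw [hc, mem_singleton] at h2 h3
  exact hab (h2.trans h3.symm)

lemma Sing_subset : Sing S u ⊆ S := filter_subset _ _

/-- a non-single token of a triple free tuple has a unique partner -/
lemma card_fib_two_of_not_Sing (hu : TF S u) {a : ι} (ha : a ∈ S) (hn : a ∉ Sing S u) :
    (fibK S u (u a)).card = 2 := by
  have h1 := hu (u a)
  have h2 : 0 < (fibK S u (u a)).card := card_pos.mpr ⟨a, mem_fibK_self ha⟩
  have h3 : (fibK S u (u a)).card ≠ 1 := by
    intro h
    exact hn (mem_filter.mpr ⟨ha, h⟩)
  omega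

/-- the non-singles are two per label -/
lemma card_S_eq (hu : TF S u) : S.card = (Sing S u).card + 2 * ePairs S u := by
  classical
  have hsd : (S \ Sing S u).card = 2 * ePairs S u := by
    have h1 := card_eq_sum_card_fiberwise (f := u) (s := S \ Sing S u)
      (t := univ.filter fun l : Y => (fibK S u l).card = 2) (by
        intro a ha
        have ha' := mem_sdiff.mp ha
        simp only [coe_filter, mem_univ, true_and, Set.mem_ofPred_eq]
        exact card_fib_two_of_not_Sing hu ha'.1 ha'.2)
    rw [h1, sum_congr rfl (g := fun _ => 2)]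
    · rw [sum_const, smul_eq_mul, mul_comm]
      rfl
    · intro l hl
      have hl2 : (fibK S u l).card = 2 := (mem_filter.mp hl).2
      rw [← hl2]
      congr 1
      ext a
      simp only [mem_filter, mem_sdiff, fibK]
      constructor
      · rintro ⟨⟨h1, _⟩, h3⟩
        exact ⟨h1, h3⟩
      · rintro ⟨h1, h3⟩
        refine ⟨⟨h1, ?_⟩, h3⟩
        intro h
        have h4 : (fibK S u (u a)).card = 1 := (mem_filter.mp h).2
        rw [h3, hl2] at h4
        omega
  have h2 : (S \ Sing S u).card = S.card - (Sing S u).card :=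
    card_sdiff_of_subset Sing_subset
  have h3 : (Sing S u).card ≤ S.card := card_le_card Sing_subset
  omega

/-- a proper colouring has one token of each colour on each pair -/
lemma card_filter_proper (hu : TF S u) {χ : ι → Bool} (hχ : Proper S χ u) (c : Bool) :
    (S.filter fun a => χ a = c).card = ePairs S u + ((Sing S u).filter fun a => χ a = c).card := by
  classical
  have hsplit : (S.filter fun a => χ a = c).card =
      ((S \ Sing S u).filter fun a => χ a = c).card + ((Sing S u).filter fun a => χ a = c).card := by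
    rw [← card_union_of_disjoint]
    · congr 1
      ext a
      simp only [mem_filter, mem_union, mem_sdiff]
      constructor
      · rintro ⟨h1, h2⟩
        by_cases h : a ∈ Sing S u
        · exact Or.inr ⟨h, h2⟩
        · exact Or.inl ⟨⟨h1, h⟩, h2⟩
      · rintro (⟨⟨h1, _⟩, h2⟩ | ⟨h1, h2⟩)
        · exact ⟨h1, h2⟩
        · exact ⟨Sing_subset h1, h2⟩
    · rw [disjoint_left]
      intro a ha hb
      have h1 := (mem_filter.mp ha).1
      exact (mem_sdiff.mp h1).2 (mem_filter.mp hb).1
  rw [hsplit]
  congr 1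
  unfold ePairs
  refine card_bij (fun a _ => u a) ?_ ?_ ?_
  · intro a ha
    have h1 := (mem_filter.mp ha).1
    have h2 := mem_sdiff.mp h1
    simp only [mem_filter, mem_univ, true_and]
    exact card_fib_two_of_not_Sing hu h2.1 h2.2
  · intro a ha b hb hab
    by_contra hne
    have h1 := mem_filter.mp ha
    have h2 := mem_filter.mp hb
    exact hχ a (mem_sdiff.mp h1.1).1 b (mem_sdiff.mp h2.1).1 hne hab (h1.2.trans h2.2.symm)
  · intro l hl
    have hl2 : (fibK S u l).card = 2 := (mem_filter.mp hl).2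
    obtain ⟨a, b, hab, hfib⟩ := card_eq_two.mp hl2
    have ha : a ∈ fibK S u l := by rw [hfib]; simp
    have hb : b ∈ fibK S u l := by rw [hfib]; simp
    have ha' := mem_filter.mp ha
    have hb' := mem_filter.mp hb
    have hcol : χ a ≠ χ b := hχ a ha'.1 b hb'.1 hab (ha'.2.trans hb'.2.symm)
    have hcase : ∃ d, d ∈ fibK S u l ∧ χ d = c ∧ ∃ d' ∈ fibK S u l, d' ≠ d := by
      by_cases h : χ a = c
      · exact ⟨a, ha, h, b, hb, hab.symm⟩
      · refine ⟨b, hb, ?_, a, ha, hab⟩
        cases hca : χ a <;> cases hcb : χ b <;> cases c <;> simp_all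
    obtain ⟨d, hd, hdc, d', hd', hne⟩ := hcase
    have hd1 := mem_filter.mp hd
    have hd2 := mem_filter.mp hd'
    refine ⟨d, mem_filter.mpr ⟨mem_sdiff.mpr ⟨hd1.1, ?_⟩, hdc⟩, hd1.2⟩
    exact not_mem_Sing_of_pair hd1.1 hd2.1 hne.symm (hd1.2.trans hd2.2.symm)

/-- the colour class sizes at a proper colouring -/
lemma gg_eq_of_proper (g : ℕ → ℝ) (hu : TF S u) {χ : ι → Bool} (hχ : Proper S χ u) :
    gg g χ S = g (ePairs S u + ((Sing S u).filter fun a => χ a = false).card) *
      g (ePairs S u + (S.card - 2 * ePairs S u) - ((Sing S u).filter fun a => χ a = false).card) := by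
  unfold gg
  have h1 := card_filter_proper hu hχ false
  have h2 := card_filter_proper hu hχ true
  have h3 := card_S_eq hu
  have h4 : ((Sing S u).filter fun a => χ a = false).card +
      ((Sing S u).filter fun a => χ a = true).card = (Sing S u).card := by
    have := card_filter_add_card_filter_not (s := Sing S u) (fun a => χ a = false)
    simpa using this
  rw [h1, h2]
  congr 2
  omega

lemma proper_congr_off {y y' : ι → Bool} (h : ∀ i, i ∉ Sing S u → y i = y' i)
    (hy : Proper S y u) : Proper S y' u := by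
  intro a ha b hb hab hl
  have h1 := not_mem_Sing_of_pair (u := u) ha hb hab hl
  have h2 := not_mem_Sing_of_pair (u := u) hb ha hab.symm hl.symm
  rw [← h a h1, ← h b h2]
  exact hy a ha b hb hab hl

lemma prI_congr_off {y y' : ι → Bool} (h : ∀ i, i ∉ Sing S u → y i = y' i) :
    prI S y u = prI S y' u := by
  unfold prI
  have : Proper S y u ↔ Proper S y' u :=
    ⟨proper_congr_off h, proper_congr_off fun i hi => (h i hi).symm⟩
  by_cases hy : Proper S y u
  · rw [if_pos hy, if_pos (this.mp hy)]
  · rw [if_neg hy, if_neg (fun h => hy (this.mpr h))]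

lemma card_filter_congr {y y' : ι → Bool} (h : ∀ i ∈ Sing S u, y i = y' i) :
    ((Sing S u).filter fun a => y a = false).card = ((Sing S u).filter fun a => y' a = false).card := by
  congr 1
  exact filter_congr fun a ha => by rw [h a ha]

/-- C2': the term without Fourier factor -/
theorem avg_gg_proper_eq (g : ℕ → ℝ) (S : Finset ι) (u : ι → Y) (hu : TF S u) :
    (avg fun χ : ι → Bool => gg g χ S * prI S χ u) =
      ((2 : ℝ) ^ ePairs S u)⁻¹ * Gone g (ePairs S u) (S.card - 2 * ePairs S u) := by
  set e := ePairs S u with he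
  set s' := S.card - 2 * e with hs'
  have hs : (Sing S u).card = s' := by
    have := card_S_eq hu
    omega
  set F : (ι → Bool) → ℝ := fun χ =>
    g (e + ((Sing S u).filter fun a => χ a = false).card) *
      g (e + s' - ((Sing S u).filter fun a => χ a = false).card) with hF
  have h1 : ∀ χ : ι → Bool, gg g χ S * prI S χ u = F χ * prI S χ u := by
    intro χ
    by_cases hχ : Proper S χ u
    · rw [gg_eq_of_proper g hu hχ]
    · simp [prI, hχ]
  have h2 : (avg fun χ : ι → Bool => F χ * prI S χ u) = avg F * avg fun χ => prI S χ u := by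
    refine avg_indep (Sing S u) ?_ ?_
    · intro y y' h
      simp only [hF, card_filter_congr h]
    · intro y y' h
      exact prI_congr_off h
  have h3 : avg F = Gone g e s' := by
    have := avg_card_filter (Sing S u) (fun i => g (e + i) * g (e + s' - i))
    rw [hs] at this
    exact this
  rw [avg_congr h1, h2, h3, avg_prI S u hu]
  ring

/-- C2: Hoelder in the colours; the pairs of `S` are separated from the singles -/
theorem avg_gg_proper_le (g : ℕ → ℝ) (hg : ∀ s, 0 ≤ g s) (S : Finset ι) (u : ι → Y) (hu : TF S u)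
    (x : Finset ι → ℝ) (hx : ∀ T ∈ S.powerset, ¬ T ⊆ Sing S u → x T = 0) :
    (avg fun χ : ι → Bool => gg g χ S * prI S χ u * (∑ T ∈ S.powerset, wsign T χ * x T) ^ 2) ≤
      ((2 : ℝ) ^ ePairs S u)⁻¹ * Gtwo g (ePairs S u) (S.card - 2 * ePairs S u) *
        ∑ T ∈ S.powerset, (3 : ℝ) ^ T.card * x T ^ 2 := by
  set e := ePairs S u with he
  set s' := S.card - 2 * e with hs'
  have hs : (Sing S u).card = s' := by
    have := card_S_eq hu
    omega
  set G : (ι → Bool) → ℝ := fun χ =>
    g (e + ((Sing S u).filter fun a => χ a = false).card) *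
      g (e + s' - ((Sing S u).filter fun a => χ a = false).card) with hG
  set X : (ι → Bool) → ℝ := fun χ => ∑ T ∈ (Sing S u).powerset, wsign T χ * x T with hX
  have hsub : (Sing S u).powerset ⊆ S.powerset := powerset_mono.mpr Sing_subset
  have hXe : ∀ χ : ι → Bool, (∑ T ∈ S.powerset, wsign T χ * x T) = X χ := by
    intro χ
    refine (sum_subset hsub ?_).symm
    intro T hT hn
    rw [hx T hT (fun h => hn (mem_powerset.mpr h))]
    ring
  have hRe : (∑ T ∈ S.powerset, (3 : ℝ) ^ T.card * x T ^ 2) =
      ∑ T ∈ (Sing S u).powerset, (3 : ℝ) ^ T.card * x T ^ 2 := by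
    refine (sum_subset hsub ?_).symm
    intro T hT hn
    rw [hx T hT (fun h => hn (mem_powerset.mpr h))]
    ring
  have h1 : ∀ χ : ι → Bool, gg g χ S * prI S χ u * (∑ T ∈ S.powerset, wsign T χ * x T) ^ 2 =
      (G χ * X χ ^ 2) * prI S χ u := by
    intro χ
    rw [hXe]
    by_cases hχ : Proper S χ u
    · rw [gg_eq_of_proper g hu hχ]
      ring
    · simp [prI, hχ]
  have h2 : (avg fun χ : ι → Bool => (G χ * X χ ^ 2) * prI S χ u) =
      avg (fun χ => G χ * X χ ^ 2) * avg fun χ => prI S χ u := by
    refine avg_indep (Sing S u) ?_ ?_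
    · intro y y' h
      have e1 : ∀ T ∈ (Sing S u).powerset, wsign T y = wsign T y' := by
        intro T hT
        unfold wsign
        exact prod_congr rfl fun a ha => by rw [h a (mem_powerset.mp hT ha)]
      have e2 : X y = X y' := sum_congr rfl fun T hT => by rw [e1 T hT]
      simp only [hG, card_filter_congr h, e2]
    · intro y y' h
      exact prI_congr_off h
  have h3 : avg (fun χ => G χ ^ 2) =
      binE s' fun i => (g (e + i) * g (e + s' - i)) ^ 2 := by
    have := avg_card_filter (Sing S u) (fun i => (g (e + i) * g (e + s' - i)) ^ 2)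
    rw [hs] at this
    exact this
  set R : ℝ := ∑ T ∈ (Sing S u).powerset, (3 : ℝ) ^ T.card * x T ^ 2 with hR
  have hR0 : 0 ≤ R := sum_nonneg fun T _ => by positivity
  have h4 : avg (fun χ => X χ ^ 4) ≤ R ^ 2 := bonami (Sing S u) x
  have hG0 : ∀ χ, 0 ≤ G χ := fun χ => mul_nonneg (hg _) (hg _)
  have h5 : (avg fun χ => G χ * X χ ^ 2) ^ 2 ≤ avg (fun χ => G χ ^ 2) * R ^ 2 := by
    have h6 := avg_mul_sq_le G (fun χ => X χ ^ 2)
    have e1 : (fun y => (X y ^ 2) ^ 2) = fun y => X y ^ 4 := by funext y; ring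
    rw [e1] at h6
    exact h6.trans (mul_le_mul_of_nonneg_left h4 (avg_nonneg fun χ => by positivity))
  have h7 : (avg fun χ => G χ * X χ ^ 2) ≤ Gtwo g e s' * R := by
    have h8 : 0 ≤ avg fun χ => G χ * X χ ^ 2 :=
      avg_nonneg fun χ => mul_nonneg (hG0 χ) (by positivity)
    unfold Gtwo
    rw [← h3]
    have h9 : 0 ≤ avg fun χ => G χ ^ 2 := avg_nonneg fun χ => by positivity
    have h10 : (Real.sqrt (avg fun χ => G χ ^ 2) * R) ^ 2 = (avg fun χ => G χ ^ 2) * R ^ 2 := by
      rw [mul_pow, Real.sq_sqrt h9]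
    exact abs_le_of_sq_le_sq' (h5.trans (le_of_eq h10.symm))
      (mul_nonneg (Real.sqrt_nonneg _) hR0) |>.2
  rw [avg_congr h1, h2, avg_prI S u hu, hRe]
  have h11 : (0 : ℝ) ≤ ((2 : ℝ) ^ e)⁻¹ := by positivity
  calc avg (fun χ => G χ * X χ ^ 2) * ((2 : ℝ) ^ e)⁻¹
      ≤ (Gtwo g e s' * R) * ((2 : ℝ) ^ e)⁻¹ := mul_le_mul_of_nonneg_right h7 h11
    _ = _ := by ring

end combi

end Vale.Agent.Lib.P162.QF
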