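import Vale.Agent.Lib.P162.QF.CoreDefs

/-!
# The core lemma: Fourier coefficients of the properness indicator (C0, C1, C1')
-/

namespace Vale.Agent.Lib.P162.QF

open Vale.Agent.Lib.P162 Equiv Finset

set_option linter.unusedSectionVars false

variable {ι Y : Type*} [Fintype ι] [DecidableEq ι] [Fintype Y] [DecidableEq Y] [Nonempty Y]

lemma mem_fibK {K : Finset ι} {u : ι → Y} {l : Y} {x : ι} : x ∈ fibK K u l ↔ x ∈ K ∧ u x = l := by
  simp [fibK]

lemma fibK_erase (K : Finset ι) (u : ι → Y) (a : ι) (l : Y) :
    fibK (K.erase a) u l = (fibK K u l).erase a := by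
  ext x
  simp only [mem_fibK, mem_erase]
  tauto

lemma TF.mono {K K' : Finset ι} {u : ι → Y} (h : K' ⊆ K) (hu : TF K u) : TF K' u := fun l =>
  (card_le_card (filter_subset_filter _ h)).trans (hu l)

lemma TF.unique {K : Finset ι} {u : ι → Y} (hu : TF K u) {a b c : ι} (ha : a ∈ K) (hb : b ∈ K)
    (hc : c ∈ K) (hab : a ≠ b) (hac : a ≠ c) (h1 : u b = u a) (h2 : u c = u a) : b = c := by
  by_contra hbc
  have h3 : 2 < (fibK K u (u a)).card :=
    Finset.two_lt_card_iff.mpr ⟨a, b, c, mem_fibK.mpr ⟨ha, rfl⟩, mem_fibK.mpr ⟨hb, h1⟩,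
      mem_fibK.mpr ⟨hc, h2⟩, hab, hac, hbc⟩
  have h4 := hu (u a)
  omega

/-- a proper colouring exists only for triple free tuples -/
lemma Proper.TF {K : Finset ι} {χ : ι → Bool} {u : ι → Y} (h : Proper K χ u) : TF K u := by
  intro l
  by_contra hc
  push Not at hc
  obtain ⟨a, b, c, ha, hb, hc', hab, hac, hbc⟩ := Finset.two_lt_card_iff.mp hc
  obtain ⟨ha1, ha2⟩ := mem_fibK.mp ha
  obtain ⟨hb1, hb2⟩ := mem_fibK.mp hb
  obtain ⟨hc1, hc2⟩ := mem_fibK.mp hc'
  have h1 := h a ha1 b hb1 hab (ha2.trans hb2.symm)
  have h2 := h a ha1 c hc1 hac (ha2.trans hc2.symm)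
  have h3 := h b hb1 c hc1 hbc (hb2.trans hc2.symm)
  cases h4 : χ a <;> cases h5 : χ b <;> cases h6 : χ c <;> simp_all

lemma proper_congr {K : Finset ι} {ψ ψ' : ι → Bool} {u : ι → Y} (h : ∀ i ∈ K, ψ i = ψ' i) :
    Proper K ψ u ↔ Proper K ψ' u := by
  constructor
  · intro hp x hx y hy hxy hu'
    rw [← h x hx, ← h y hy]
    exact hp x hx y hy hxy hu'
  · intro hp x hx y hy hxy hu'
    rw [h x hx, h y hy]
    exact hp x hx y hy hxy hu'

lemma prI_of_iff {K K' : Finset ι} {ψ ψ' : ι → Bool} {u u' : ι → Y}
    (h : Proper K ψ u ↔ Proper K' ψ' u') : prI K ψ u = prI K' ψ' u' := by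
  unfold prI
  by_cases hp : Proper K ψ u
  · rw [if_pos hp, if_pos (h.mp hp)]
  · rw [if_neg hp, if_neg (fun h' => hp (h.mpr h'))]

lemma prI_congr {K : Finset ι} {ψ ψ' : ι → Bool} {u : ι → Y} (h : ∀ i ∈ K, ψ i = ψ' i) :
    prI K ψ u = prI K ψ' u := by
  exact prI_of_iff (proper_congr h)

lemma proper_erase_single {K : Finset ι} {u : ι → Y} {a : ι} (hno : ∀ b ∈ K, b ≠ a → u b ≠ u a)
    {ψ : ι → Bool} : Proper K ψ u ↔ Proper (K.erase a) ψ u := by
  constructor
  · intro hp x hx y hy hxy hu'
    exact hp x (mem_of_mem_erase hx) y (mem_of_mem_erase hy) hxy hu'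
  · intro hp x hx y hy hxy hu'
    by_cases hxa : x = a
    · subst hxa
      exact absurd hu'.symm (hno y hy (Ne.symm hxy))
    by_cases hya : y = a
    · subst hya
      exact absurd hu' (hno x hx hxy)
    exact hp x (mem_erase.mpr ⟨hxa, hx⟩) y (mem_erase.mpr ⟨hya, hy⟩) hxy hu'

lemma proper_erase_paired {K : Finset ι} {u : ι → Y} (hu : TF K u) {a b : ι} (ha : a ∈ K)
    (hb : b ∈ K) (hab : a ≠ b) (h : u b = u a) {ψ : ι → Bool} :
    Proper K ψ u ↔ ψ a ≠ ψ b ∧ Proper (K.erase a) ψ u := by
  constructor
  · intro hp
    refine ⟨hp a ha b hb hab h.symm, ?_⟩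
    intro x hx y hy hxy hu'
    exact hp x (mem_of_mem_erase hx) y (mem_of_mem_erase hy) hxy hu'
  · rintro ⟨h1, hp⟩ x hx y hy hxy hu'
    by_cases hxa : x = a
    · subst hxa
      have : b = y := hu.unique ha hb hy hab hxy h hu'.symm
      subst this
      exact h1
    by_cases hya : y = a
    · subst hya
      have : b = x := hu.unique ha hb hx hab (Ne.symm hxy) h hu'
      subst this
      exact Ne.symm h1
    exact hp x (mem_erase.mpr ⟨hxa, hx⟩) y (mem_erase.mpr ⟨hya, hy⟩) hxy hu'

lemma prI_erase_single {K : Finset ι} {u : ι → Y} {a : ι} (hno : ∀ b ∈ K, b ≠ a → u b ≠ u a)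
    (ψ : ι → Bool) : prI K ψ u = prI (K.erase a) ψ u := by
  exact prI_of_iff (proper_erase_single (ψ := ψ) hno)

lemma prI_erase_paired {K : Finset ι} {u : ι → Y} (hu : TF K u) {a b : ι} (ha : a ∈ K)
    (hb : b ∈ K) (hab : a ≠ b) (h : u b = u a) (ψ : ι → Bool) :
    prI K ψ u = (if ψ a ≠ ψ b then 1 else 0) * prI (K.erase a) ψ u := by
  have h2 := proper_erase_paired (ψ := ψ) hu ha hb hab h
  by_cases h1 : ψ a ≠ ψ b
  · rw [if_pos h1, one_mul]
    exact prI_of_iff (h2.trans (and_iff_right h1))
  · rw [if_neg h1, zero_mul]
    unfold prI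
    exact if_neg (fun hp => h1 (h2.mp hp).1)

/-! ### One or two Boolean coordinates -/

lemma avg_bool (f : Bool → ℝ) : avg f = (f true + f false) / 2 := by
  simp [avg, Fintype.card_bool]
  ring

lemma avg_coord (a : ι) (f : Bool → ℝ) : avg (fun χ : ι → Bool => f (χ a)) = avg f := by
  rw [← avg_update a]
  simp only [Function.update_self]
  exact avg_const _

lemma avg_sgn (a : ι) : avg (fun χ : ι → Bool => sgnB (χ a)) = 0 := by
  rw [avg_coord a sgnB, avg_bool]
  simp

lemma avg_single_factor (a : ι) (c : Bool) :
    avg (fun χ : ι → Bool => sgnB (χ a) * (if χ a ≠ c then 1 else 0)) = - sgnB c / 2 := by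
  rw [avg_coord a (fun p => sgnB p * (if p ≠ c then 1 else 0)), avg_bool]
  cases c <;> simp

lemma avg_pair_factor {a b : ι} (hab : a ≠ b) :
    avg (fun χ : ι → Bool => sgnB (χ a) * sgnB (χ b) * (if χ a ≠ χ b then 1 else 0)) = - 1 / 2 := by
  rw [← avg_update a]
  have e : ∀ z : ι → Bool,
      avg (fun p : Bool => sgnB (Function.update z a p a) * sgnB (Function.update z a p b) *
        (if Function.update z a p a ≠ Function.update z a p b then 1 else 0)) = - 1 / 2 := by
    intro z
    rw [avg_bool]
    simp only [Function.update_self, Function.update_of_ne (Ne.symm hab)]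
    cases z b <;> simp
  simp only [e]
  exact avg_const _

lemma avg_ne_half {a b : ι} (hab : a ≠ b) :
    avg (fun χ : ι → Bool => if χ a ≠ χ b then (1 : ℝ) else 0) = 1 / 2 := by
  rw [← avg_update a]
  have e : ∀ z : ι → Bool,
      avg (fun p : Bool => if Function.update z a p a ≠ Function.update z a p b then (1 : ℝ) else 0)
        = 1 / 2 := by
    intro z
    rw [avg_bool]
    simp only [Function.update_self, Function.update_of_ne (Ne.symm hab)]
    cases z b <;> simp
  simp only [e]
  exact avg_const _

/-! ### Number of pairs -/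

lemma ePairs_erase_paired {K : Finset ι} {u : ι → Y} (hu : TF K u) {a b : ι} (ha : a ∈ K)
    (hb : b ∈ K) (hab : a ≠ b) (h : u b = u a) : ePairs K u = ePairs (K.erase a) u + 1 := by
  classical
  have hfib : (fibK K u (u a)).card = 2 := by
    have h1 : ({a, b} : Finset ι) ⊆ fibK K u (u a) := by
      intro x hx
      simp only [mem_insert, mem_singleton] at hx
      rcases hx with rfl | rfl
      · exact mem_fibK.mpr ⟨ha, rfl⟩
      · exact mem_fibK.mpr ⟨hb, h⟩
    have h2 := card_le_card h1
    rw [card_pair hab] at h2
    have h3 := hu (u a)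
    omega
  have hfib' : (fibK (K.erase a) u (u a)).card = 1 := by
    rw [fibK_erase, card_erase_of_mem (mem_fibK.mpr ⟨ha, rfl⟩), hfib]
  have e : (univ.filter fun l : Y => (fibK K u l).card = 2) =
      insert (u a) (univ.filter fun l : Y => (fibK (K.erase a) u l).card = 2) := by
    ext l
    simp only [mem_filter, mem_univ, true_and, mem_insert]
    by_cases hl : l = u a
    · subst hl
      simp [hfib]
    · have : (fibK (K.erase a) u l) = fibK K u l := by
        rw [fibK_erase]
        apply erase_eq_of_notMem
        intro hmem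
        exact hl (mem_fibK.mp hmem).2.symm
      rw [this]
      simp [hl]
  unfold ePairs
  rw [e, card_insert_of_notMem]
  simp [hfib']

lemma ePairs_erase_single {K : Finset ι} {u : ι → Y} {a : ι} (ha : a ∈ K)
    (hno : ∀ b ∈ K, b ≠ a → u b ≠ u a) : ePairs (K.erase a) u = ePairs K u := by
  classical
  have hfib : fibK K u (u a) = {a} := by
    ext x
    simp only [mem_fibK, mem_singleton]
    constructor
    · rintro ⟨h1, h2⟩
      by_contra hxa
      exact hno x h1 hxa h2
    · rintro rfl
      exact ⟨ha, rfl⟩
  unfold ePairs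
  congr 1
  ext l
  simp only [mem_filter, mem_univ, true_and]
  by_cases hl : l = u a
  · subst hl
    rw [fibK_erase, hfib]
    simp
  · have : (fibK (K.erase a) u l) = fibK K u l := by
      rw [fibK_erase]
      apply erase_eq_of_notMem
      intro hmem
      exact hl (mem_fibK.mp hmem).2.symm
    rw [this]

lemma ePairs_eq_zero {K : Finset ι} {u : ι → Y} (hno : ∀ a ∈ K, ∀ b ∈ K, a ≠ b → u a ≠ u b) :
    ePairs K u = 0 := by
  unfold ePairs
  rw [card_eq_zero, filter_eq_empty_iff]
  intro l _ h2
  obtain ⟨a, b, hab, hs⟩ := card_eq_two.mp h2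
  have ha : a ∈ fibK K u l := by rw [hs]; simp
  have hb : b ∈ fibK K u l := by rw [hs]; simp
  obtain ⟨ha1, ha2⟩ := mem_fibK.mp ha
  obtain ⟨hb1, hb2⟩ := mem_fibK.mp hb
  exact hno a ha1 b hb1 hab (ha2.trans hb2.symm)

/-- C0: the probability of a proper colouring -/
lemma avg_prI (K : Finset ι) (u : ι → Y) (hu : TF K u) :
    (avg fun χ : ι → Bool => prI K χ u) = ((2 : ℝ) ^ ePairs K u)⁻¹ := by
  classical
  induction' hn : K.card using Nat.strong_induction_on with n ih generalizing K
  by_cases hpair : ∃ a ∈ K, ∃ b ∈ K, a ≠ b ∧ u b = u a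
  · obtain ⟨a, ha, b, hb, hab, h⟩ := hpair
    have hK1 : (K.erase a).card < n := by
      rw [← hn]; exact card_erase_lt_of_mem ha
    have hbK : b ∈ K.erase a := mem_erase.mpr ⟨Ne.symm hab, hb⟩
    have hK2 : ((K.erase a).erase b).card < n := by
      refine lt_trans ?_ hK1
      exact card_erase_lt_of_mem hbK
    have hno : ∀ c ∈ K.erase a, c ≠ b → u c ≠ u b := by
      intro c hc hcb huc
      exact hcb (hu.unique ha (mem_of_mem_erase hc) hb (Ne.symm (ne_of_mem_erase hc)) hab
        (huc.trans h) h)
    have hTF : TF ((K.erase a).erase b) u :=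
      hu.mono ((erase_subset _ _).trans (erase_subset _ _))
    have e : ∀ χ : ι → Bool, prI K χ u =
        (if χ a ≠ χ b then (1 : ℝ) else 0) * prI ((K.erase a).erase b) χ u := by
      intro χ
      rw [prI_erase_paired hu ha hb hab h, prI_erase_single hno χ]
    simp only [e]
    rw [avg_indep {a, b} (F := fun χ : ι → Bool => if χ a ≠ χ b then (1 : ℝ) else 0)
      (G := fun χ => prI ((K.erase a).erase b) χ u)]
    · rw [avg_ne_half hab, ih _ hK2 _ hTF rfl, ePairs_erase_paired hu ha hb hab h,
        ← ePairs_erase_single hbK hno, pow_succ]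
      field_simp
    · intro y y' hy
      have h1 := hy a (by simp)
      have h2 := hy b (by simp)
      simp only [h1, h2]
    · intro y y' hy
      apply prI_congr
      intro i hi
      apply hy
      simp only [mem_insert, mem_singleton, not_or]
      have hi1 := mem_erase.mp hi
      have hi2 := mem_erase.mp hi1.2
      exact ⟨hi2.1, hi1.1⟩
  · push Not at hpair
    have hall : ∀ χ : ι → Bool, prI K χ u = 1 := by
      intro χ
      unfold prI
      rw [if_pos]
      intro x hx y hy hxy hu'
      exact absurd hu'.symm (hpair x hx y hy hxy)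
    simp only [hall]
    rw [avg_const, ePairs_eq_zero (fun a ha b hb hab h => hpair a ha b hb hab h.symm)]
    simp

/-! ### The Fourier coefficient -/

lemma wsign_erase {W : Finset ι} {a : ι} (ha : a ∈ W) (χ : ι → Bool) :
    wsign W χ = sgnB (χ a) * wsign (W.erase a) χ := by
  unfold wsign
  exact (mul_prod_erase W (fun i => sgnB (χ i)) ha).symm

lemma merge_erase_eq {W : Finset ι} {a : ι} (χ χ' : ι → Bool) {i : ι} (hi : i ≠ a) :
    merge W χ χ' i = merge (W.erase a) χ χ' i := by
  unfold merge
  simp [hi]

open Classical in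
/-- C1: the Fourier coefficient of the properness indicator in the `W` colours -/
theorem coef_formula_aux (χ : ι → Bool) (u : ι → Y) :
    ∀ (n : ℕ) (W K : Finset ι), W.card = n → W ⊆ K → TF K u →
    (avg fun χ' : ι → Bool => wsign W χ' * prI K (merge W χ χ') u) =
      if AllPaired W K u then
        (-(1 / 2 : ℝ)) ^ ((W.card + (Tpart W (K \ W) u).card) / 2) *
          wsign (Tpart W (K \ W) u) χ * prI (K \ W) χ u
      else 0 := by
  intro n
  induction n using Nat.strong_induction_on with
  | _ n ih =>
    intro W K hn hW hu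
    rcases W.eq_empty_or_nonempty with rfl | ⟨a, ha⟩
    · have hm : ∀ χ' : ι → Bool, merge ∅ χ χ' = χ := by
        intro χ'; funext i; simp [merge]
      have ht : Tpart ∅ (K \ ∅) u = ∅ := by
        simp [Tpart]
      have hap : AllPaired ∅ K u := fun a ha => absurd ha (notMem_empty a)
      have h0 : (fun χ' : ι → Bool => wsign ∅ χ' * prI K (merge ∅ χ χ') u) = fun _ => prI K χ u := by
        funext χ'
        simp [hm, wsign]
      rw [h0, avg_const (Y := ι → Bool), if_pos hap, ht]
      simp [wsign]
    have haK : a ∈ K := hW ha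
    by_cases hpart : ∃ b ∈ K, b ≠ a ∧ u b = u a
    · obtain ⟨b, hbK, hba, hub⟩ := hpart
      have hab : a ≠ b := Ne.symm hba
      by_cases hbW : b ∈ W
      · -- the partner is in `W`
        have hbW' : b ∈ W.erase a := mem_erase.mpr ⟨hba, hbW⟩
        have hbK' : b ∈ K.erase a := mem_erase.mpr ⟨hba, hbK⟩
        set W2 := (W.erase a).erase b with hW2
        set K2 := (K.erase a).erase b with hK2
        have hcard : W.card = W2.card + 2 := by
          have h1 := card_erase_add_one ha
          have h2 : W2.card + 1 = (W.erase a).card := card_erase_add_one hbW'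
          omega
        have hW2K2 : W2 ⊆ K2 := by
          intro x hx
          have h1 := mem_erase.mp hx
          have h2 := mem_erase.mp h1.2
          exact mem_erase.mpr ⟨h1.1, mem_erase.mpr ⟨h2.1, hW h2.2⟩⟩
        have hTF2 : TF K2 u := hu.mono ((erase_subset _ _).trans (erase_subset _ _))
        have hIH := ih W2.card (by omega) W2 K2 rfl hW2K2 hTF2
        have hno : ∀ c ∈ K.erase a, c ≠ b → u c ≠ u b := by
          intro c hc hcb huc
          exact hcb (hu.unique haK (mem_of_mem_erase hc) hbK (Ne.symm (ne_of_mem_erase hc)) hab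
            (huc.trans hub) hub)
        have hthird : ∀ c ∈ K, c ≠ a → c ≠ b → u c ≠ u a := by
          intro c hc hca hcb huc
          exact hcb (hu.unique haK hc hbK (Ne.symm hca) hab huc hub)
        have hdiff : K2 \ W2 = K \ W := by
          ext x
          simp only [hK2, hW2, mem_sdiff, mem_erase]
          constructor
          · rintro ⟨⟨h1, h2, h3⟩, h4⟩
            refine ⟨h3, fun h5 => h4 ⟨h1, h2, h5⟩⟩
          · rintro ⟨h1, h2⟩
            have h3 : x ≠ a := fun h => h2 (h ▸ ha)
            have h4 : x ≠ b := fun h => h2 (h ▸ hbW)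
            exact ⟨⟨h4, h3, h1⟩, fun h5 => h2 h5.2.2⟩
        have hT : Tpart W2 (K2 \ W2) u = Tpart W (K \ W) u := by
          rw [hdiff]
          ext c
          simp only [Tpart, mem_filter]
          constructor
          · rintro ⟨h1, x, hx, h2⟩
            exact ⟨h1, x, (mem_of_mem_erase (mem_of_mem_erase hx)), h2⟩
          · rintro ⟨h1, x, hx, h2⟩
            refine ⟨h1, x, ?_, h2⟩
            have hc := mem_sdiff.mp h1
            have hca : c ≠ a := fun h => hc.2 (h ▸ ha)
            have hcb : c ≠ b := fun h => hc.2 (h ▸ hbW)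
            have hxa : x ≠ a := by
              rintro rfl
              exact hthird c hc.1 hca hcb h2.symm
            have hxb : x ≠ b := by
              rintro rfl
              exact hthird c hc.1 hca hcb (h2.symm.trans hub)
            exact mem_erase.mpr ⟨hxb, mem_erase.mpr ⟨hxa, hx⟩⟩
        have hAP : AllPaired W K u ↔ AllPaired W2 K2 u := by
          constructor
          · intro hp x hx
            have h1 := mem_erase.mp hx
            have h2 := mem_erase.mp h1.2
            obtain ⟨c, hc, hcx, huc⟩ := hp x h2.2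
            refine ⟨c, ?_, hcx, huc⟩
            have hca : c ≠ a := by
              rintro rfl
              exact hthird x (hW h2.2) h2.1 h1.1 huc.symm
            have hcb : c ≠ b := by
              rintro rfl
              exact hthird x (hW h2.2) h2.1 h1.1 (huc.symm.trans hub)
            exact mem_erase.mpr ⟨hcb, mem_erase.mpr ⟨hca, hc⟩⟩
          · intro hp x hx
            by_cases hxa : x = a
            · subst hxa
              exact ⟨b, hbK, hba, hub⟩
            by_cases hxb : x = b
            · subst hxb
              exact ⟨a, haK, hab, hub.symm⟩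
            obtain ⟨c, hc, hcx, huc⟩ :=
              hp x (mem_erase.mpr ⟨hxb, mem_erase.mpr ⟨hxa, hx⟩⟩)
            exact ⟨c, mem_of_mem_erase (mem_of_mem_erase hc), hcx, huc⟩
        have e : ∀ χ' : ι → Bool, wsign W χ' * prI K (merge W χ χ') u =
            (sgnB (χ' a) * sgnB (χ' b) * (if χ' a ≠ χ' b then 1 else 0)) *
              (wsign W2 χ' * prI K2 (merge W2 χ χ') u) := by
          intro χ'
          rw [prI_erase_paired hu haK hbK hab hub, wsign_erase ha, wsign_erase hbW',
            prI_erase_single hno, merge_mem ha, merge_mem hbW]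
          have : prI ((K.erase a).erase b) (merge W χ χ') u = prI K2 (merge W2 χ χ') u := by
            apply prI_congr
            intro i hi
            have h1 := mem_erase.mp hi
            have h2 := mem_erase.mp h1.2
            rw [merge_erase_eq (a := a) χ χ' h2.1, merge_erase_eq (W := W.erase a) (a := b) χ χ' h1.1]
          rw [this]
          ring
        simp only [e]
        rw [avg_indep {a, b}
          (F := fun χ' : ι → Bool => sgnB (χ' a) * sgnB (χ' b) * (if χ' a ≠ χ' b then 1 else 0))
          (G := fun χ' => wsign W2 χ' * prI K2 (merge W2 χ χ') u)]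
        · rw [avg_pair_factor hab, hIH, hT, hdiff]
          by_cases hp : AllPaired W K u
          · have hp' := hAP.mp hp
            rw [if_pos hp, if_pos hp']
            have he : (W.card + (Tpart W (K \ W) u).card) / 2 =
                (W2.card + (Tpart W (K \ W) u).card) / 2 + 1 := by omega
            rw [he, pow_succ]
            ring
          · have hp' : ¬ AllPaired W2 K2 u := fun h => hp (hAP.mpr h)
            rw [if_neg hp, if_neg hp']
            ring
        · intro y y' hy
          have h1 := hy a (by simp)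
          have h2 := hy b (by simp)
          simp only [h1, h2]
        · intro y y' hy
          have h1 : wsign W2 y = wsign W2 y' := by
            unfold wsign
            apply prod_congr rfl
            intro i hi
            have h1 := mem_erase.mp hi
            have h2 := mem_erase.mp h1.2
            rw [hy i (by simp only [mem_insert, mem_singleton, not_or]; exact ⟨h2.1, h1.1⟩)]
          have h2 : merge W2 χ y = merge W2 χ y' := by
            funext i
            by_cases hi : i ∈ W2
            · rw [merge_mem hi, merge_mem hi]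
              have h1 := mem_erase.mp hi
              have h2 := mem_erase.mp h1.2
              exact hy i (by simp only [mem_insert, mem_singleton, not_or]; exact ⟨h2.1, h1.1⟩)
            · rw [merge_not_mem hi, merge_not_mem hi]
          rw [h1, h2]
      · -- the partner is outside `W`
        set W1 := W.erase a with hW1
        set K1 := K.erase a with hK1
        have hcard : W.card = W1.card + 1 := (card_erase_add_one ha).symm
        have hW1K1 : W1 ⊆ K1 := erase_subset_erase _ hW
        have hTF1 : TF K1 u := hu.mono (erase_subset _ _)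
        have hIH := ih W1.card (by omega) W1 K1 rfl hW1K1 hTF1
        have hdiff : K1 \ W1 = K \ W := by
          ext x
          simp only [hK1, hW1, mem_sdiff, mem_erase]
          constructor
          · rintro ⟨⟨h1, h2⟩, h3⟩
            exact ⟨h2, fun h4 => h3 ⟨h1, h4⟩⟩
          · rintro ⟨h1, h2⟩
            have h3 : x ≠ a := fun h => h2 (h ▸ ha)
            exact ⟨⟨h3, h1⟩, fun h4 => h2 h4.2⟩
        have hbT' : b ∉ Tpart W1 (K1 \ W1) u := by
          intro hmem
          obtain ⟨_, x, hx, hxu⟩ := mem_filter.mp hmem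
          have h1 := mem_erase.mp hx
          have : b = x := hu.unique haK hbK (hW h1.2) hab (Ne.symm h1.1) hub (hxu.trans hub)
          exact hbW (this ▸ h1.2)
        have hT : Tpart W (K \ W) u = insert b (Tpart W1 (K1 \ W1) u) := by
          rw [hdiff]
          ext c
          simp only [Tpart, mem_filter, mem_insert]
          constructor
          · rintro ⟨h1, x, hx, h2⟩
            by_cases hxa : x = a
            · subst hxa
              left
              have hc := mem_sdiff.mp h1
              have hca : x ≠ c := by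
                rintro rfl
                exact hc.2 hx
              exact (hu.unique haK hc.1 hbK hca hab h2.symm hub)
            · right
              exact ⟨h1, x, mem_erase.mpr ⟨hxa, hx⟩, h2⟩
          · rintro (rfl | ⟨h1, x, hx, h2⟩)
            · exact ⟨mem_sdiff.mpr ⟨hbK, hbW⟩, a, ha, hub.symm⟩
            · exact ⟨h1, x, mem_of_mem_erase hx, h2⟩
        have hTc : (Tpart W (K \ W) u).card = (Tpart W1 (K1 \ W1) u).card + 1 := by
          rw [hT, card_insert_of_notMem hbT']
        have hAP : AllPaired W K u ↔ AllPaired W1 K1 u := by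
          constructor
          · intro hp x hx
            have h1 := mem_erase.mp hx
            obtain ⟨c, hc, hcx, huc⟩ := hp x h1.2
            refine ⟨c, ?_, hcx, huc⟩
            refine mem_erase.mpr ⟨?_, hc⟩
            rintro rfl
            have : b = x := hu.unique haK hbK (hW h1.2) hab (Ne.symm h1.1) hub huc.symm
            exact hbW (this ▸ h1.2)
          · intro hp x hx
            by_cases hxa : x = a
            · subst hxa
              exact ⟨b, hbK, hba, hub⟩
            obtain ⟨c, hc, hcx, huc⟩ := hp x (mem_erase.mpr ⟨hxa, hx⟩)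
            exact ⟨c, mem_of_mem_erase hc, hcx, huc⟩
        have e : ∀ χ' : ι → Bool, wsign W χ' * prI K (merge W χ χ') u =
            (sgnB (χ' a) * (if χ' a ≠ χ b then 1 else 0)) *
              (wsign W1 χ' * prI K1 (merge W1 χ χ') u) := by
          intro χ'
          rw [prI_erase_paired hu haK hbK hab hub, wsign_erase ha, merge_mem ha, merge_not_mem hbW]
          have : prI (K.erase a) (merge W χ χ') u = prI K1 (merge W1 χ χ') u := by
            apply prI_congr
            intro i hi
            exact merge_erase_eq χ χ' (ne_of_mem_erase hi)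
          rw [this]
          ring
        simp only [e]
        rw [avg_indep {a}
          (F := fun χ' : ι → Bool => sgnB (χ' a) * (if χ' a ≠ χ b then 1 else 0))
          (G := fun χ' => wsign W1 χ' * prI K1 (merge W1 χ χ') u)]
        · rw [avg_single_factor, hIH, hdiff]
          have hT' := hT
          have hbT'' := hbT'
          have hTc' := hTc
          rw [hdiff] at hT' hbT'' hTc'
          have hws : wsign (Tpart W (K \ W) u) χ =
              sgnB (χ b) * wsign (Tpart W1 (K \ W) u) χ := by
            rw [hT']
            unfold wsign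
            rw [prod_insert hbT'']
          rw [hws]
          by_cases hp : AllPaired W K u
          · have hp' := hAP.mp hp
            rw [if_pos hp, if_pos hp']
            have he : (W.card + (Tpart W (K \ W) u).card) / 2 =
                (W1.card + (Tpart W1 (K \ W) u).card) / 2 + 1 := by omega
            rw [he, pow_succ]
            ring
          · have hp' : ¬ AllPaired W1 K1 u := fun h => hp (hAP.mpr h)
            rw [if_neg hp, if_neg hp']
            ring
        · intro y y' hy
          have h1 := hy a (by simp)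
          simp only [h1]
        · intro y y' hy
          have h1 : wsign W1 y = wsign W1 y' := by
            unfold wsign
            apply prod_congr rfl
            intro i hi
            rw [hy i (by simp only [mem_singleton]; exact ne_of_mem_erase hi)]
          have h2 : merge W1 χ y = merge W1 χ y' := by
            funext i
            by_cases hi : i ∈ W1
            · rw [merge_mem hi, merge_mem hi]
              exact hy i (by simp only [mem_singleton]; exact ne_of_mem_erase hi)
            · rw [merge_not_mem hi, merge_not_mem hi]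
          rw [h1, h2]
    · -- no partner: the sign averages out
      push Not at hpart
      have hno : ∀ b ∈ K, b ≠ a → u b ≠ u a := hpart
      have hAP : ¬ AllPaired W K u := by
        intro hp
        obtain ⟨c, hc, hca, huc⟩ := hp a ha
        exact hno c hc hca huc
      rw [if_neg hAP]
      have e : ∀ χ' : ι → Bool, wsign W χ' * prI K (merge W χ χ') u =
          sgnB (χ' a) * (wsign (W.erase a) χ' * prI (K.erase a) (merge (W.erase a) χ χ') u) := by
        intro χ'
        rw [prI_erase_single hno, wsign_erase ha]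
        have : prI (K.erase a) (merge W χ χ') u = prI (K.erase a) (merge (W.erase a) χ χ') u := by
          apply prI_congr
          intro i hi
          exact merge_erase_eq χ χ' (ne_of_mem_erase hi)
        rw [this]
        ring
      simp only [e]
      rw [avg_indep {a} (F := fun χ' : ι → Bool => sgnB (χ' a))
        (G := fun χ' => wsign (W.erase a) χ' * prI (K.erase a) (merge (W.erase a) χ χ') u)]
      · rw [avg_sgn, zero_mul]
      · intro y y' hy
        rw [hy a (by simp)]
      · intro y y' hy
        have h1 : wsign (W.erase a) y = wsign (W.erase a) y' := by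
          unfold wsign
          apply prod_congr rfl
          intro i hi
          rw [hy i (by simp only [mem_singleton]; exact ne_of_mem_erase hi)]
        have h2 : merge (W.erase a) χ y = merge (W.erase a) χ y' := by
          funext i
          by_cases hi : i ∈ W.erase a
          · rw [merge_mem hi, merge_mem hi]
            exact hy i (by simp only [mem_singleton]; exact ne_of_mem_erase hi)
          · rw [merge_not_mem hi, merge_not_mem hi]
        rw [h1, h2]

open Classical in
/-- C1: the Fourier coefficient of the properness indicator in the `W` colours -/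
theorem coef_formula {W K : Finset ι} (hW : W ⊆ K) (χ : ι → Bool) (u : ι → Y) (hu : TF K u) :
    (avg fun χ' : ι → Bool => wsign W χ' * prI K (merge W χ χ') u) =
      if AllPaired W K u then
        (-(1 / 2 : ℝ)) ^ ((W.card + (Tpart W (K \ W) u).card) / 2) *
          wsign (Tpart W (K \ W) u) χ * prI (K \ W) χ u
      else 0 :=
  coef_formula_aux χ u _ W K rfl hW hu

/-- C1': the pattern numbers of a valid `W` -/
lemma pattern_numbers {W K : Finset ι} (hW : W ⊆ K) (u : ι → Y) (hu : TF K u)
    (hp : AllPaired W K u) :
    ∃ t2, W.card = (Tpart W (K \ W) u).card + 2 * t2 ∧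
      ePairs K u = ePairs (K \ W) u + (Tpart W (K \ W) u).card + t2 := by
  classical
  induction' hn : W.card using Nat.strong_induction_on with n ih generalizing W K
  rcases W.eq_empty_or_nonempty with rfl | ⟨a, ha⟩
  · refine ⟨0, ?_, ?_⟩
    · simp [Tpart] at hn ⊢
      omega
    · simp [Tpart]
  have haK : a ∈ K := hW ha
  obtain ⟨b, hbK, hba, hub⟩ := hp a ha
  have hab : a ≠ b := Ne.symm hba
  by_cases hbW : b ∈ W
  · have hbW' : b ∈ W.erase a := mem_erase.mpr ⟨hba, hbW⟩
    have hbK' : b ∈ K.erase a := mem_erase.mpr ⟨hba, hbK⟩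
    set W2 := (W.erase a).erase b with hW2
    set K2 := (K.erase a).erase b with hK2
    have hcard : W.card = W2.card + 2 := by
      have h1 := card_erase_add_one ha
      have h2 : W2.card + 1 = (W.erase a).card := card_erase_add_one hbW'
      omega
    have hW2K2 : W2 ⊆ K2 := by
      intro x hx
      have h1 := mem_erase.mp hx
      have h2 := mem_erase.mp h1.2
      exact mem_erase.mpr ⟨h1.1, mem_erase.mpr ⟨h2.1, hW h2.2⟩⟩
    have hTF2 : TF K2 u := hu.mono ((erase_subset _ _).trans (erase_subset _ _))
    have hno : ∀ c ∈ K.erase a, c ≠ b → u c ≠ u b := by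
      intro c hc hcb huc
      exact hcb (hu.unique haK (mem_of_mem_erase hc) hbK (Ne.symm (ne_of_mem_erase hc)) hab
        (huc.trans hub) hub)
    have hthird : ∀ c ∈ K, c ≠ a → c ≠ b → u c ≠ u a := by
      intro c hc hca hcb huc
      exact hcb (hu.unique haK hc hbK (Ne.symm hca) hab huc hub)
    have hdiff : K2 \ W2 = K \ W := by
      ext x
      simp only [hK2, hW2, mem_sdiff, mem_erase]
      constructor
      · rintro ⟨⟨h1, h2, h3⟩, h4⟩
        refine ⟨h3, fun h5 => h4 ⟨h1, h2, h5⟩⟩
      · rintro ⟨h1, h2⟩
        have h3 : x ≠ a := fun h => h2 (h ▸ ha)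
        have h4 : x ≠ b := fun h => h2 (h ▸ hbW)
        exact ⟨⟨h4, h3, h1⟩, fun h5 => h2 h5.2.2⟩
    have hT : Tpart W2 (K2 \ W2) u = Tpart W (K \ W) u := by
      rw [hdiff]
      ext c
      simp only [Tpart, mem_filter]
      constructor
      · rintro ⟨h1, x, hx, h2⟩
        exact ⟨h1, x, (mem_of_mem_erase (mem_of_mem_erase hx)), h2⟩
      · rintro ⟨h1, x, hx, h2⟩
        refine ⟨h1, x, ?_, h2⟩
        have hc := mem_sdiff.mp h1
        have hca : c ≠ a := fun h => hc.2 (h ▸ ha)
        have hcb : c ≠ b := fun h => hc.2 (h ▸ hbW)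
        have hxa : x ≠ a := by
          rintro rfl
          exact hthird c hc.1 hca hcb h2.symm
        have hxb : x ≠ b := by
          rintro rfl
          exact hthird c hc.1 hca hcb (h2.symm.trans hub)
        exact mem_erase.mpr ⟨hxb, mem_erase.mpr ⟨hxa, hx⟩⟩
    have hAP : AllPaired W2 K2 u := by
      intro x hx
      have h1 := mem_erase.mp hx
      have h2 := mem_erase.mp h1.2
      obtain ⟨c, hc, hcx, huc⟩ := hp x h2.2
      refine ⟨c, ?_, hcx, huc⟩
      have hca : c ≠ a := by
        rintro rfl
        exact hthird x (hW h2.2) h2.1 h1.1 huc.symm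
      have hcb : c ≠ b := by
        rintro rfl
        exact hthird x (hW h2.2) h2.1 h1.1 (huc.symm.trans hub)
      exact mem_erase.mpr ⟨hcb, mem_erase.mpr ⟨hca, hc⟩⟩
    obtain ⟨t2, ht1, ht2⟩ := ih W2.card (by omega) hW2K2 hTF2 hAP rfl
    rw [hT] at ht1 ht2
    rw [hdiff] at ht2
    refine ⟨t2 + 1, by omega, ?_⟩
    have e1 := ePairs_erase_paired hu haK hbK hab hub
    have e2 := ePairs_erase_single hbK' hno
    rw [← hK2] at e2
    omega
  · set W1 := W.erase a with hW1
    set K1 := K.erase a with hK1
    have hcard : W.card = W1.card + 1 := (card_erase_add_one ha).symm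
    have hW1K1 : W1 ⊆ K1 := erase_subset_erase _ hW
    have hTF1 : TF K1 u := hu.mono (erase_subset _ _)
    have hdiff : K1 \ W1 = K \ W := by
      ext x
      simp only [hK1, hW1, mem_sdiff, mem_erase]
      constructor
      · rintro ⟨⟨h1, h2⟩, h3⟩
        exact ⟨h2, fun h4 => h3 ⟨h1, h4⟩⟩
      · rintro ⟨h1, h2⟩
        have h3 : x ≠ a := fun h => h2 (h ▸ ha)
        exact ⟨⟨h3, h1⟩, fun h4 => h2 h4.2⟩
    have hbT' : b ∉ Tpart W1 (K1 \ W1) u := by
      intro hmem
      obtain ⟨_, x, hx, hxu⟩ := mem_filter.mp hmem
      have h1 := mem_erase.mp hx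
      have : b = x := hu.unique haK hbK (hW h1.2) hab (Ne.symm h1.1) hub (hxu.trans hub)
      exact hbW (this ▸ h1.2)
    have hT : Tpart W (K \ W) u = insert b (Tpart W1 (K1 \ W1) u) := by
      rw [hdiff]
      ext c
      simp only [Tpart, mem_filter, mem_insert]
      constructor
      · rintro ⟨h1, x, hx, h2⟩
        by_cases hxa : x = a
        · subst hxa
          left
          have hc := mem_sdiff.mp h1
          have hca : x ≠ c := by
            rintro rfl
            exact hc.2 hx
          exact (hu.unique haK hc.1 hbK hca hab h2.symm hub)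
        · right
          exact ⟨h1, x, mem_erase.mpr ⟨hxa, hx⟩, h2⟩
      · rintro (rfl | ⟨h1, x, hx, h2⟩)
        · exact ⟨mem_sdiff.mpr ⟨hbK, hbW⟩, a, ha, hub.symm⟩
        · exact ⟨h1, x, mem_of_mem_erase hx, h2⟩
    have hTc : (Tpart W (K \ W) u).card = (Tpart W1 (K1 \ W1) u).card + 1 := by
      rw [hT, card_insert_of_notMem hbT']
    have hAP : AllPaired W1 K1 u := by
      intro x hx
      have h1 := mem_erase.mp hx
      obtain ⟨c, hc, hcx, huc⟩ := hp x h1.2
      refine ⟨c, ?_, hcx, huc⟩
      refine mem_erase.mpr ⟨?_, hc⟩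
      rintro rfl
      have : b = x := hu.unique haK hbK (hW h1.2) hab (Ne.symm h1.1) hub huc.symm
      exact hbW (this ▸ h1.2)
    obtain ⟨t2, ht1, ht2⟩ := ih W1.card (by omega) hW1K1 hTF1 hAP rfl
    rw [hdiff] at ht1 ht2 hTc
    refine ⟨t2, by omega, ?_⟩
    have e1 := ePairs_erase_paired hu haK hbK hab hub
    rw [← hK1] at e1
    omega

/-- the partner set lies among the singles of `K \ W` -/
lemma Tpart_subset_Sing {W K : Finset ι} (hW : W ⊆ K) (u : ι → Y) (hu : TF K u) :
    Tpart W (K \ W) u ⊆ Sing (K \ W) u := by
  classical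
  intro b hb
  obtain ⟨hb1, a, ha, hab⟩ := mem_filter.mp hb
  have hb2 := mem_sdiff.mp hb1
  refine mem_filter.mpr ⟨hb1, ?_⟩
  rw [card_eq_one]
  refine ⟨b, ?_⟩
  ext c
  simp only [mem_fibK, mem_singleton]
  constructor
  · rintro ⟨hc, huc⟩
    have hc2 := mem_sdiff.mp hc
    have h1 : a ≠ b := by
      rintro rfl
      exact hb2.2 ha
    have h2 : a ≠ c := by
      rintro rfl
      exact hc2.2 ha
    exact hu.unique (hW ha) hc2.1 hb2.1 h2 h1 (huc.trans hab.symm) hab.symm
  · rintro rfl
    exact ⟨hb1, rfl⟩

end Vale.Agent.Lib.P162.QF
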