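import Vale.Agent.Lib.P162.QF.Defs

/-!
# The core lemma: combinatorial definitions
-/

namespace Vale.Agent.Lib.P162.QF

open Vale.Agent.Lib.P162 Equiv Finset

variable {ι Y : Type*} [Fintype ι] [DecidableEq ι] [Fintype Y] [DecidableEq Y]

/-- the tokens of `K` carrying label `l` -/
def fibK (K : Finset ι) (u : ι → Y) (l : Y) : Finset ι := K.filter fun a => u a = l

/-- no three tokens of `K` have the same label -/
def TF (K : Finset ι) (u : ι → Y) : Prop := ∀ l, (fibK K u l).card ≤ 2

/-- the number of labels carried by exactly two tokens of `K` -/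
def ePairs (K : Finset ι) (u : ι → Y) : ℕ := (univ.filter fun l : Y => (fibK K u l).card = 2).card

/-- tokens of `K` alone on their label -/
def Sing (K : Finset ι) (u : ι → Y) : Finset ι := K.filter fun a => (fibK K u (u a)).card = 1

/-- tokens of `S` sharing their label with a token of `W` -/
def Tpart (W S : Finset ι) (u : ι → Y) : Finset ι := S.filter fun b => ∃ a ∈ W, u a = u b

/-- each token of `W` has a partner in `K` -/
def AllPaired (W K : Finset ι) (u : ι → Y) : Prop := ∀ a ∈ W, ∃ b ∈ K, b ≠ a ∧ u b = u a

/-- the configuration of `W`-tokens with partner set `T` in `K \ W` -/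
def Cfg (W K T : Finset ι) (u : ι → Y) : Prop :=
  TF K u ∧ AllPaired W K u ∧ Tpart W (K \ W) u = T

end Vale.Agent.Lib.P162.QF
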