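import Vale.Agent.Lib.P162.QF.CoreDefs

/-!
# The core lemma: density of the configurations and number of valid `W` (part C3)
-/

namespace Vale.Agent.Lib.P162.QF

open Vale.Agent.Lib.P162 Equiv Finset

set_option linter.unusedSectionVars false
set_option linter.unusedSimpArgs false
set_option linter.unusedVariables false

variable {ι Y : Type*} [Fintype ι] [DecidableEq ι] [Fintype Y] [DecidableEq Y]

/-- three tokens with equal labels are impossible -/
lemma TF.no_triple {K : Finset ι} {v : ι → Y} (h : TF K v) {a b c : ι} (ha : a ∈ K) (hb : b ∈ K)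
    (hc : c ∈ K) (hab : a ≠ b) (hac : a ≠ c) (hbc : b ≠ c) (h1 : v b = v a) (h2 : v c = v a) : False := by
  have h3 : ({a, b, c} : Finset ι) ⊆ fibK K v (v a) := by
    intro x hx
    simp only [mem_insert, mem_singleton] at hx
    unfold fibK
    rcases hx with rfl | rfl | rfl
    · exact mem_filter.mpr ⟨ha, rfl⟩
    · exact mem_filter.mpr ⟨hb, h1⟩
    · exact mem_filter.mpr ⟨hc, h2⟩
  have h4 := card_le_card h3
  have h5 := h (v a)
  rw [card_eq_three.mpr ⟨a, b, c, hab, hac, hbc, rfl⟩] at h4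
  omega

lemma TF.monoC {K K' : Finset ι} {v : ι → Y} (h : TF K v) (hs : K' ⊆ K) : TF K' v := by
  intro l
  refine le_trans (card_le_card ?_) (h l)
  unfold fibK
  exact filter_subset_filter _ hs

lemma TF.Tpart_card_le {W K : Finset ι} {v : ι → Y} (h : TF K v) (hW : W ⊆ K) (S : Finset ι)
    (hS : S ⊆ K) (hd : Disjoint W S) : (Tpart W S v).card ≤ W.card := by
  refine le_trans ?_ (card_image_le (s := W) (f := v))
  refine card_le_card_of_injOn v ?_ ?_
  · intro d hd'
    obtain ⟨_, c, hc, hcd⟩ := mem_filter.mp (mem_coe.mp hd')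
    exact mem_coe.mpr (mem_image.mpr ⟨c, hc, hcd⟩)
  · intro d hd' d' hd'' hv
    by_contra hne
    obtain ⟨hdS, c, hc, hcd⟩ := mem_filter.mp (mem_coe.mp hd')
    obtain ⟨hdS', _, _, _⟩ := mem_filter.mp (mem_coe.mp hd'')
    have hcd1 : c ≠ d := fun e => (disjoint_left.mp hd hc) (e ▸ hdS)
    have hcd2 : c ≠ d' := fun e => (disjoint_left.mp hd hc) (e ▸ hdS')
    exact h.no_triple (hW hc) (hS hdS) (hS hdS') hcd1 hcd2 hne hcd.symm (by rw [← hv]; exact hcd.symm)

/-- removal of a pair with one token in `W` -/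
lemma Cfg_step1 {W K T : Finset ι} {v : ι → Y} (hW : W ⊆ K) (h : Cfg W K T v) {a b : ι} (ha : a ∈ W)
    (hb : b ∈ K) (hbW : b ∉ W) (hv : v b = v a) :
    b ∈ T ∧ Cfg (W.erase a) ((K.erase a).erase b) (T.erase b) v := by
  obtain ⟨h1, h2, h3⟩ := h
  have hab : a ≠ b := fun e => hbW (e ▸ ha)
  have haK := hW ha
  have hbT : b ∈ T := by
    rw [← h3]
    exact mem_filter.mpr ⟨mem_sdiff.mpr ⟨hb, hbW⟩, a, ha, hv.symm⟩
  refine ⟨hbT, h1.monoC (fun x hx => mem_of_mem_erase (mem_of_mem_erase hx)), ?_, ?_⟩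
  · intro c hc
    obtain ⟨hca, hcW⟩ := mem_erase.mp hc
    have hcb : c ≠ b := fun e => hbW (e ▸ hcW)
    obtain ⟨d, hdK, hdc, hdv⟩ := h2 c hcW
    have hda : d ≠ a := by
      intro e
      have hvc : v c = v a := by rw [← hdv, e]
      exact h1.no_triple haK hb (hW hcW) hab (Ne.symm hca) (Ne.symm hcb) hv hvc
    have hdb : d ≠ b := by
      intro e
      have hvc : v c = v a := by rw [← hdv, e, hv]
      exact h1.no_triple haK hb (hW hcW) hab (Ne.symm hca) (Ne.symm hcb) hv hvc
    exact ⟨d, mem_erase.mpr ⟨hdb, mem_erase.mpr ⟨hda, hdK⟩⟩, hdc, hdv⟩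
  · rw [← h3]
    ext d
    simp only [Tpart, mem_filter, mem_sdiff, mem_erase, not_and, ne_eq]
    constructor
    · rintro ⟨⟨⟨hdb, hda, hdK⟩, hdW⟩, c, ⟨hca, hcW⟩, hcd⟩
      have hdW' : d ∉ W := fun hh => hdW hda hh
      exact ⟨hdb, ⟨hdK, hdW'⟩, c, hcW, hcd⟩
    · rintro ⟨hdb, ⟨hdK, hdW⟩, c, hcW, hcd⟩
      have hda : d ≠ a := fun e => hdW (e ▸ ha)
      refine ⟨⟨⟨hdb, hda, hdK⟩, fun _ hh => hdW hh⟩, c, ⟨?_, hcW⟩, hcd⟩
      intro e
      have hva : v d = v a := by rw [← hcd, e]
      exact h1.no_triple haK hb hdK hab (Ne.symm hda) (Ne.symm hdb) hv hva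

/-- removal of a pair with both tokens in `W` -/
lemma Cfg_step2 {W K T : Finset ι} {v : ι → Y} (hW : W ⊆ K) (h : Cfg W K T v) {a b : ι} (ha : a ∈ W)
    (hb : b ∈ W) (hab : a ≠ b) (hv : v b = v a) :
    Cfg ((W.erase a).erase b) ((K.erase a).erase b) T v := by
  obtain ⟨h1, h2, h3⟩ := h
  have haK := hW ha
  have hbK := hW hb
  refine ⟨h1.monoC (fun x hx => mem_of_mem_erase (mem_of_mem_erase hx)), ?_, ?_⟩
  · intro c hc
    obtain ⟨hcb, hc'⟩ := mem_erase.mp hc
    obtain ⟨hca, hcW⟩ := mem_erase.mp hc'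
    obtain ⟨d, hdK, hdc, hdv⟩ := h2 c hcW
    have hda : d ≠ a := by
      intro e
      have hvc : v c = v a := by rw [← hdv, e]
      exact h1.no_triple haK hbK (hW hcW) hab (Ne.symm hca) (Ne.symm hcb) hv hvc
    have hdb : d ≠ b := by
      intro e
      have hvc : v c = v a := by rw [← hdv, e, hv]
      exact h1.no_triple haK hbK (hW hcW) hab (Ne.symm hca) (Ne.symm hcb) hv hvc
    exact ⟨d, mem_erase.mpr ⟨hdb, mem_erase.mpr ⟨hda, hdK⟩⟩, hdc, hdv⟩
  · rw [← h3]
    ext d
    simp only [Tpart, mem_filter, mem_sdiff, mem_erase, not_and, ne_eq]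
    constructor
    · rintro ⟨⟨⟨hdb, hda, hdK⟩, hdW⟩, c, ⟨hcb, hca, hcW⟩, hcd⟩
      exact ⟨⟨hdK, fun hh => hdW hdb hda hh⟩, c, hcW, hcd⟩
    · rintro ⟨⟨hdK, hdW⟩, c, hcW, hcd⟩
      have hda : d ≠ a := fun e => hdW (e ▸ ha)
      have hdb : d ≠ b := fun e => hdW (e ▸ hb)
      refine ⟨⟨⟨hdb, hda, hdK⟩, fun _ _ hh => hdW hh⟩, c, ⟨?_, ?_, hcW⟩, hcd⟩
      · intro e
        have hva : v d = v a := by rw [← hcd, e, hv]
        exact h1.no_triple haK hbK hdK hab (Ne.symm hda) (Ne.symm hdb) hv hva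
      · intro e
        have hva : v d = v a := by rw [← hcd, e]
        exact h1.no_triple haK hbK hdK hab (Ne.symm hda) (Ne.symm hdb) hv hva

/-- removal of a pair with no token in `W` -/
lemma Cfg_step0 {W K T : Finset ι} {v : ι → Y} (hW : W ⊆ K) (h : Cfg W K T v) {a b : ι} (ha : a ∈ K)
    (hb : b ∈ K) (haW : a ∉ W) (hbW : b ∉ W) (hab : a ≠ b) (hv : v b = v a) :
    Cfg W ((K.erase a).erase b) T v := by
  obtain ⟨h1, h2, h3⟩ := h
  refine ⟨h1.monoC (fun x hx => mem_of_mem_erase (mem_of_mem_erase hx)), ?_, ?_⟩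
  · intro c hcW
    have hca : c ≠ a := fun e => haW (e ▸ hcW)
    have hcb : c ≠ b := fun e => hbW (e ▸ hcW)
    obtain ⟨d, hdK, hdc, hdv⟩ := h2 c hcW
    have hda : d ≠ a := by
      intro e
      have hvc : v c = v a := by rw [← hdv, e]
      exact h1.no_triple ha hb (hW hcW) hab (Ne.symm hca) (Ne.symm hcb) hv hvc
    have hdb : d ≠ b := by
      intro e
      have hvc : v c = v a := by rw [← hdv, e, hv]
      exact h1.no_triple ha hb (hW hcW) hab (Ne.symm hca) (Ne.symm hcb) hv hvc
    exact ⟨d, mem_erase.mpr ⟨hdb, mem_erase.mpr ⟨hda, hdK⟩⟩, hdc, hdv⟩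
  · rw [← h3]
    ext d
    simp only [Tpart, mem_filter, mem_sdiff, mem_erase, not_and, ne_eq]
    constructor
    · rintro ⟨⟨⟨hdb, hda, hdK⟩, hdW⟩, c, hcW, hcd⟩
      exact ⟨⟨hdK, hdW⟩, c, hcW, hcd⟩
    · rintro ⟨⟨hdK, hdW⟩, c, hcW, hcd⟩
      refine ⟨⟨⟨?_, ?_, hdK⟩, hdW⟩, c, hcW, hcd⟩
      · intro e
        have hca : c ≠ a := fun e => haW (e ▸ hcW)
        have hcb : c ≠ b := fun e => hbW (e ▸ hcW)
        have hvc : v c = v a := by rw [hcd, e, hv]
        exact h1.no_triple ha hb (hW hcW) hab (Ne.symm hca) (Ne.symm hcb) hv hvc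
      · intro e
        have hca : c ≠ a := fun e => haW (e ▸ hcW)
        have hcb : c ≠ b := fun e => hbW (e ▸ hcW)
        have hvc : v c = v a := by rw [hcd, e]
        exact h1.no_triple ha hb (hW hcW) hab (Ne.symm hca) (Ne.symm hcb) hv hvc

lemma AllPaired_congr {W K : Finset ι} {v v' : ι → Y} (hW : W ⊆ K) (h : ∀ c ∈ K, v c = v' c) :
    AllPaired W K v ↔ AllPaired W K v' := by
  constructor
  · intro hp a ha
    obtain ⟨b, hb, hba, hv⟩ := hp a ha
    exact ⟨b, hb, hba, by rw [← h b hb, ← h a (hW ha)]; exact hv⟩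
  · intro hp a ha
    obtain ⟨b, hb, hba, hv⟩ := hp a ha
    exact ⟨b, hb, hba, by rw [h b hb, h a (hW ha)]; exact hv⟩

lemma TF_congr' {K : Finset ι} {v v' : ι → Y} (h : ∀ c ∈ K, v c = v' c) : TF K v ↔ TF K v' := by
  have e : ∀ l, fibK K v l = fibK K v' l := by
    intro l
    unfold fibK
    refine filter_congr fun a ha => ?_
    rw [h a ha]
  unfold TF
  simp only [e]

lemma Tpart_congr {W S K : Finset ι} {v v' : ι → Y} (hW : W ⊆ K) (hS : S ⊆ K)
    (h : ∀ c ∈ K, v c = v' c) : Tpart W S v = Tpart W S v' := by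
  unfold Tpart
  refine filter_congr fun d hd => ?_
  constructor
  · rintro ⟨a, ha, hv⟩
    exact ⟨a, ha, by rw [← h a (hW ha), ← h d (hS hd)]; exact hv⟩
  · rintro ⟨a, ha, hv⟩
    exact ⟨a, ha, by rw [h a (hW ha), h d (hS hd)]; exact hv⟩

lemma Cfg_congr {W K T : Finset ι} {v v' : ι → Y} (hW : W ⊆ K) (h : ∀ c ∈ K, v c = v' c) :
    Cfg W K T v ↔ Cfg W K T v' := by
  unfold Cfg
  rw [TF_congr' h, AllPaired_congr hW h, Tpart_congr hW sdiff_subset h]

section density

variable [Nonempty Y]

open Classical in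
/-- the density of the configurations -/
noncomputable def dens (W K T : Finset ι) (u : ι → Y) : ℝ :=
  avg fun u' : ι → Y => if Cfg W K T (merge W u u') then (1 : ℝ) else 0

lemma dens_nonneg (W K T : Finset ι) (u : ι → Y) : 0 ≤ dens W K T u := by
  classical
  unfold dens
  refine avg_nonneg fun u' => ?_
  split_ifs <;> norm_num

lemma dens_le_one (W K T : Finset ι) (u : ι → Y) : dens W K T u ≤ 1 := by
  classical
  unfold dens
  refine avg_le_of_le fun u' => ?_
  split_ifs <;> norm_num

lemma cnt_merge_erase_eq {W K : Finset ι} {a b : ι} (u u' : ι → Y) :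
    ∀ c ∈ (K.erase a).erase b, merge W u u' c = merge (W.erase a) u u' c := by
  intro c hc
  have hca : c ≠ a := (mem_erase.mp (mem_erase.mp hc).2).1
  by_cases h : c ∈ W
  · rw [merge_mem h, merge_mem (mem_erase.mpr ⟨hca, h⟩)]
  · rw [merge_not_mem h, merge_not_mem (fun h' => h (mem_of_mem_erase h'))]

lemma cnt_merge_erase_eq2 {W K : Finset ι} {a b : ι} (u u' : ι → Y) :
    ∀ c ∈ (K.erase a).erase b, merge W u u' c = merge ((W.erase a).erase b) u u' c := by
  intro c hc
  have hcb : c ≠ b := (mem_erase.mp hc).1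
  have hca : c ≠ a := (mem_erase.mp (mem_erase.mp hc).2).1
  by_cases h : c ∈ W
  · rw [merge_mem h, merge_mem (mem_erase.mpr ⟨hcb, mem_erase.mpr ⟨hca, h⟩⟩)]
  · rw [merge_not_mem h, merge_not_mem (fun h' => h (mem_of_mem_erase (mem_of_mem_erase h')))]

open Classical in
/-- the union bound over the partner of `a` -/
lemma indicator_le {W K T : Finset ι} (hW : W ⊆ K) {a : ι} (ha : a ∈ W) (u u' : ι → Y) :
    (if Cfg W K T (merge W u u') then (1 : ℝ) else 0) ≤
      ∑ b ∈ T, (if u' a = u b then (1 : ℝ) else 0) *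
        (if Cfg (W.erase a) ((K.erase a).erase b) (T.erase b) (merge (W.erase a) u u') then (1 : ℝ) else 0) +
      ∑ b ∈ W.erase a, (if u' a = u' b then (1 : ℝ) else 0) *
        (if Cfg ((W.erase a).erase b) ((K.erase a).erase b) T (merge ((W.erase a).erase b) u u')
          then (1 : ℝ) else 0) := by
  have hnn1 : ∀ b ∈ T, 0 ≤ (if u' a = u b then (1 : ℝ) else 0) *
      (if Cfg (W.erase a) ((K.erase a).erase b) (T.erase b) (merge (W.erase a) u u') then (1 : ℝ) else 0) := by
    intro b _
    split_ifs <;> norm_num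
  have hnn2 : ∀ b ∈ W.erase a, 0 ≤ (if u' a = u' b then (1 : ℝ) else 0) *
      (if Cfg ((W.erase a).erase b) ((K.erase a).erase b) T (merge ((W.erase a).erase b) u u')
        then (1 : ℝ) else 0) := by
    intro b _
    split_ifs <;> norm_num
  have h1 := sum_nonneg hnn1
  have h2 := sum_nonneg hnn2
  split_ifs with hC
  · obtain ⟨b, hb, hba, hv⟩ := hC.2.1 a ha
    have hva : merge W u u' a = u' a := merge_mem ha
    by_cases hbW : b ∈ W
    · have hS := Cfg_step2 hW hC ha hbW (Ne.symm hba) hv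
      have hsub : (W.erase a).erase b ⊆ (K.erase a).erase b := by
        intro x hx
        obtain ⟨h3, h4⟩ := mem_erase.mp hx
        obtain ⟨h5, h6⟩ := mem_erase.mp h4
        exact mem_erase.mpr ⟨h3, mem_erase.mpr ⟨h5, hW h6⟩⟩
      have hS' := (Cfg_congr hsub (cnt_merge_erase_eq2 u u')).mp hS
      have hvb : merge W u u' b = u' b := merge_mem hbW
      have hmem : b ∈ W.erase a := mem_erase.mpr ⟨hba, hbW⟩
      have h3 := single_le_sum hnn2 hmem
      rw [if_pos hS', if_pos (by rw [← hva, ← hv, hvb]), one_mul] at h3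
      linarith
    · obtain ⟨hbT, hS⟩ := Cfg_step1 hW hC ha hb hbW hv
      have hsub : W.erase a ⊆ (K.erase a).erase b := by
        intro x hx
        obtain ⟨h5, h6⟩ := mem_erase.mp hx
        exact mem_erase.mpr ⟨fun e => hbW (e ▸ h6), mem_erase.mpr ⟨h5, hW h6⟩⟩
      have hS' := (Cfg_congr hsub (cnt_merge_erase_eq u u')).mp hS
      have hvb : merge W u u' b = u b := merge_not_mem hbW
      have h3 := single_le_sum hnn1 hbT
      rw [if_pos hS', if_pos (by rw [← hva, ← hv, hvb]), one_mul] at h3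
      linarith
  · linarith

open Classical in
lemma avg_eq_const_mul {a : ι} {y : Y} {G : (ι → Y) → ℝ}
    (hG : ∀ u₁ u₂ : ι → Y, (∀ i, i ≠ a → u₁ i = u₂ i) → G u₁ = G u₂) :
    (avg fun u' : ι → Y => (if u' a = y then (1 : ℝ) else 0) * G u') =
      (Fintype.card Y : ℝ)⁻¹ * avg G := by
  have h := avg_indep (Y := Y) ({a} : Finset ι) (F := fun u' => if u' a = y then (1 : ℝ) else 0) (G := G)
    (by
      intro y₁ y₂ h
      simp only [h a (mem_singleton_self a)])
    (by
      intro y₁ y₂ h
      exact hG _ _ fun i hi => h i (by simpa using hi))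
  rw [h]
  congr 1
  have h2 := avg_hit (Y := Y) ({a} : Finset ι) (fun _ => y)
  simp only [mem_singleton, forall_eq, card_singleton, pow_one] at h2
  exact h2

open Classical in
lemma avg_eq_pair {a b : ι} (hab : a ≠ b) {G : (ι → Y) → ℝ}
    (hG : ∀ u₁ u₂ : ι → Y, (∀ i, i ≠ a → i ≠ b → u₁ i = u₂ i) → G u₁ = G u₂) :
    (avg fun u' : ι → Y => (if u' a = u' b then (1 : ℝ) else 0) * G u') =
      (Fintype.card Y : ℝ)⁻¹ * avg G := by
  have h := avg_indep (Y := Y) ({a, b} : Finset ι) (F := fun u' => if u' a = u' b then (1 : ℝ) else 0)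
    (G := G)
    (by
      intro y₁ y₂ h
      simp only [h a (by simp), h b (by simp)])
    (by
      intro y₁ y₂ h
      refine hG _ _ fun i hi1 hi2 => h i ?_
      simp [hi1, hi2])
  rw [h]
  congr 1
  rw [← avg_merge ({a} : Finset ι)]
  have h3 : ∀ y : ι → Y, (avg fun z : ι → Y =>
      if merge ({a} : Finset ι) y z a = merge ({a} : Finset ι) y z b then (1 : ℝ) else 0) =
      (Fintype.card Y : ℝ)⁻¹ := by
    intro y
    have h2 := avg_hit (Y := Y) ({a} : Finset ι) (fun _ => y b)
    simp only [mem_singleton, forall_eq, card_singleton, pow_one] at h2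
    rw [← h2]
    refine avg_congr fun z => ?_
    rw [merge_mem (mem_singleton_self a), merge_not_mem (by simpa using Ne.symm hab)]
  simp only [h3, avg_const]

open Classical in
/-- the recursive inequality for the density -/
lemma dens_rec {W K T : Finset ι} (hW : W ⊆ K) {a : ι} (ha : a ∈ W) (u : ι → Y) :
    dens W K T u ≤
      ∑ b ∈ T, (Fintype.card Y : ℝ)⁻¹ * dens (W.erase a) ((K.erase a).erase b) (T.erase b) u +
      ∑ b ∈ W.erase a, (Fintype.card Y : ℝ)⁻¹ * dens ((W.erase a).erase b) ((K.erase a).erase b) T u := by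
  have h1 : dens W K T u ≤ avg fun u' : ι → Y =>
      ∑ b ∈ T, (if u' a = u b then (1 : ℝ) else 0) *
        (if Cfg (W.erase a) ((K.erase a).erase b) (T.erase b) (merge (W.erase a) u u') then (1 : ℝ) else 0) +
      ∑ b ∈ W.erase a, (if u' a = u' b then (1 : ℝ) else 0) *
        (if Cfg ((W.erase a).erase b) ((K.erase a).erase b) T (merge ((W.erase a).erase b) u u')
          then (1 : ℝ) else 0) :=
    avg_mono fun u' => indicator_le hW ha u u'
  refine h1.trans (le_of_eq ?_)
  rw [avg_add, avg_sum, avg_sum]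
  congr 1
  · refine sum_congr rfl fun b _ => ?_
    refine avg_eq_const_mul fun u₁ u₂ h => ?_
    have : merge (W.erase a) u u₁ = merge (W.erase a) u u₂ := by
      funext i
      by_cases hi : i ∈ W.erase a
      · rw [merge_mem hi, merge_mem hi]
        exact h i (mem_erase.mp hi).1
      · rw [merge_not_mem hi, merge_not_mem hi]
    rw [this]
  · refine sum_congr rfl fun b hb => ?_
    refine avg_eq_pair (Ne.symm (mem_erase.mp hb).1) fun u₁ u₂ h => ?_
    have : merge ((W.erase a).erase b) u u₁ = merge ((W.erase a).erase b) u u₂ := by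
      funext i
      by_cases hi : i ∈ (W.erase a).erase b
      · rw [merge_mem hi, merge_mem hi]
        exact h i (mem_erase.mp (mem_erase.mp hi).2).1 (mem_erase.mp hi).1
      · rw [merge_not_mem hi, merge_not_mem hi]
    rw [this]

/-- if the number of partners exceeds the size of `W` there is no configuration -/
lemma dens_zero_of_card {W K T : Finset ι} (hW : W ⊆ K) (h : W.card < T.card) (u : ι → Y) :
    dens W K T u = 0 := by
  classical
  unfold dens
  have : ∀ u' : ι → Y, ¬ Cfg W K T (merge W u u') := by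
    rintro u' ⟨h1, _, h3⟩
    have := h1.Tpart_card_le hW (K \ W) sdiff_subset disjoint_sdiff
    rw [h3] at this
    omega
  simp only [if_neg (this _), avg_const]

lemma Nfib_nonneg' (t1 t2 : ℕ) : 0 ≤ Nfib t1 t2 := by
  unfold Nfib; positivity

theorem fib_density_aux (u : ι → Y) (n : ℕ) : ∀ (W K T : Finset ι) (t1 t2 : ℕ), W.card = n → W ⊆ K →
    T.card = t1 → W.card = t1 + 2 * t2 →
    dens W K T u ≤ Nfib t1 t2 * (((Fintype.card Y : ℝ)) ^ (t1 + t2))⁻¹ := by
  classical
  induction n using Nat.strong_induction_on with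
  | _ n ih =>
  intro W K T t1 t2 hn hW h1 h2
  have hm : (0 : ℝ) < (Fintype.card Y : ℝ) := by exact_mod_cast Fintype.card_pos
  have hN0 := Nfib_nonneg' t1 t2
  by_cases hT : T ⊆ K \ W
  swap
  · have : dens W K T u = 0 := by
      unfold dens
      have : ∀ u' : ι → Y, ¬ Cfg W K T (merge W u u') := by
        rintro u' ⟨_, _, h3⟩
        apply hT
        rw [← h3]
        exact filter_subset _ _
      simp only [if_neg (this _), avg_const]
    rw [this]
    positivity
  rcases W.eq_empty_or_nonempty with rfl | ⟨a, ha⟩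
  · have h3 : t1 = 0 := by simp at h2; omega
    have h4 : t2 = 0 := by simp at h2; omega
    subst h3 h4
    have : Nfib 0 0 = 1 := by simp [Nfib]
    rw [this]
    simpa using dens_le_one _ _ _ _
  · have hr := dens_rec (T := T) hW ha u
    refine hr.trans ?_
    set r := t1 + 2 * t2 with hrdef
    have hr1 : 1 ≤ r := by
      have := card_pos.mpr ⟨a, ha⟩
      omega
    set M : ℝ := ((Fintype.card Y : ℝ) ^ (t1 + t2))⁻¹ with hM
    have hM0 : 0 ≤ M := by positivity
    set A : ℝ := ((r - 1).factorial : ℝ) / (2 ^ t2 * (t2.factorial : ℝ)) with hA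
    have hA0 : 0 ≤ A := by positivity
    have hcardE : (W.erase a).card = r - 1 := by
      rw [card_erase_of_mem ha, h2]
    -- the first sum
    have hfirst : ∑ b ∈ T, (Fintype.card Y : ℝ)⁻¹ *
        dens (W.erase a) ((K.erase a).erase b) (T.erase b) u ≤ (t1 : ℝ) * (A * M) := by
      rcases Nat.eq_zero_or_pos t1 with h0 | hpos
      · have : T = ∅ := by rw [← card_eq_zero, h1, h0]
        rw [this, h0]
        simp
      · obtain ⟨p, hp⟩ : ∃ p, t1 = p + 1 := ⟨t1 - 1, by omega⟩
        have hb : ∀ b ∈ T, (Fintype.card Y : ℝ)⁻¹ *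
            dens (W.erase a) ((K.erase a).erase b) (T.erase b) u ≤ A * M := by
          intro b hbT
          obtain ⟨hbK, hbW⟩ := mem_sdiff.mp (hT hbT)
          have hsub : W.erase a ⊆ (K.erase a).erase b := by
            intro x hx
            obtain ⟨h5, h6⟩ := mem_erase.mp hx
            exact mem_erase.mpr ⟨fun e => hbW (e ▸ h6), mem_erase.mpr ⟨h5, hW h6⟩⟩
          have hle := ih (r - 1) (by omega) _ _ _ p t2 hcardE hsub
            (by rw [card_erase_of_mem hbT, h1, hp]; rfl) (by rw [hcardE]; omega)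
          have hinv : (0 : ℝ) ≤ (Fintype.card Y : ℝ)⁻¹ := by positivity
          refine (mul_le_mul_of_nonneg_left hle hinv).trans (le_of_eq ?_)
          have e1 : r - 1 = p + 2 * t2 := by omega
          have e2 : t1 + t2 = (p + t2) + 1 := by omega
          rw [hM, hA, e1, e2, pow_succ]
          unfold Nfib
          have hne : (Fintype.card Y : ℝ) ≠ 0 := hm.ne'
          have hne2 : (Fintype.card Y : ℝ) ^ (p + t2) ≠ 0 := pow_ne_zero _ hne
          have hne3 : ((t2.factorial : ℕ) : ℝ) ≠ 0 := by positivity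
          field_simp
        refine (sum_le_sum hb).trans (le_of_eq ?_)
        rw [sum_const, nsmul_eq_mul, h1]
    -- the second sum
    have hsecond : ∑ b ∈ W.erase a, (Fintype.card Y : ℝ)⁻¹ *
        dens ((W.erase a).erase b) ((K.erase a).erase b) T u ≤ (2 * (t2 : ℝ)) * (A * M) := by
      rcases Nat.eq_zero_or_pos t2 with h0 | hpos
      · have hz : ∀ b ∈ W.erase a, (Fintype.card Y : ℝ)⁻¹ *
            dens ((W.erase a).erase b) ((K.erase a).erase b) T u = 0 := by
          intro b hb
          have hsub : (W.erase a).erase b ⊆ (K.erase a).erase b := by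
            intro x hx
            obtain ⟨h3, h4⟩ := mem_erase.mp hx
            obtain ⟨h5, h6⟩ := mem_erase.mp h4
            exact mem_erase.mpr ⟨h3, mem_erase.mpr ⟨h5, hW h6⟩⟩
          have hcard : ((W.erase a).erase b).card = r - 2 := by
            rw [card_erase_of_mem hb, hcardE]
            omega
          have hpos2 : 1 ≤ (W.erase a).card := card_pos.mpr ⟨b, hb⟩
          rw [dens_zero_of_card hsub (by rw [hcard, h1]; omega), mul_zero]
        rw [sum_eq_zero hz, h0]
        simp
      · obtain ⟨q, hq⟩ : ∃ q, t2 = q + 1 := ⟨t2 - 1, by omega⟩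
        have hb : ∀ b ∈ W.erase a, (Fintype.card Y : ℝ)⁻¹ *
            dens ((W.erase a).erase b) ((K.erase a).erase b) T u ≤ Nfib t1 q * M := by
          intro b hb
          have hsub : (W.erase a).erase b ⊆ (K.erase a).erase b := by
            intro x hx
            obtain ⟨h3, h4⟩ := mem_erase.mp hx
            obtain ⟨h5, h6⟩ := mem_erase.mp h4
            exact mem_erase.mpr ⟨h3, mem_erase.mpr ⟨h5, hW h6⟩⟩
          have hcard : ((W.erase a).erase b).card = r - 2 := by
            rw [card_erase_of_mem hb, hcardE]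
            omega
          have hle := ih (r - 2) (by omega) _ _ _ t1 q hcard hsub h1 (by rw [hcard]; omega)
          have hinv : (0 : ℝ) ≤ (Fintype.card Y : ℝ)⁻¹ := by positivity
          refine (mul_le_mul_of_nonneg_left hle hinv).trans (le_of_eq ?_)
          have e2 : t1 + t2 = (t1 + q) + 1 := by omega
          rw [hM, e2, pow_succ]
          have hne : (Fintype.card Y : ℝ) ≠ 0 := hm.ne'
          have hne2 : (Fintype.card Y : ℝ) ^ (t1 + q) ≠ 0 := pow_ne_zero _ hne
          field_simp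
        refine (sum_le_sum hb).trans (le_of_eq ?_)
        rw [sum_const, nsmul_eq_mul, hcardE]
        have e1 : r - 1 = (t1 + 2 * q) + 1 := by omega
        rw [hA, e1, Nat.factorial_succ]
        unfold Nfib
        rw [hq, Nat.factorial_succ q]
        push_cast
        have hne3 : ((q.factorial : ℕ) : ℝ) ≠ 0 := by positivity
        have hne4 : ((q : ℝ) + 1) ≠ 0 := by positivity
        rw [pow_succ]
        field_simp
    have htot : Nfib t1 t2 * M = (t1 : ℝ) * (A * M) + (2 * (t2 : ℝ)) * (A * M) := by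
      have e0 : Nfib t1 t2 = (r : ℝ) * A := by
        unfold Nfib
        rw [hA, ← hrdef]
        obtain ⟨r', hr'⟩ : ∃ r', r = r' + 1 := ⟨r - 1, by omega⟩
        rw [hr', Nat.add_sub_cancel, Nat.factorial_succ]
        push_cast
        ring
      rw [e0, hrdef]
      push_cast
      ring
    rw [htot]
    exact add_le_add hfirst hsecond

open Classical in
/-- C4: the density of the configurations -/
theorem fib_density {W K T : Finset ι} (hW : W ⊆ K) (u : ι → Y) (t1 t2 : ℕ) (h1 : T.card = t1)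
    (h2 : W.card = t1 + 2 * t2) :
    (avg fun u' : ι → Y => if Cfg W K T (merge W u u') then (1 : ℝ) else 0) ≤
      Nfib t1 t2 * (((Fintype.card Y : ℝ)) ^ (t1 + t2))⁻¹ :=
  fib_density_aux u _ W K T t1 t2 rfl hW h1 h2

end density

section count

open Classical in
/-- the valid `W` with pattern numbers `t1, t2` -/
noncomputable def WS (K : Finset ι) (u : ι → Y) (t1 t2 : ℕ) : Finset (Finset ι) :=
  K.powerset.filter fun W => AllPaired W K u ∧ (Tpart W (K \ W) u).card = t1 ∧ W.card = t1 + 2 * t2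

/-- the trinomial coefficient -/
def tri (e t1 t2 : ℕ) : ℕ := e.choose t2 * (e - t2).choose t1

lemma tri_succ_zero_zero (e : ℕ) : tri (e + 1) 0 0 = tri e 0 0 := by
  simp [tri]

lemma tri_succ_succ_zero (e p : ℕ) : tri (e + 1) (p + 1) 0 = tri e (p + 1) 0 + tri e p 0 := by
  simp only [tri, Nat.choose_zero_right, one_mul, Nat.sub_zero]
  rw [Nat.choose_succ_succ']
  ring

lemma tri_succ_zero_succ (e q : ℕ) : tri (e + 1) 0 (q + 1) = tri e 0 (q + 1) + tri e 0 q := by
  simp only [tri, Nat.choose_zero_right, mul_one]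
  rw [Nat.choose_succ_succ']
  ring

lemma tri_succ_succ_succ (e p q : ℕ) :
    tri (e + 1) (p + 1) (q + 1) = tri e (p + 1) (q + 1) + tri e p (q + 1) + tri e (p + 1) q := by
  unfold tri
  rw [Nat.choose_succ_succ' e q]
  have e1 : e + 1 - (q + 1) = e - q := by omega
  rw [e1]
  rcases Nat.lt_or_ge q e with h | h
  · obtain ⟨f, hf⟩ : ∃ f, e - q = f + 1 := ⟨e - q - 1, by omega⟩
    have e2 : e - (q + 1) = f := by omega
    rw [hf, e2, Nat.choose_succ_succ' f p]
    ring
  · have e3 : e.choose (q + 1) = 0 := Nat.choose_eq_zero_of_lt (by omega)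
    rw [e3]
    ring

/-- the weighted count -/
def cnt (e t1 t2 : ℕ) : ℕ := tri e t1 t2 * 2 ^ t1

lemma WS_cfg {K : Finset ι} {u : ι → Y} {t1 t2 : ℕ} (hu : TF K u) {W : Finset ι}
    (hW : W ∈ WS K u t1 t2) : W ⊆ K ∧ Cfg W K (Tpart W (K \ W) u) u ∧
      (Tpart W (K \ W) u).card = t1 ∧ W.card = t1 + 2 * t2 := by
  classical
  obtain ⟨h1, h2, h3, h4⟩ := mem_filter.mp hW
  exact ⟨mem_powerset.mp h1, ⟨hu, h2, rfl⟩, h3, h4⟩

lemma mem_WS_of_cfg {K : Finset ι} {u : ι → Y} {t1 t2 : ℕ} {W T : Finset ι} (hW : W ⊆ K)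
    (h : Cfg W K T u) (h1 : T.card = t1) (h2 : W.card = t1 + 2 * t2) : W ∈ WS K u t1 t2 := by
  classical
  obtain ⟨_, h4, h5⟩ := h
  exact mem_filter.mpr ⟨mem_powerset.mpr hW, h4, by rw [h5, h1], h2⟩

lemma ePairs_erase {K : Finset ι} {u : ι → Y} {a b : ι} (hab : a ≠ b)
    (hf : fibK K u (u a) = {a, b}) (he : 1 ≤ ePairs K u) :
    ePairs ((K.erase a).erase b) u = ePairs K u - 1 := by
  classical
  have hb : u b = u a := by
    have : b ∈ fibK K u (u a) := by rw [hf]; simp
    exact (mem_filter.mp this).2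
  have h1 : ∀ l, l ≠ u a → fibK ((K.erase a).erase b) u l = fibK K u l := by
    intro l hl
    ext c
    simp only [fibK, mem_filter, mem_erase]
    constructor
    · rintro ⟨⟨_, _, h3⟩, h4⟩
      exact ⟨h3, h4⟩
    · rintro ⟨h3, h4⟩
      refine ⟨⟨?_, ?_, h3⟩, h4⟩
      · rintro rfl
        exact hl (by rw [← h4, hb])
      · rintro rfl
        exact hl h4.symm
  have h2 : fibK ((K.erase a).erase b) u (u a) = ∅ := by
    ext c
    simp only [fibK, mem_filter, mem_erase, notMem_empty, iff_false]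
    rintro ⟨⟨h3, h4, h5⟩, h6⟩
    have : c ∈ fibK K u (u a) := mem_filter.mpr ⟨h5, h6⟩
    rw [hf] at this
    simp only [mem_insert, mem_singleton] at this
    rcases this with rfl | rfl
    · exact h4 rfl
    · exact h3 rfl
  have hcard : (fibK K u (u a)).card = 2 := by rw [hf]; exact card_pair hab
  unfold ePairs
  have h3 : (univ.filter fun l : Y => (fibK ((K.erase a).erase b) u l).card = 2) =
      (univ.filter fun l : Y => (fibK K u l).card = 2).erase (u a) := by
    ext l
    simp only [mem_filter, mem_univ, true_and, mem_erase]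
    by_cases hl : l = u a
    · subst hl
      rw [h2]
      simp
    · rw [h1 l hl]
      simp [hl]
  have hm : u a ∈ (univ.filter fun l : Y => (fibK K u l).card = 2) := mem_filter.mpr ⟨mem_univ _, hcard⟩
  rw [h3, card_erase_of_mem hm]

theorem count_aux (u : ι → Y) (e : ℕ) : ∀ (K : Finset ι), TF K u → ePairs K u = e → ∀ t1 t2,
    (WS K u t1 t2).card ≤ cnt e t1 t2 := by
  classical
  induction e with
  | zero =>
    intro K hu he t1 t2
    have hW : ∀ W ∈ WS K u t1 t2, W = ∅ := by
      intro W hW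
      obtain ⟨h1, ⟨_, h2, _⟩, _, _⟩ := WS_cfg hu hW
      by_contra hne
      obtain ⟨a, ha⟩ := nonempty_iff_ne_empty.mpr hne
      obtain ⟨b, hb, hba, hv⟩ := h2 a ha
      have hcard : (fibK K u (u a)).card = 2 := by
        refine le_antisymm (hu _) ?_
        have : ({a, b} : Finset ι) ⊆ fibK K u (u a) := by
          intro x hx
          simp only [mem_insert, mem_singleton] at hx
          rcases hx with rfl | rfl
          · exact mem_filter.mpr ⟨h1 ha, rfl⟩
          · exact mem_filter.mpr ⟨hb, hv⟩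
        have h5 := card_le_card this
        rwa [card_pair (Ne.symm hba)] at h5
      have : u a ∈ (univ.filter fun l : Y => (fibK K u l).card = 2) := mem_filter.mpr ⟨mem_univ _, hcard⟩
      unfold ePairs at he
      rw [card_eq_zero] at he
      rw [he] at this
      simp at this
    by_cases h0 : t1 = 0 ∧ t2 = 0
    · obtain ⟨rfl, rfl⟩ := h0
      have : WS K u 0 0 ⊆ {∅} := fun W hW' => mem_singleton.mpr (hW W hW')
      have h3 := card_le_card this
      simpa [cnt, tri] using h3
    · have : WS K u t1 t2 = ∅ := by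
        rw [eq_empty_iff_forall_notMem]
        intro W hW'
        have h3 := hW W hW'
        obtain ⟨_, _, _, h4⟩ := WS_cfg hu hW'
        rw [h3] at h4
        simp at h4
        omega
      rw [this]
      simp
  | succ e ih =>
    intro K hu he t1 t2
    -- a pair
    have hne : (univ.filter fun l : Y => (fibK K u l).card = 2).Nonempty := by
      rw [← card_pos]
      unfold ePairs at he
      omega
    obtain ⟨l, hl⟩ := hne
    have hl2 := (mem_filter.mp hl).2
    obtain ⟨a, b, hab, hf⟩ := card_eq_two.mp hl2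
    have hal : u a = l := by
      have : a ∈ fibK K u l := by rw [hf]; simp
      exact (mem_filter.mp this).2
    have hbl : u b = l := by
      have : b ∈ fibK K u l := by rw [hf]; simp
      exact (mem_filter.mp this).2
    have haK : a ∈ K := by
      have : a ∈ fibK K u l := by rw [hf]; simp
      exact (mem_filter.mp this).1
    have hbK : b ∈ K := by
      have : b ∈ fibK K u l := by rw [hf]; simp
      exact (mem_filter.mp this).1
    have hv : u b = u a := by rw [hal, hbl]
    set K' := (K.erase a).erase b with hK'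
    have huK' : TF K' u := hu.monoC fun x hx => mem_of_mem_erase (mem_of_mem_erase hx)
    have heK' : ePairs K' u = e := by
      have := ePairs_erase (K := K) (u := u) hab (by rw [hal]; exact hf) (by omega)
      rw [hK', this, he]
      rfl
    have IH := ih K' huK' heK'
    -- the four classes
    set 𝒲 := WS K u t1 t2 with h𝒲
    have hsplit : 𝒲.card ≤ (𝒲.filter fun W => a ∉ W ∧ b ∉ W).card +
        (𝒲.filter fun W => a ∈ W ∧ b ∉ W).card + (𝒲.filter fun W => a ∉ W ∧ b ∈ W).card +
        (𝒲.filter fun W => a ∈ W ∧ b ∈ W).card := by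
      have : 𝒲 ⊆ (𝒲.filter fun W => a ∉ W ∧ b ∉ W) ∪ (𝒲.filter fun W => a ∈ W ∧ b ∉ W) ∪
          (𝒲.filter fun W => a ∉ W ∧ b ∈ W) ∪ (𝒲.filter fun W => a ∈ W ∧ b ∈ W) := by
        intro W hW
        simp only [mem_union, mem_filter]
        by_cases h1 : a ∈ W <;> by_cases h2 : b ∈ W <;> simp [h1, h2, hW]
      have h0 := card_le_card this
      have h1 := card_union_le ((𝒲.filter fun W => a ∉ W ∧ b ∉ W) ∪ (𝒲.filter fun W => a ∈ W ∧ b ∉ W) ∪
          (𝒲.filter fun W => a ∉ W ∧ b ∈ W)) (𝒲.filter fun W => a ∈ W ∧ b ∈ W)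
      have h2 := card_union_le ((𝒲.filter fun W => a ∉ W ∧ b ∉ W) ∪ (𝒲.filter fun W => a ∈ W ∧ b ∉ W))
          (𝒲.filter fun W => a ∉ W ∧ b ∈ W)
      have h3 := card_union_le (𝒲.filter fun W => a ∉ W ∧ b ∉ W) (𝒲.filter fun W => a ∈ W ∧ b ∉ W)
      omega
    have h00 : (𝒲.filter fun W => a ∉ W ∧ b ∉ W).card ≤ (WS K' u t1 t2).card := by
      refine card_le_card fun W hW => ?_
      obtain ⟨hW1, h1, h2⟩ := mem_filter.mp hW
      obtain ⟨hsub, hC, hc1, hc2⟩ := WS_cfg hu hW1
      have hsub' : W ⊆ K' := by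
        intro x hx
        exact mem_erase.mpr ⟨fun e => h2 (e ▸ hx), mem_erase.mpr ⟨fun e => h1 (e ▸ hx), hsub hx⟩⟩
      exact mem_WS_of_cfg hsub' (Cfg_step0 hsub hC haK hbK h1 h2 hab hv) hc1 hc2
    have hK'2 : (K.erase b).erase a = K' := erase_right_comm
    -- one token of the pair in `W`
    have h10 : ∀ W ∈ 𝒲.filter (fun W => a ∈ W ∧ b ∉ W), ∃ p, t1 = p + 1 ∧ W.erase a ∈ WS K' u p t2 := by
      intro W hW
      obtain ⟨hW1, h1, h2⟩ := mem_filter.mp hW
      obtain ⟨hsub, hC, hc1, hc2⟩ := WS_cfg hu hW1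
      obtain ⟨hbT, hC'⟩ := Cfg_step1 hsub hC h1 hbK h2 hv
      have hpos : 1 ≤ t1 := by rw [← hc1]; exact card_pos.mpr ⟨b, hbT⟩
      obtain ⟨p, hp⟩ : ∃ p, t1 = p + 1 := ⟨t1 - 1, by omega⟩
      refine ⟨p, hp, ?_⟩
      have hsub' : W.erase a ⊆ K' := by
        intro x hx
        obtain ⟨h5, h6⟩ := mem_erase.mp hx
        exact mem_erase.mpr ⟨fun e => h2 (e ▸ h6), mem_erase.mpr ⟨h5, hsub h6⟩⟩
      exact mem_WS_of_cfg hsub' hC' (by rw [card_erase_of_mem hbT, hc1, hp]; rfl)
        (by rw [card_erase_of_mem h1, hc2, hp]; omega)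
    have h01 : ∀ W ∈ 𝒲.filter (fun W => a ∉ W ∧ b ∈ W), ∃ p, t1 = p + 1 ∧ W.erase b ∈ WS K' u p t2 := by
      intro W hW
      obtain ⟨hW1, h1, h2⟩ := mem_filter.mp hW
      obtain ⟨hsub, hC, hc1, hc2⟩ := WS_cfg hu hW1
      obtain ⟨hbT, hC'⟩ := Cfg_step1 hsub hC h2 haK h1 hv.symm
      rw [hK'2] at hC'
      have hpos : 1 ≤ t1 := by rw [← hc1]; exact card_pos.mpr ⟨a, hbT⟩
      obtain ⟨p, hp⟩ : ∃ p, t1 = p + 1 := ⟨t1 - 1, by omega⟩
      refine ⟨p, hp, ?_⟩
      have hsub' : W.erase b ⊆ K' := by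
        intro x hx
        obtain ⟨h5, h6⟩ := mem_erase.mp hx
        exact mem_erase.mpr ⟨h5, mem_erase.mpr ⟨fun e => h1 (e ▸ h6), hsub h6⟩⟩
      exact mem_WS_of_cfg hsub' hC' (by rw [card_erase_of_mem hbT, hc1, hp]; rfl)
        (by rw [card_erase_of_mem h2, hc2, hp]; omega)
    have h11 : ∀ W ∈ 𝒲.filter (fun W => a ∈ W ∧ b ∈ W), ∃ q, t2 = q + 1 ∧
        (W.erase a).erase b ∈ WS K' u t1 q := by
      intro W hW
      obtain ⟨hW1, h1, h2⟩ := mem_filter.mp hW
      obtain ⟨hsub, hC, hc1, hc2⟩ := WS_cfg hu hW1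
      have hC' := Cfg_step2 hsub hC h1 h2 hab hv
      have hsub' : (W.erase a).erase b ⊆ K' := by
        intro x hx
        obtain ⟨h3, h4⟩ := mem_erase.mp hx
        obtain ⟨h5, h6⟩ := mem_erase.mp h4
        exact mem_erase.mpr ⟨h3, mem_erase.mpr ⟨h5, hsub h6⟩⟩
      have hb' : b ∈ W.erase a := mem_erase.mpr ⟨Ne.symm hab, h2⟩
      have hcard : ((W.erase a).erase b).card = W.card - 2 := by
        rw [card_erase_of_mem hb', card_erase_of_mem h1]
        omega
      have hW2 : 2 ≤ W.card := by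
        have := card_pos.mpr ⟨b, hb'⟩
        rw [card_erase_of_mem h1] at this
        omega
      have hle := huK'.Tpart_card_le hsub' (K' \ (W.erase a).erase b) sdiff_subset disjoint_sdiff
      rw [hC'.2.2, hc1, hcard] at hle
      have hpos : 1 ≤ t2 := by omega
      obtain ⟨q, hq⟩ : ∃ q, t2 = q + 1 := ⟨t2 - 1, by omega⟩
      refine ⟨q, hq, mem_WS_of_cfg hsub' hC' hc1 ?_⟩
      rw [hcard, hc2, hq]
      omega
    have inj10 : Set.InjOn (fun W : Finset ι => W.erase a)
        (𝒲.filter (fun W => a ∈ W ∧ b ∉ W) : Finset (Finset ι)) := by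
      intro W hW W' hW' h
      have h1 := (mem_filter.mp (mem_coe.mp hW)).2.1
      have h2 := (mem_filter.mp (mem_coe.mp hW')).2.1
      rw [← insert_erase h1, ← insert_erase h2]
      exact congrArg (insert a) h
    have inj01 : Set.InjOn (fun W : Finset ι => W.erase b)
        (𝒲.filter (fun W => a ∉ W ∧ b ∈ W) : Finset (Finset ι)) := by
      intro W hW W' hW' h
      have h1 := (mem_filter.mp (mem_coe.mp hW)).2.2
      have h2 := (mem_filter.mp (mem_coe.mp hW')).2.2
      rw [← insert_erase h1, ← insert_erase h2]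
      exact congrArg (insert b) h
    have inj11 : Set.InjOn (fun W : Finset ι => (W.erase a).erase b)
        (𝒲.filter (fun W => a ∈ W ∧ b ∈ W) : Finset (Finset ι)) := by
      intro W hW W' hW' h
      obtain ⟨h1, h2⟩ := (mem_filter.mp (mem_coe.mp hW)).2
      obtain ⟨h3, h4⟩ := (mem_filter.mp (mem_coe.mp hW')).2
      have h5 : b ∈ W.erase a := mem_erase.mpr ⟨Ne.symm hab, h2⟩
      have h6 : b ∈ W'.erase a := mem_erase.mpr ⟨Ne.symm hab, h4⟩
      rw [← insert_erase h1, ← insert_erase h3, ← insert_erase h5, ← insert_erase h6]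
      exact congrArg (fun Z => insert a (insert b Z)) h
    -- the numerical recursion
    have hstep : 𝒲.card ≤ cnt (e + 1) t1 t2 := by
      refine hsplit.trans ?_
      have c00 := h00.trans (IH t1 t2)
      rcases Nat.eq_zero_or_pos t1 with ht1 | ht1
      · have e10 : (𝒲.filter fun W => a ∈ W ∧ b ∉ W) = ∅ := by
          rw [eq_empty_iff_forall_notMem]
          intro W hW
          obtain ⟨p, hp, _⟩ := h10 W hW
          omega
        have e01 : (𝒲.filter fun W => a ∉ W ∧ b ∈ W) = ∅ := by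
          rw [eq_empty_iff_forall_notMem]
          intro W hW
          obtain ⟨p, hp, _⟩ := h01 W hW
          omega
        rw [e10, e01]
        simp only [card_empty, add_zero]
        rcases Nat.eq_zero_or_pos t2 with ht2 | ht2
        · have e11 : (𝒲.filter fun W => a ∈ W ∧ b ∈ W) = ∅ := by
            rw [eq_empty_iff_forall_notMem]
            intro W hW
            obtain ⟨q, hq, _⟩ := h11 W hW
            omega
          rw [e11]
          subst ht1 ht2
          simp only [card_empty, add_zero]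
          refine c00.trans (le_of_eq ?_)
          unfold cnt
          rw [tri_succ_zero_zero]
        · obtain ⟨q, rfl⟩ : ∃ q, t2 = q + 1 := ⟨t2 - 1, by omega⟩
          subst ht1
          have c11 : (𝒲.filter fun W => a ∈ W ∧ b ∈ W).card ≤ (WS K' u 0 q).card := by
            refine card_le_card_of_injOn _ ?_ inj11
            intro W hW
            obtain ⟨q', hq', h⟩ := h11 W (mem_coe.mp hW)
            have : q' = q := by omega
            rw [this] at h
            exact mem_coe.mpr h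
          have c11' := c11.trans (IH 0 q)
          refine (add_le_add c00 c11').trans (le_of_eq ?_)
          unfold cnt
          rw [tri_succ_zero_succ]
          ring
      · obtain ⟨p, rfl⟩ : ∃ p, t1 = p + 1 := ⟨t1 - 1, by omega⟩
        have c10 : (𝒲.filter fun W => a ∈ W ∧ b ∉ W).card ≤ (WS K' u p t2).card := by
          refine card_le_card_of_injOn _ ?_ inj10
          intro W hW
          obtain ⟨p', hp', h⟩ := h10 W (mem_coe.mp hW)
          have : p' = p := by omega
          rw [this] at h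
          exact mem_coe.mpr h
        have c01 : (𝒲.filter fun W => a ∉ W ∧ b ∈ W).card ≤ (WS K' u p t2).card := by
          refine card_le_card_of_injOn _ ?_ inj01
          intro W hW
          obtain ⟨p', hp', h⟩ := h01 W (mem_coe.mp hW)
          have : p' = p := by omega
          rw [this] at h
          exact mem_coe.mpr h
        have c10' := c10.trans (IH p t2)
        have c01' := c01.trans (IH p t2)
        rcases Nat.eq_zero_or_pos t2 with ht2 | ht2
        · have e11 : (𝒲.filter fun W => a ∈ W ∧ b ∈ W) = ∅ := by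
            rw [eq_empty_iff_forall_notMem]
            intro W hW
            obtain ⟨q, hq, _⟩ := h11 W hW
            omega
          rw [e11]
          subst ht2
          simp only [card_empty, add_zero]
          refine (add_le_add (add_le_add c00 c10') c01').trans (le_of_eq ?_)
          unfold cnt
          rw [tri_succ_succ_zero, pow_succ]
          ring
        · obtain ⟨q, rfl⟩ : ∃ q, t2 = q + 1 := ⟨t2 - 1, by omega⟩
          have c11 : (𝒲.filter fun W => a ∈ W ∧ b ∈ W).card ≤ (WS K' u (p + 1) q).card := by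
            refine card_le_card_of_injOn _ ?_ inj11
            intro W hW
            obtain ⟨q', hq', h⟩ := h11 W (mem_coe.mp hW)
            have : q' = q := by omega
            rw [this] at h
            exact mem_coe.mpr h
          have c11' := c11.trans (IH (p + 1) q)
          refine (add_le_add (add_le_add (add_le_add c00 c10') c01') c11').trans (le_of_eq ?_)
          unfold cnt
          rw [tri_succ_succ_succ, pow_succ]
          ring
    exact hstep

open Classical in
/-- C5: the number of valid `W` with given pattern numbers -/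
theorem count_W (K : Finset ι) (u : ι → Y) (hu : TF K u) (t1 t2 : ℕ) :
    ((K.powerset.filter fun W => AllPaired W K u ∧ (Tpart W (K \ W) u).card = t1 ∧
        W.card = t1 + 2 * t2).card : ℝ) ≤
      ((ePairs K u).choose t2 : ℝ) * ((ePairs K u - t2).choose t1 : ℝ) * 2 ^ t1 := by
  have h := count_aux u _ K hu rfl t1 t2
  have h2 : (((WS K u t1 t2).card : ℕ) : ℝ) ≤ ((cnt (ePairs K u) t1 t2 : ℕ) : ℝ) := by
    exact_mod_cast h
  unfold cnt tri at h2
  push_cast at h2
  exact h2

end count

end Vale.Agent.Lib.P162.QF
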