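import Vale.Agent.Lib.P162.Majorant
import Vale.Agent.Lib.P162.TupleRep

/-!
# Operator norm of a pass on tuples of marks: definitions

Loewner-type induction.  `nsq` is the normalised squared norm, `EA T` averages over the
`T`-coordinates, `QA D A` lets a pass act on the `A`-coordinates only.
`QFB D g` is the quadratic form bound
`nsq (QA D A F) ≤ ∑ S ⊆ A, g |S| * nsq (EA (A \ S) F)` for `F` vanishing on `A`-coincidences.
-/

namespace Vale.Agent.Lib.P162.QF

open Vale.Agent.Lib.P162 Equiv Finset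

section gen

variable {ι Y : Type*} [Fintype ι] [DecidableEq ι]

/-- normalised squared norm -/
noncomputable def nsq [Fintype Y] (F : (ι → Y) → ℝ) : ℝ := avg fun x => F x ^ 2

/-- average over the `T`-coordinates -/
noncomputable def EA [Fintype Y] (T : Finset ι) (F : (ι → Y) → ℝ) (x : ι → Y) : ℝ :=
  avg fun z : ι → Y => F (merge T x z)

/-- `F` vanishes when two `A`-coordinates coincide -/
def VanOn (A : Finset ι) (F : (ι → Y) → ℝ) : Prop :=
  ∀ x, ∀ a ∈ A, ∀ b ∈ A, a ≠ b → x a = x b → F x = 0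

/-- `χ` separates the `K`-tokens carrying equal labels -/
def Proper (K : Finset ι) (χ : ι → Bool) (u : ι → Y) : Prop :=
  ∀ a ∈ K, ∀ b ∈ K, a ≠ b → u a = u b → χ a ≠ χ b

open Classical in
/-- indicator of `Proper` -/
noncomputable def prI (K : Finset ι) (χ : ι → Bool) (u : ι → Y) : ℝ :=
  if Proper K χ u then 1 else 0

/-- Walsh character of a set of tokens -/
noncomputable def wsign (W : Finset ι) (χ : ι → Bool) : ℝ := ∏ a ∈ W, sgnB (χ a)

/-- product of `g` over the two colour classes of `S` -/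
def gg (g : ℕ → ℝ) (χ : ι → Bool) (S : Finset ι) : ℝ :=
  g (S.filter fun a => χ a = false).card * g (S.filter fun a => χ a = true).card

end gen

section pass

variable {ι : Type*} [Fintype ι] [DecidableEq ι]

/-- a pass acting on the `A`-coordinates -/
noncomputable def QA (D : ℕ) (A : Finset ι) (F : (ι → Pos D) → ℝ) (x : ι → Pos D) : ℝ :=
  Exp D fun g => F fun i => if i ∈ A then g⁻¹ (x i) else x i

/-- the quadratic form bound at level `D` with constants `g` -/
def QFB (ι : Type*) [Fintype ι] [DecidableEq ι] (D : ℕ) (g : ℕ → ℝ) : Prop :=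
  ∀ (A : Finset ι) (F : (ι → Pos D) → ℝ), VanOn A F →
    nsq (QA D A F) ≤ ∑ S ∈ A.powerset, g S.card * nsq (EA (A \ S) F)

/-- heads of the tokens after the coins, flipped on `K` -/
def flipH {D : ℕ} (K : Finset ι) (χ : ι → Bool) (c : Pos D → Bool) (u : ι → Pos D) : ι → Bool :=
  fun i => if i ∈ K then xor (χ i) (c (u i)) else χ i

/-- the function seen by the two subnetworks: heads `χ` on the output side, tails `u` -/
noncomputable def PhiA {D : ℕ} (K : Finset ι) (F : (ι → Pos (D + 1)) → ℝ) (χ : ι → Bool)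
    (u : ι → Pos D) : ℝ :=
  avg fun c : Pos D → Bool => F (joinT (flipH K χ c u) u)

/-- the functional bounded by the core lemma -/
noncomputable def PsiK {D : ℕ} (g : ℕ → ℝ) (K : Finset ι) (F : (ι → Pos (D + 1)) → ℝ) : ℝ :=
  ∑ W ∈ K.powerset, avg fun χ : ι → Bool => avg fun u : ι → Pos D =>
    gg g χ (K \ W) *
      (avg fun χ' : ι → Bool => wsign W χ' *
        avg fun u' : ι → Pos D => PhiA K F (merge W χ χ') (merge W u u')) ^ 2

end pass

section numeric

/-- binomial expectation -/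
noncomputable def binE (s : ℕ) (f : ℕ → ℝ) : ℝ :=
  ((2 : ℝ) ^ s)⁻¹ * ∑ i ∈ range (s + 1), (s.choose i : ℝ) * f i

/-- `E_i [g (f + i) g (f + s' - i)]` -/
noncomputable def Gone (g : ℕ → ℝ) (f s' : ℕ) : ℝ :=
  binE s' fun i => g (f + i) * g (f + s' - i)

/-- `(E_i [(g (f + i) g (f + s' - i)) ^ 2]) ^ (1 / 2)` -/
noncomputable def Gtwo (g : ℕ → ℝ) (f s' : ℕ) : ℝ :=
  Real.sqrt (binE s' fun i => (g (f + i) * g (f + s' - i)) ^ 2)

/-- the number of labellings of a pattern -/
noncomputable def Nfib (t1 t2 : ℕ) : ℝ :=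
  ((t1 + 2 * t2).factorial : ℝ) / (2 ^ t2 * (t2.factorial : ℝ))

/-- the total coefficient of a tail tuple with `e` pairs among `s` tokens, `m` labels -/
noncomputable def tot (g : ℕ → ℝ) (m e s : ℕ) : ℝ :=
  Gone g e (s - 2 * e) +
  ∑ t2 ∈ range (e + 1), ∑ t1 ∈ range (e - t2 + 1),
    if t1 = 0 ∧ t2 = 0 then 0 else
      (e.choose t2 : ℝ) * ((e - t2).choose t1 : ℝ) * 6 ^ t1 * (((2 * m : ℕ) : ℝ) ^ (t1 + t2))⁻¹ *
        Nfib t1 t2 * Gtwo g (e - t1 - t2) (s - (t1 + 2 * t2) - 2 * (e - t1 - t2))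

/-- polynomial correction -/
noncomputable def a3 (s : ℕ) : ℝ := if s = 1 then 0 else ((s : ℝ) + 1)⁻¹ ^ 3

/-- the constants of the theorem: `sqrt (s!) * (10 ^ 8 / n) ^ (s / 2) * a3 s` -/
noncomputable def hh (s : ℕ) (n : ℝ) : ℝ :=
  Real.sqrt (s.factorial : ℝ) * (10 ^ 4 / Real.sqrt n) ^ s * a3 s

/-- the constants along the induction -/
noncomputable def gD (D s : ℕ) : ℝ := hh s ((2 : ℝ) ^ D)

end numeric

end Vale.Agent.Lib.P162.QF
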