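import Vale.Agent.Lib.P162.QF.Assembly
import Vale.Agent.Lib.P162.Seq6

/-!
# The Thorp shuffle on `2 ^ (d + 1)` cards mixes in `O (d + 1)` steps
-/

namespace Vale.Agent.Lib.P162.QF

open Vale.Agent.Lib.P162 Finset

/-- the moment bound with fixed exponent `4 / 3`, from `moment_new` -/
theorem moment_hyp : MomentHyp 1 15 := by
  intro ι _ _ D x hx
  have hq3 : (1 : ℝ) / ((2 : ℝ) ^ (1 + 1) - 1) = 1 / 3 := by norm_num
  rw [hq3]
  have hinj : InjF x Finset.univ := fun i _ j _ h => hx h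
  have h1 := moment_new (q := 1 / 3) (by norm_num) D D Finset.univ x hinj
  refine h1.trans (Real.exp_le_exp.mpr ?_)
  set z : ℝ := (2 : ℝ) ^ ((1 : ℝ) / 3) with hz
  have hz1 : 1 ≤ z := Real.one_le_rpow (by norm_num) (by norm_num)
  have hz3 : z ^ 3 = 2 := by
    rw [hz, ← Real.rpow_natCast, ← Real.rpow_mul (by norm_num)]
    norm_num
  have hz2 : z ≤ 1.26 := by
    by_contra hc
    push Not at hc
    have : (1.26 : ℝ) ^ 3 < z ^ 3 := pow_lt_pow_left₀ hc (by norm_num) (by norm_num)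
    rw [hz3] at this
    norm_num at this
  have hlt : 3 * z / 4 < 1 := by linarith
  have h2 := epsF_le hz1 hlt D D le_rfl
  have h3 : epsF z D D ≤ 5 := by
    have h4 : (z - 1) * (3 / 4 : ℝ) ^ (D - D) * (1 - (3 * z / 4) ^ D) ≤ z - 1 := by
      rw [Nat.sub_self, pow_zero, mul_one]
      have h5 : 0 ≤ (3 * z / 4) ^ D := by positivity
      nlinarith
    have h6 : epsF z D D * (1 - 3 * z / 4) ≤ z - 1 := h2.trans h4
    have h7 : (0 : ℝ) < 1 - 3 * z / 4 := by linarith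
    by_contra hc
    push Not at hc
    have h8 : 5 * (1 - 3 * z / 4) < epsF z D D * (1 - 3 * z / 4) :=
      mul_lt_mul_of_pos_right hc h7
    linarith
  have e0 : (((2 : ℝ) ^ (D - D)) ^ ((1 : ℝ) / 3) - 1) = 0 := by
    rw [Nat.sub_self, pow_zero, Real.one_rpow, sub_self]
  rw [e0, zero_mul, zero_div, add_zero, card_univ]
  have hk : (0 : ℝ) ≤ (Fintype.card ι : ℝ) := Nat.cast_nonneg _
  calc (Fintype.card ι : ℝ) * epsF z D D ≤ (Fintype.card ι : ℝ) * 5 :=
        mul_le_mul_of_nonneg_left h3 hk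
    _ = (Fintype.card ι : ℝ) * (1 / 3 * 15) := by norm_num

/-- **The Thorp shuffle on `2 ^ (d + 1)` cards mixes in at most `68404 (d + 1)` steps.** -/
theorem thorp_linear (d : ℕ) :
    (∀ t : ℕ, 68404 * (d + 1) ≤ t → tvToUniform (convPowP (thorpLaw (2 ^ d)) t) ≤ 1 / 4) ∧
    thorpMix (2 ^ d) ≤ 68404 * (d + 1) :=
  thorp_of_moment (a := 1) (G := 15) (m := 68400) moment_hyp le_rfl (by norm_num) (by norm_num) d

end Vale.Agent.Lib.P162.QF
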