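import Vale.Agent.Lib.P162.QF.Tensor

/-!
# Parseval over the free colours and removal of the averaged tokens (M4)
-/

namespace Vale.Agent.Lib.P162.QF

open Vale.Agent.Lib.P162 Equiv Finset

set_option linter.unusedSectionVars false
set_option linter.unusedVariables false
set_option linter.unusedSimpArgs false

variable {ι : Type*} [Fintype ι] [DecidableEq ι] {D : ℕ}

private lemma sgnB_sq' (a : Bool) : sgnB a * sgnB a = 1 := by
  cases a <;> simp

private lemma prod_sgn' (A : Finset ι) (u v : ι → Bool) :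
    ∏ i ∈ A, (1 + sgnB (u i) * sgnB (v i)) =
      if ∀ i ∈ A, u i = v i then (2 : ℝ) ^ A.card else 0 := by
  by_cases h : ∀ i ∈ A, u i = v i
  · rw [if_pos h]
    rw [prod_congr rfl (g := fun _ => (2 : ℝ))]
    · simp
    · intro i hi
      rw [h i hi, sgnB_sq']
      norm_num
  · rw [if_neg h]
    push Not at h
    obtain ⟨i, hi, hne⟩ := h
    refine prod_eq_zero hi ?_
    cases hu : u i <;> cases hv : v i <;> simp_all

private lemma avg_pin {Y : Type*} [Fintype Y] [Nonempty Y] [DecidableEq Y] (R : Finset ι)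
    (v : ι → Y) (F : (ι → Y) → ℝ) :
    (Fintype.card Y : ℝ) ^ R.card * avg (fun w => (if ∀ i ∈ R, v i = w i then (1 : ℝ) else 0) * F w) =
      avg (fun y => F (merge R y v)) := by
  have hc : (0 : ℝ) < Fintype.card Y := by exact_mod_cast Fintype.card_pos
  rw [← avg_merge R (fun w => (if ∀ i ∈ R, v i = w i then (1 : ℝ) else 0) * F w), ← avg_mul_left]
  refine avg_congr fun y => ?_
  have h1 : ∀ x : ι → Y, (if ∀ i ∈ R, v i = merge R y x i then (1 : ℝ) else 0) * F (merge R y x) =
      (if ∀ i ∈ R, x i = v i then (1 : ℝ) else 0) * F (merge R y v) := by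
    intro x
    by_cases h : ∀ i ∈ R, x i = v i
    · have h2 : merge R y x = merge R y v := by
        funext i
        by_cases hi : i ∈ R
        · rw [merge_mem hi, merge_mem hi, h i hi]
        · rw [merge_not_mem hi, merge_not_mem hi]
      rw [h2, if_pos h, if_pos]
      intro i hi
      rw [merge_mem hi]
    · rw [if_neg h, if_neg]
      · simp
      · intro h3
        apply h
        intro i hi
        have := h3 i hi
        rw [merge_mem hi] at this
        exact this.symm
  simp only [h1]
  rw [avg_mul_right, avg_hit]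
  have : (Fintype.card Y : ℝ) ^ R.card ≠ 0 := by positivity
  field_simp

private lemma wsign_mul (W : Finset ι) (a b : ι → Bool) :
    wsign W a * wsign W b = ∏ i ∈ W, (sgnB (a i) * sgnB (b i)) := by
  unfold wsign
  rw [prod_mul_distrib]

private lemma sum_wsign (R : Finset ι) (a b : ι → Bool) :
    ∑ W ∈ R.powerset, wsign W a * wsign W b =
      if ∀ i ∈ R, a i = b i then (2 : ℝ) ^ R.card else 0 := by
  rw [← prod_sgn', Finset.prod_one_add]
  refine sum_congr rfl fun W _ => ?_
  rw [wsign_mul]

private lemma avg_sq {Y : Type*} [Fintype Y] (f : Y → ℝ) :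
    (avg f) ^ 2 = avg fun a => avg fun b => f a * f b := by
  rw [sq]
  simp only [avg_mul_left, avg_mul_right]

private lemma parseval_aux (R : Finset ι) (G : (ι → Bool) → ℝ)
    (hGm : ∀ y a : ι → Bool, G (merge R y a) = G a) :
    (avg fun a : ι → Bool => G a ^ 2) =
      ∑ W ∈ R.powerset, (avg fun χ' : ι → Bool => wsign W χ' * G χ') ^ 2 := by
  have e1 : ∀ W : Finset ι, (avg fun χ' : ι → Bool => wsign W χ' * G χ') ^ 2 =
      avg fun a : ι → Bool => avg fun b : ι → Bool =>
        (wsign W a * wsign W b) * (G a * G b) := by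
    intro W
    rw [avg_sq]
    refine avg_congr fun a => avg_congr fun b => ?_
    ring
  simp only [e1]
  rw [← avg_sum]
  refine avg_congr fun a => ?_
  rw [← avg_sum]
  simp only [← sum_mul, sum_wsign]
  have e2 : ∀ b : ι → Bool, (if ∀ i ∈ R, a i = b i then (2 : ℝ) ^ R.card else 0) * (G a * G b) =
      ((2 : ℝ) ^ R.card * ((if ∀ i ∈ R, a i = b i then (1 : ℝ) else 0) * G b)) * G a := by
    intro b
    by_cases h : ∀ i ∈ R, a i = b i
    · simp only [if_pos h]; ring
    · simp only [if_neg h]; ring
  simp only [e2]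
  rw [avg_mul_right, avg_mul_left]
  have e3 := avg_pin R a G
  simp only [Fintype.card_bool, Nat.cast_ofNat] at e3
  rw [e3]
  simp only [hGm, avg_const]
  ring

/-- Parseval for a function of the colours in `R`, the others frozen -/
theorem parseval_merge (R : Finset ι) (H : (ι → Bool) → ℝ) (χ : ι → Bool) :
    (avg fun χ'' : ι → Bool => H (merge R χ χ'') ^ 2) =
      ∑ W ∈ R.powerset, (avg fun χ' : ι → Bool => wsign W χ' * H (merge R χ χ')) ^ 2 := by
  refine parseval_aux R (fun χ' => H (merge R χ χ')) ?_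
  intro y a
  show H _ = H _
  congr 1
  funext i
  by_cases hi : i ∈ R <;> simp [merge, hi]

/-- translation of colours -/
private def xorE (d : ι → Bool) : (ι → Bool) ≃ (ι → Bool) where
  toFun b i := xor (b i) (d i)
  invFun b i := xor (b i) (d i)
  left_inv b := by funext i; simp
  right_inv b := by funext i; simp

private lemma merge_joinT (T : Finset ι) (h b : ι → Bool) (u t : ι → Pos D) :
    merge T (joinT h u) (joinT b t) = joinT (merge T h b) (merge T u t) := by
  funext i
  by_cases hi : i ∈ T <;> simp [merge, joinT, hi]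

/-- averaging over head and tail of the `T`-tokens gives `PhiA` of the averaged function -/
theorem PhiA_reduce (A T : Finset ι) (hT : T ⊆ A) (F : (ι → Pos (D + 1)) → ℝ) (χ : ι → Bool)
    (u : ι → Pos D) :
    (avg fun χ' : ι → Bool => avg fun u' : ι → Pos D => PhiA A F (merge T χ χ') (merge T u u')) =
      PhiA (A \ T) (EA T F) χ u := by
  unfold PhiA
  have step : ∀ (c : Pos D → Bool) (u' : ι → Pos D),
      (avg fun χ' : ι → Bool => F (joinT (flipH A (merge T χ χ') c (merge T u u')) (merge T u u'))) =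
      avg fun b : ι → Bool => F (joinT (merge T (flipH (A \ T) χ c u) b) (merge T u u')) := by
    intro c u'
    rw [← avg_equiv (xorE fun i => c (u' i))]
    refine avg_congr fun b => ?_
    congr 2
    funext i
    by_cases hi : i ∈ T
    · have hiA := hT hi
      simp [flipH, merge, xorE, hi, hiA]
    · by_cases hiA : i ∈ A <;> simp [flipH, merge, xorE, hi, hiA]
  have e1 : (avg fun χ' : ι → Bool => avg fun u' : ι → Pos D => avg fun c : Pos D → Bool =>
        F (joinT (flipH A (merge T χ χ') c (merge T u u')) (merge T u u'))) =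
      avg fun c : Pos D → Bool => avg fun u' : ι → Pos D => avg fun χ' : ι → Bool =>
        F (joinT (flipH A (merge T χ χ') c (merge T u u')) (merge T u u')) := by
    calc _ = avg fun χ' : ι → Bool => avg fun c : Pos D → Bool => avg fun u' : ι → Pos D =>
            F (joinT (flipH A (merge T χ χ') c (merge T u u')) (merge T u u')) :=
          avg_congr fun χ' => avg_comm _
      _ = avg fun c : Pos D → Bool => avg fun χ' : ι → Bool => avg fun u' : ι → Pos D =>
            F (joinT (flipH A (merge T χ χ') c (merge T u u')) (merge T u u')) := avg_comm _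
      _ = _ := avg_congr fun c => avg_comm _
  rw [e1]
  refine avg_congr fun c => ?_
  simp only [step]
  unfold EA
  rw [avg_tup D]
  simp only [merge_joinT]
  exact avg_comm _

private lemma gg_merge (g : ℕ → ℝ) (R S : Finset ι) (hd : Disjoint R S) (χ χ'' : ι → Bool) :
    gg g (merge R χ χ'') S = gg g χ S := by
  unfold gg
  have h : ∀ a ∈ S, merge R χ χ'' a = χ a := fun a ha =>
    merge_not_mem (fun hR => (Finset.disjoint_left.mp hd) hR ha)
  congr 2
  · exact congrArg _ (Finset.filter_congr fun a ha => by rw [h a ha])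
  · exact congrArg _ (Finset.filter_congr fun a ha => by rw [h a ha])

private lemma wsign_merge (W T : Finset ι) (hd : Disjoint W T) (a b : ι → Bool) :
    wsign W (merge T a b) = wsign W a := by
  unfold wsign
  refine prod_congr rfl fun i hi => ?_
  rw [merge_not_mem (fun hT => (Finset.disjoint_left.mp hd) hi hT)]

private lemma merge_union_merge {Y : Type*} (W T : Finset ι) (hd : Disjoint W T)
    (x a b : ι → Y) : merge (W ∪ T) x (merge T a b) = merge T (merge W x a) b := by
  funext i
  by_cases hT : i ∈ T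
  · simp [merge, hT]
  · by_cases hW : i ∈ W <;> simp [merge, hT, hW]

private lemma inner_reduce (A W T : Finset ι) (hd : Disjoint W T) (hTA : T ⊆ A)
    (F : (ι → Pos (D + 1)) → ℝ) (χ : ι → Bool) (u : ι → Pos D) :
    (avg fun χ' : ι → Bool => wsign W χ' * avg fun u' : ι → Pos D =>
        PhiA A F (merge (W ∪ T) χ χ') (merge (W ∪ T) u u')) =
      avg fun χ' : ι → Bool => wsign W χ' * avg fun u' : ι → Pos D =>
        PhiA (A \ T) (EA T F) (merge W χ χ') (merge W u u') := by
  rw [← avg_merge T]
  refine avg_congr fun χ' => ?_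
  simp only [wsign_merge W T hd, merge_union_merge W T hd, avg_mul_left]
  congr 1
  have e1 : ∀ b : ι → Bool, (avg fun u' : ι → Pos D =>
        PhiA A F (merge T (merge W χ χ') b) (merge (W ∪ T) u u')) =
      avg fun u' : ι → Pos D => avg fun u'' : ι → Pos D =>
        PhiA A F (merge T (merge W χ χ') b) (merge T (merge W u u') u'') := by
    intro b
    rw [← avg_merge T]
    simp only [merge_union_merge W T hd]
  simp only [e1]
  rw [avg_comm]
  refine avg_congr fun u' => ?_
  exact PhiA_reduce A T hTA F (merge W χ χ') (merge W u u')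

private lemma term_expand (g : ℕ → ℝ) (A S : Finset ι) (F : (ι → Pos (D + 1)) → ℝ) :
    (avg fun χ : ι → Bool => gg g χ S * nsq (EA (A \ S) (PhiA A F χ))) =
      ∑ W ∈ (A \ S).powerset, avg fun χ : ι → Bool => avg fun u : ι → Pos D =>
        gg g χ S * (avg fun χ' : ι → Bool => wsign W χ' * avg fun u' : ι → Pos D =>
          PhiA A F (merge (A \ S) χ χ') (merge (A \ S) u u')) ^ 2 := by
  have hd : Disjoint (A \ S) S := Finset.sdiff_disjoint
  have e0 : ∀ χ : ι → Bool, nsq (EA (A \ S) (PhiA A F χ)) =
      avg fun u : ι → Pos D => (avg fun z : ι → Pos D => PhiA A F χ (merge (A \ S) u z)) ^ 2 :=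
    fun χ => rfl
  have e00 : ∀ χ : ι → Bool, gg g χ S * nsq (EA (A \ S) (PhiA A F χ)) =
      avg fun u : ι → Pos D => gg g χ S *
        (avg fun z : ι → Pos D => PhiA A F χ (merge (A \ S) u z)) ^ 2 := by
    intro χ
    rw [e0, avg_mul_left]
  simp only [e00]
  rw [avg_comm]
  have e1 : ∀ W : Finset ι, (avg fun χ : ι → Bool => avg fun u : ι → Pos D =>
        gg g χ S * (avg fun χ' : ι → Bool => wsign W χ' * avg fun u' : ι → Pos D =>
          PhiA A F (merge (A \ S) χ χ') (merge (A \ S) u u')) ^ 2) =
      avg fun u : ι → Pos D => avg fun χ : ι → Bool =>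
        gg g χ S * (avg fun χ' : ι → Bool => wsign W χ' * avg fun u' : ι → Pos D =>
          PhiA A F (merge (A \ S) χ χ') (merge (A \ S) u u')) ^ 2 := fun W => avg_comm _
  simp only [e1]
  rw [← avg_sum]
  refine avg_congr fun u => ?_
  rw [← avg_sum]
  rw [← avg_merge (A \ S)]
  refine avg_congr fun χ => ?_
  simp only [gg_merge g (A \ S) S hd, avg_mul_left, ← mul_sum]
  congr 1
  exact parseval_merge (A \ S)
    (fun χt => avg fun z : ι → Pos D => PhiA A F χt (merge (A \ S) u z)) χ

/-- M4: the colour average of the bound from the induction hypothesis equals the sum of the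
functionals `PsiK` of the partial averages of `F` -/
theorem avg_twice_eq (g : ℕ → ℝ) (A : Finset ι) (F : (ι → Pos (D + 1)) → ℝ) :
    (avg fun χ : ι → Bool => ∑ S ∈ A.powerset, gg g χ S * nsq (EA (A \ S) (PhiA A F χ))) =
      ∑ T ∈ A.powerset, PsiK g (A \ T) (EA T F) := by
  rw [avg_sum]
  simp only [term_expand]
  unfold PsiK
  rw [Finset.sum_sigma', Finset.sum_sigma']
  refine Finset.sum_nbij' (fun p => ⟨(A \ p.1) \ p.2, p.2⟩) (fun p => ⟨(A \ p.1) \ p.2, p.2⟩)
    ?_ ?_ ?_ ?_ ?_
  · rintro ⟨S, W⟩ h
    simp only [mem_sigma, mem_powerset] at h ⊢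
    obtain ⟨hS, hW⟩ := h
    refine ⟨fun i hi => (mem_sdiff.mp (mem_sdiff.mp hi).1).1, fun i hi => ?_⟩
    have hi' := mem_sdiff.mp (hW hi)
    refine mem_sdiff.mpr ⟨hi'.1, fun h => (mem_sdiff.mp h).2 hi⟩
  · rintro ⟨S, W⟩ h
    simp only [mem_sigma, mem_powerset] at h ⊢
    obtain ⟨hS, hW⟩ := h
    refine ⟨fun i hi => (mem_sdiff.mp (mem_sdiff.mp hi).1).1, fun i hi => ?_⟩
    have hi' := mem_sdiff.mp (hW hi)
    refine mem_sdiff.mpr ⟨hi'.1, fun h => (mem_sdiff.mp h).2 hi⟩
  · rintro ⟨S, W⟩ h
    simp only [mem_sigma, mem_powerset] at h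
    obtain ⟨hS, hW⟩ := h
    have : (A \ ((A \ S) \ W)) \ W = S := by
      ext i
      simp only [mem_sdiff, not_and, not_not]
      constructor
      · rintro ⟨⟨h1, h2⟩, h3⟩
        by_contra hc
        exact h3 (h2 ⟨h1, hc⟩)
      · intro hi
        refine ⟨⟨hS hi, fun h => absurd hi h.2⟩, fun hw => (mem_sdiff.mp (hW hw)).2 hi⟩
    simp [this]
  · rintro ⟨S, W⟩ h
    simp only [mem_sigma, mem_powerset] at h
    obtain ⟨hS, hW⟩ := h
    have : (A \ ((A \ S) \ W)) \ W = S := by
      ext i
      simp only [mem_sdiff, not_and, not_not]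
      constructor
      · rintro ⟨⟨h1, h2⟩, h3⟩
        by_contra hc
        exact h3 (h2 ⟨h1, hc⟩)
      · intro hi
        refine ⟨⟨hS hi, fun h => absurd hi h.2⟩, fun hw => (mem_sdiff.mp (hW hw)).2 hi⟩
    simp [this]
  · rintro ⟨S, W⟩ h
    simp only [mem_sigma, mem_powerset] at h
    obtain ⟨hS, hW⟩ := h
    set T := (A \ S) \ W with hT
    have hU : A \ S = W ∪ T := (Finset.union_sdiff_of_subset hW).symm
    have hd : Disjoint W T := Finset.disjoint_sdiff
    have hTA : T ⊆ A := fun i hi => (mem_sdiff.mp (mem_sdiff.mp hi).1).1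
    have hS' : (A \ T) \ W = S := by
      ext i
      simp only [hT, mem_sdiff, not_and, not_not]
      constructor
      · rintro ⟨⟨h1, h2⟩, h3⟩
        by_contra hc
        exact h3 (h2 ⟨h1, hc⟩)
      · intro hi
        refine ⟨⟨hS hi, fun h => absurd hi h.2⟩, fun hw => (mem_sdiff.mp (hW hw)).2 hi⟩
    show (avg fun χ : ι → Bool => avg fun u : ι → Pos D =>
        gg g χ S * (avg fun χ' : ι → Bool => wsign W χ' * avg fun u' : ι → Pos D =>
          PhiA A F (merge (A \ S) χ χ') (merge (A \ S) u u')) ^ 2) =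
      avg fun χ : ι → Bool => avg fun u : ι → Pos D =>
        gg g χ ((A \ T) \ W) * (avg fun χ' : ι → Bool => wsign W χ' * avg fun u' : ι → Pos D =>
          PhiA (A \ T) (EA T F) (merge W χ χ') (merge W u u')) ^ 2
    rw [hS', hU]
    refine avg_congr fun χ => avg_congr fun u => ?_
    rw [inner_reduce A W T hd hTA F χ u]

end Vale.Agent.Lib.P162.QF
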