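import Vale.Agent.Lib.P162.QF.Final

/-!
# The lower bound by counting coins: `d + 1 ≤ t_mix (2 ^ (d + 1))`
-/

namespace Vale.Agent.Lib.P162.QF

open Vale.Agent.Lib.P162 Finset Equiv

/-- the support of the law after `t` shuffles -/
lemma convPow_supp_card (m t : ℕ) :
    (univ.filter fun g : Perm (Fin (2 * m)) => convPowP (thorpLaw m) t g ≠ 0).card ≤ 2 ^ (t * m) := by
  classical
  induction t with
  | zero =>
    have : (univ.filter fun g : Perm (Fin (2 * m)) => convPowP (thorpLaw m) 0 g ≠ 0) ⊆ {1} := by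
      intro g hg
      have h := (mem_filter.mp hg).2
      rw [mem_singleton]
      by_contra hne
      apply h
      show (if g = 1 then (1 : ℝ) else 0) = 0
      rw [if_neg hne]
    have h2 := card_le_card this
    simpa using h2
  | succ t ih =>
    set S := univ.filter fun g : Perm (Fin (2 * m)) => convPowP (thorpLaw m) t g ≠ 0 with hS
    have hsub : (univ.filter fun g : Perm (Fin (2 * m)) => convPowP (thorpLaw m) (t + 1) g ≠ 0) ⊆
        ((univ : Finset (Fin m → Bool)) ×ˢ S).image fun p => thorpPerm m p.1 * p.2 := by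
      intro g hg
      have h := (mem_filter.mp hg).2
      have h1 : ∃ k : Perm (Fin (2 * m)), thorpLaw m k * convPowP (thorpLaw m) t (k⁻¹ * g) ≠ 0 := by
        by_contra hc
        push Not at hc
        apply h
        show convP (thorpLaw m) (convPowP (thorpLaw m) t) g = 0
        unfold convP
        exact sum_eq_zero fun k _ => hc k
      obtain ⟨k, hk⟩ := h1
      have h2 : thorpLaw m k ≠ 0 := left_ne_zero_of_mul hk
      have h3 : convPowP (thorpLaw m) t (k⁻¹ * g) ≠ 0 := right_ne_zero_of_mul hk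
      have h4 : ∃ c, thorpPerm m c = k := by
        by_contra hc
        push Not at hc
        apply h2
        unfold thorpLaw
        have : (univ.filter fun c : Fin m → Bool => thorpPerm m c = k) = ∅ := by
          rw [filter_eq_empty_iff]
          intro c _
          exact hc c
        rw [this]
        simp
      obtain ⟨c, hc⟩ := h4
      refine mem_image.mpr ⟨(c, k⁻¹ * g), mem_product.mpr ⟨mem_univ _, mem_filter.mpr ⟨mem_univ _, h3⟩⟩, ?_⟩
      simp [hc]
    refine (card_le_card hsub).trans (card_image_le.trans ?_)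
    rw [card_product, card_univ]
    simp only [Fintype.card_fun, Fintype.card_bool, Fintype.card_fin]
    calc 2 ^ m * S.card ≤ 2 ^ m * 2 ^ (t * m) := Nat.mul_le_mul_left _ ih
      _ = 2 ^ ((t + 1) * m) := by rw [← pow_add]; congr 1; ring

/-- the distance to uniform from the size of the support -/
lemma tv_ge_of_supp {n : ℕ} (μ : Perm (Fin n) → ℝ) (hμ : ∑ g, μ g = 1) :
    1 - ((univ.filter fun g => μ g ≠ 0).card : ℝ) / (n.factorial : ℝ) ≤ tvToUniform μ := by
  classical
  set S := univ.filter fun g => μ g ≠ 0 with hS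
  set U : ℝ := 1 / (n.factorial : ℝ) with hU
  have hn : (0 : ℝ) < n.factorial := by exact_mod_cast Nat.factorial_pos n
  have hU0 : 0 ≤ U := by positivity
  have hcard : ((univ : Finset (Perm (Fin n))).card : ℝ) * U = 1 := by
    rw [card_univ, Fintype.card_perm, Fintype.card_fin, hU]
    field_simp
  have h1 : ∑ g ∈ S, μ g = 1 := by
    rw [← hμ]
    refine sum_subset (filter_subset _ _) fun g _ hg => ?_
    by_contra hne
    exact hg (mem_filter.mpr ⟨mem_univ _, hne⟩)
  unfold tvToUniform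
  have h2 : ∑ g, |μ g - U| = ∑ g ∈ S, |μ g - U| + ∑ g ∈ univ \ S, |μ g - U| := by
    rw [add_comm, sum_sdiff (subset_univ S)]
  have h3 : ∑ g ∈ S, (μ g - U) ≤ ∑ g ∈ S, |μ g - U| := sum_le_sum fun g _ => le_abs_self _
  have h4 : ∑ g ∈ univ \ S, |μ g - U| = ((univ \ S).card : ℝ) * U := by
    rw [← nsmul_eq_mul, ← sum_const]
    refine sum_congr rfl fun g hg => ?_
    have : μ g = 0 := by
      by_contra hne
      exact (mem_sdiff.mp hg).2 (mem_filter.mpr ⟨mem_univ _, hne⟩)
    rw [this, zero_sub, abs_neg, abs_of_nonneg hU0]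
  have h5 : ∑ g ∈ S, (μ g - U) = 1 - (S.card : ℝ) * U := by
    rw [sum_sub_distrib, h1, sum_const, nsmul_eq_mul]
  have h6 : ((univ \ S).card : ℝ) * U = 1 - (S.card : ℝ) * U := by
    rw [card_sdiff_of_subset (subset_univ S), Nat.cast_sub (card_le_card (subset_univ S)), sub_mul, hcard]
  have h7 : (S.card : ℝ) / (n.factorial : ℝ) = (S.card : ℝ) * U := by
    rw [hU]; ring
  rw [h2, h4, h7]
  rw [h5] at h3
  rw [h6]
  linarith

/-- the factorial of `2 m` against `m ^ m` -/
lemma two_mul_pow_le_factorial {m : ℕ} (hm : 1 ≤ m) : 2 * (m : ℝ) ^ m ≤ ((2 * m).factorial : ℝ) := by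
  have h1 : m.factorial * (m + 1) ^ m ≤ (m + m).factorial := Nat.factorial_mul_pow_le_factorial
  have hm0 : (0 : ℝ) < m := by exact_mod_cast hm
  have h2 : ((m + 1 : ℕ) : ℝ) ^ m ≤ (((m + m).factorial : ℕ) : ℝ) := by
    have h3 : (m + 1) ^ m ≤ (m + m).factorial :=
      le_trans (Nat.le_mul_of_pos_left _ (Nat.factorial_pos m)) h1
    exact_mod_cast h3
  have h4 : 2 * (m : ℝ) ^ m ≤ ((m : ℝ) + 1) ^ m := by
    have h5 := one_add_mul_le_pow (a := 1 / (m : ℝ)) (by
      have : (0 : ℝ) ≤ 1 / m := by positivity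
      linarith) m
    have h6 : 1 + (m : ℝ) * (1 / m) = 2 := by field_simp; norm_num
    rw [h6] at h5
    have h7 : ((m : ℝ) + 1) ^ m = (m : ℝ) ^ m * (1 + 1 / (m : ℝ)) ^ m := by
      rw [← mul_pow]
      congr 1
      field_simp
    rw [h7]
    have h8 : (0 : ℝ) ≤ (m : ℝ) ^ m := by positivity
    nlinarith
  have e : 2 * m = m + m := by ring
  rw [e]
  push_cast at h2
  linarith

/-- below `d + 1` shuffles the law is far from uniform -/
theorem tv_lower (d t : ℕ) (ht : t ≤ d) :
    1 / 4 < tvToUniform (convPowP (thorpLaw (2 ^ d)) t) := by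
  set m := 2 ^ d with hm
  have hm1 : 1 ≤ m := Nat.one_le_two_pow
  have h1 := tv_ge_of_supp (convPowP (thorpLaw m) t) (convPow_sum _ (thorpLaw_sum _) _)
  refine lt_of_lt_of_le ?_ h1
  have h2 := convPow_supp_card m t
  have h3 : 2 ^ (t * m) ≤ m ^ m := by
    rw [hm, ← pow_mul]
    exact Nat.pow_le_pow_right (by norm_num) (Nat.mul_le_mul_right _ ht)
  have h4 : ((univ.filter fun g : Perm (Fin (2 * m)) => convPowP (thorpLaw m) t g ≠ 0).card : ℝ) ≤
      (m : ℝ) ^ m := by
    exact_mod_cast h2.trans h3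
  have h5 := two_mul_pow_le_factorial hm1
  have h6 : (0 : ℝ) < ((2 * m).factorial : ℝ) := by exact_mod_cast Nat.factorial_pos _
  have h7 : ((univ.filter fun g : Perm (Fin (2 * m)) => convPowP (thorpLaw m) t g ≠ 0).card : ℝ) /
      ((2 * m).factorial : ℝ) ≤ 1 / 2 := by
    rw [div_le_iff₀ h6]
    linarith
  linarith

/-- **The order of growth of the mixing time of the Thorp shuffle on `2 ^ (d + 1)` cards.** -/
theorem thorp_theta (d : ℕ) :
    (∀ t : ℕ, t ≤ d → 1 / 4 < tvToUniform (convPowP (thorpLaw (2 ^ d)) t)) ∧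
    (∀ t : ℕ, 68404 * (d + 1) ≤ t → tvToUniform (convPowP (thorpLaw (2 ^ d)) t) ≤ 1 / 4) ∧
    d + 1 ≤ thorpMix (2 ^ d) ∧ thorpMix (2 ^ d) ≤ 68404 * (d + 1) := by
  obtain ⟨h1, h2⟩ := thorp_linear d
  refine ⟨tv_lower d, h1, ?_, h2⟩
  have hne : {t : ℕ | tvToUniform (convPowP (thorpLaw (2 ^ d)) t) ≤ 1 / 4}.Nonempty :=
    ⟨_, h1 _ le_rfl⟩
  have hmem := Nat.sInf_mem hne
  show d + 1 ≤ sInf _
  by_contra hc
  push Not at hc
  have := tv_lower d _ (Nat.lt_succ_iff.mp hc)
  exact absurd hmem (not_le.mpr this)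

end Vale.Agent.Lib.P162.QF
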