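import Vale.Agent.Lib.P162.QF.Defs

/-!
# The numerical inequality, part 1: elementary lemmas
-/

namespace Vale.Agent.Lib.P162.QF

open Finset Nat

/-! ### natural number combinatorics -/

/-- the combinatorial heart of the passive terms -/
theorem nat_star (e s t1 t2 : ℕ) (he : 2 * e ≤ s) (ht2 : t2 ≤ e) (ht1 : t1 ≤ e - t2) :
    (e.choose t2 * (e - t2).choose t1) ^ 2 * (t1 + 2 * t2)! ≤
      (4 * e) ^ t1 * 8 ^ t2 * (4 ^ t2 * (t2 ! ) ^ 2) * s.choose (t1 + 2 * t2) := by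
  set r := t1 + 2 * t2 with hr
  have h1 : (2 * e).choose r ≤ s.choose r := Nat.choose_le_choose r he
  have h2 : e.choose t2 * e.choose (t1 + t2) ≤ (2 * e).choose r := by
    have := Nat.add_choose_eq e e r
    rw [two_mul, this]
    have hmem : (t2, t1 + t2) ∈ Finset.HasAntidiagonal.antidiagonal r := by
      simp [hr]; ring
    exact Finset.single_le_sum (f := fun ij : ℕ × ℕ => e.choose ij.1 * e.choose ij.2)
      (fun _ _ => Nat.zero_le _) hmem
  have h3 : e.choose (t1 + t2) * (t1 + t2).choose t2 = e.choose t2 * (e - t2).choose t1 := by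
    have := Nat.choose_mul (n := e) (k := t1 + t2) (s := t2) (Nat.le_add_left _ _)
    simpa using this
  have h4 : (e.choose t2 * (e - t2).choose t1) ^ 2 ≤
      s.choose r * ((e - t2).choose t1 * (t1 + t2).choose t2) := by
    calc (e.choose t2 * (e - t2).choose t1) ^ 2
        = (e.choose t2 * e.choose (t1 + t2)) * ((e - t2).choose t1 * (t1 + t2).choose t2) := by
          rw [sq]
          nth_rewrite 1 [← h3]
          ring
      _ ≤ s.choose r * ((e - t2).choose t1 * (t1 + t2).choose t2) :=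
          Nat.mul_le_mul_right _ (h2.trans h1)
  have h5 : (t1 + 2 * t2)! = (t1 + 2 * t2).choose (2 * t2) * t1 ! * (2 * t2)! :=
    (Nat.add_choose_mul_factorial_mul_factorial t1 (2 * t2)).symm
  have h6 : (t1 + 2 * t2).choose (2 * t2) ≤ 2 ^ t1 * 4 ^ t2 := by
    calc (t1 + 2 * t2).choose (2 * t2) ≤ 2 ^ (t1 + 2 * t2) := Nat.choose_le_two_pow _ _
      _ = 2 ^ t1 * 4 ^ t2 := by rw [pow_add, pow_mul]; norm_num
  have h7 : (e - t2).choose t1 * t1 ! ≤ e ^ t1 := by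
    have := Nat.descFactorial_le_pow (e - t2) t1
    rw [Nat.descFactorial_eq_factorial_mul_choose] at this
    calc (e - t2).choose t1 * t1 ! = t1 ! * (e - t2).choose t1 := by ring
      _ ≤ (e - t2) ^ t1 := this
      _ ≤ e ^ t1 := Nat.pow_le_pow_left (Nat.sub_le _ _) _
  have h8 : (t1 + t2).choose t2 ≤ 2 ^ t1 * 2 ^ t2 := by
    calc (t1 + t2).choose t2 ≤ 2 ^ (t1 + t2) := Nat.choose_le_two_pow _ _
      _ = 2 ^ t1 * 2 ^ t2 := pow_add _ _ _
  have h9 : (2 * t2)! ≤ 4 ^ t2 * (t2 ! ) ^ 2 := by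
    have h := Nat.add_choose_mul_factorial_mul_factorial t2 t2
    have hc : (t2 + t2).choose t2 ≤ 2 ^ (t2 + t2) := Nat.choose_le_two_pow _ _
    have : (2 * t2)! = (t2 + t2).choose t2 * (t2 ! ) ^ 2 := by
      rw [two_mul, ← h]; ring
    rw [this]
    apply Nat.mul_le_mul_right
    calc (t2 + t2).choose t2 ≤ 2 ^ (t2 + t2) := hc
      _ = 4 ^ t2 := by rw [← two_mul, pow_mul]; norm_num
  calc (e.choose t2 * (e - t2).choose t1) ^ 2 * (t1 + 2 * t2)!
      ≤ (s.choose r * ((e - t2).choose t1 * (t1 + t2).choose t2)) * (t1 + 2 * t2)! :=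
        Nat.mul_le_mul_right _ h4
    _ = s.choose r * (((e - t2).choose t1 * t1 !) * (t1 + t2).choose t2 *
          (t1 + 2 * t2).choose (2 * t2) * (2 * t2)!) := by rw [h5]; ring
    _ ≤ s.choose r * (e ^ t1 * (2 ^ t1 * 2 ^ t2) * (2 ^ t1 * 4 ^ t2) * (4 ^ t2 * (t2 ! ) ^ 2)) := by
        apply Nat.mul_le_mul_left
        exact Nat.mul_le_mul (Nat.mul_le_mul (Nat.mul_le_mul h7 h8) h6) h9
    _ = (4 * e) ^ t1 * 8 ^ t2 * (4 ^ t2 * (t2 ! ) ^ 2) * s.choose r := by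
        have e1 : (4 * e) ^ t1 = 2 ^ t1 * 2 ^ t1 * e ^ t1 := by
          rw [mul_pow, ← mul_pow 2 2 t1]; norm_num
        have e2 : 8 ^ t2 = 2 ^ t2 * 4 ^ t2 := by rw [← mul_pow]; norm_num
        rw [e1, e2]; ring

/-- Vandermonde, one term -/
theorem choose_vand (f s' i : ℕ) :
    s'.choose i * (2 * f).choose f ≤ (2 * f + s').choose (f + i) := by
  have := Nat.add_choose_eq (2 * f) s' (f + i)
  rw [this]
  have hmem : (f, i) ∈ Finset.HasAntidiagonal.antidiagonal (f + i) := by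
    simp
  have := Finset.single_le_sum (f := fun ij : ℕ × ℕ => (2 * f).choose ij.1 * s'.choose ij.2)
      (fun _ _ => Nat.zero_le _) hmem
  simpa [mul_comm] using this

/-! ### `a3` -/

lemma a3_nonneg (s : ℕ) : 0 ≤ a3 s := by
  unfold a3; split_ifs
  · exact le_rfl
  · positivity

lemma a3_pos {s : ℕ} (hs : s ≠ 1) : 0 < a3 s := by
  unfold a3; rw [if_neg hs]; positivity

@[simp] lemma a3_one : a3 1 = 0 := by simp [a3]
@[simp] lemma a3_zero : a3 0 = 1 := by simp [a3]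

/-- weights -/
noncomputable def wt (p : ℕ) : ℝ :=
  if p = 0 then 1 else if p = 1 then 0 else (2 / ((p : ℝ) + 1)) ^ 6

lemma wt_nonneg (p : ℕ) : 0 ≤ wt p := by
  unfold wt; split_ifs
  · exact zero_le_one
  · exact le_rfl
  · positivity

lemma a3_of_ne {s : ℕ} (hs : s ≠ 1) : a3 s = ((s : ℝ) + 1)⁻¹ ^ 3 := by
  unfold a3; rw [if_neg hs]

private lemma a3_pair_aux (p q : ℕ) (hp : 2 ≤ p) (hpq : p ≤ q) :
    (a3 p * a3 q) ^ 2 ≤ wt p * a3 (p + q) ^ 2 := by
  have hp1 : p ≠ 1 := by omega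
  have hp0 : p ≠ 0 := by omega
  have hq1 : q ≠ 1 := by omega
  have hs1 : p + q ≠ 1 := by omega
  rw [a3_of_ne hp1, a3_of_ne hq1, a3_of_ne hs1]
  unfold wt; rw [if_neg hp0, if_neg hp1]
  have P : (0 : ℝ) < (p : ℝ) + 1 := by positivity
  have Q : (0 : ℝ) < (q : ℝ) + 1 := by positivity
  have S : (0 : ℝ) < ((p + q : ℕ) : ℝ) + 1 := by positivity
  have key : ((p : ℝ) + 1)⁻¹ * ((q : ℝ) + 1)⁻¹ ≤ (2 / ((p : ℝ) + 1)) * (((p + q : ℕ) : ℝ) + 1)⁻¹ := by
    have hle : ((p + q : ℕ) : ℝ) + 1 ≤ 2 * ((q : ℝ) + 1) := by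
      have : (p : ℝ) ≤ q := by exact_mod_cast hpq
      push_cast; linarith
    rw [div_eq_mul_inv]
    have : ((q : ℝ) + 1)⁻¹ ≤ 2 * (((p + q : ℕ) : ℝ) + 1)⁻¹ := by
      rw [inv_le_comm₀ Q (by positivity)]
      rw [mul_inv, inv_inv]
      rw [inv_mul_le_iff₀ (by norm_num)]
      linarith
    calc ((p : ℝ) + 1)⁻¹ * ((q : ℝ) + 1)⁻¹
        ≤ ((p : ℝ) + 1)⁻¹ * (2 * (((p + q : ℕ) : ℝ) + 1)⁻¹) := by
          apply mul_le_mul_of_nonneg_left this (by positivity)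
      _ = 2 * ((p : ℝ) + 1)⁻¹ * (((p + q : ℕ) : ℝ) + 1)⁻¹ := by ring
  have h6 := pow_le_pow_left₀ (by positivity) key 6
  calc (((p : ℝ) + 1)⁻¹ ^ 3 * ((q : ℝ) + 1)⁻¹ ^ 3) ^ 2
      = (((p : ℝ) + 1)⁻¹ * ((q : ℝ) + 1)⁻¹) ^ 6 := by ring
    _ ≤ _ := h6
    _ = (2 / ((p : ℝ) + 1)) ^ 6 * (((p + q : ℕ) : ℝ) + 1)⁻¹ ^ 6 := by rw [mul_pow]
    _ = _ := by ring

theorem a3_pair_le (p q : ℕ) (h : p + q ≠ 1) :
    (a3 p * a3 q) ^ 2 ≤ (wt p + wt q) * a3 (p + q) ^ 2 := by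
  have wp := wt_nonneg p
  have wq := wt_nonneg q
  by_cases hp0 : p = 0
  · subst hp0
    have : wt 0 = 1 := by simp [wt]
    simp only [a3_zero, one_mul, zero_add, this]
    nlinarith [sq_nonneg (a3 q)]
  by_cases hq0 : q = 0
  · subst hq0
    have : wt 0 = 1 := by simp [wt]
    simp only [a3_zero, mul_one, add_zero, this]
    nlinarith [sq_nonneg (a3 p)]
  by_cases hp1 : p = 1
  · subst hp1
    simp only [a3_one, zero_mul]
    have := sq_nonneg (a3 (1 + q))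
    have h0 : (0:ℝ)^2 = 0 := by norm_num
    rw [h0]
    positivity
  by_cases hq1 : q = 1
  · subst hq1
    simp only [a3_one, mul_zero]
    have h0 : (0:ℝ)^2 = 0 := by norm_num
    rw [h0]
    positivity
  have hp2 : 2 ≤ p := by omega
  have hq2 : 2 ≤ q := by omega
  rcases le_total p q with hpq | hpq
  · have := a3_pair_aux p q hp2 hpq
    nlinarith [sq_nonneg (a3 (p + q))]
  · have := a3_pair_aux q p hq2 hpq
    rw [mul_comm (a3 q), add_comm q p] at this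
    nlinarith [sq_nonneg (a3 (p + q))]

/-! ### sums of the weights -/

lemma wt_tel {l : ℕ} (hl : 1 ≤ l) :
    wt l ≤ 64 / 5 * (((l : ℝ) ^ 5)⁻¹ - (((l : ℝ) + 1) ^ 5)⁻¹) := by
  have L : (1 : ℝ) ≤ l := by exact_mod_cast hl
  have L0 : (0 : ℝ) < l := by linarith
  by_cases h1 : l = 1
  · subst h1
    simp [wt]; norm_num
  have h0 : l ≠ 0 := by omega
  unfold wt; rw [if_neg h0, if_neg h1]
  have hkey : (5 : ℝ) * (l : ℝ) ^ 5 ≤ (((l : ℝ) + 1) ^ 5 - (l : ℝ) ^ 5) * ((l : ℝ) + 1) := by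
    nlinarith [pow_pos L0 2, pow_pos L0 3, pow_pos L0 4, L0]
  have e : (2 / ((l : ℝ) + 1)) ^ 6 = 64 / 5 * (5 / ((l : ℝ) + 1) ^ 6) := by
    field_simp; norm_num
  rw [e]
  apply mul_le_mul_of_nonneg_left _ (by norm_num)
  have e2 : ((l : ℝ) ^ 5)⁻¹ - (((l : ℝ) + 1) ^ 5)⁻¹ =
      (((l : ℝ) + 1) ^ 5 - (l : ℝ) ^ 5) / ((l : ℝ) ^ 5 * ((l : ℝ) + 1) ^ 5) := by
    field_simp
  rw [e2, div_le_div_iff₀ (by positivity) (by positivity)]
  calc 5 * ((l : ℝ) ^ 5 * ((l : ℝ) + 1) ^ 5) = (5 * (l : ℝ) ^ 5) * ((l : ℝ) + 1) ^ 5 := by ring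
    _ ≤ ((((l : ℝ) + 1) ^ 5 - (l : ℝ) ^ 5) * ((l : ℝ) + 1)) * ((l : ℝ) + 1) ^ 5 :=
        mul_le_mul_of_nonneg_right hkey (by positivity)
    _ = _ := by ring

theorem wsum_tail (L N : ℕ) (hL : 1 ≤ L) :
    ∑ i ∈ range N, wt (L + i) ≤ 64 / 5 / (L : ℝ) ^ 5 := by
  have L0 : (0 : ℝ) < L := by exact_mod_cast hL
  have : ∑ i ∈ range N, wt (L + i) ≤
      64 / 5 * (((L : ℝ) ^ 5)⁻¹ - ((((L + N : ℕ) : ℝ)) ^ 5)⁻¹) := by
    induction N with
    | zero => simp
    | succ N ih =>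
      rw [sum_range_succ]
      have := wt_tel (l := L + N) (by omega)
      have e : (((L + (N + 1) : ℕ) : ℝ)) = ((L + N : ℕ) : ℝ) + 1 := by push_cast; ring
      rw [e]
      linarith
  calc _ ≤ _ := this
    _ ≤ 64 / 5 * ((L : ℝ) ^ 5)⁻¹ := by
        apply mul_le_mul_of_nonneg_left _ (by norm_num)
        have : (0 : ℝ) ≤ ((((L + N : ℕ) : ℝ)) ^ 5)⁻¹ := by positivity
        linarith
    _ = _ := (div_eq_mul_inv _ _).symm

lemma wsum_step (L N : ℕ) :
    ∑ i ∈ range N, wt (L + i) ≤ wt L + ∑ i ∈ range N, wt (L + 1 + i) := by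
  cases N with
  | zero => simpa using wt_nonneg L
  | succ N =>
    rw [sum_range_succ', sum_range_succ]
    have e : ∀ i, wt (L + (i + 1)) = wt (L + 1 + i) := fun i => by
      congr 1; ring
    simp only [e, add_zero]
    have := wt_nonneg (L + 1 + N)
    linarith

theorem wsum_two (N : ℕ) : ∑ i ∈ range N, wt (2 + i) ≤ 553 / 5000 := by
  have s2 := wsum_step 2 N
  have s3 := wsum_step 3 N
  have s4 := wsum_step 4 N
  have s5 := wsum_step 5 N
  have t6 := wsum_tail 6 N (by norm_num)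
  have w2 : wt 2 = 64 / 729 := by simp [wt]; norm_num
  have w3 : wt 3 = 1 / 64 := by simp [wt]; norm_num
  have w4 : wt 4 = 64 / 15625 := by simp [wt]; norm_num
  have w5 : wt 5 = 1 / 729 := by simp [wt]; norm_num
  norm_num at s2 s3 s4 s5 t6
  rw [w2] at s2; rw [w3] at s3; rw [w4] at s4; rw [w5] at s5
  linarith

theorem wsum_one (N : ℕ) : ∑ i ∈ range N, wt (1 + i) ≤ 553 / 5000 := by
  have s1 := wsum_step 1 N
  have w1 : wt 1 = 0 := by simp [wt]
  rw [w1, zero_add] at s1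
  have := wsum_two N
  norm_num at s1
  linarith

theorem wsum_zero (N : ℕ) : ∑ i ∈ range N, wt (0 + i) ≤ 1 + 553 / 5000 := by
  have s1 := wsum_step 0 N
  have w0 : wt 0 = 1 := by simp [wt]
  rw [w0] at s1
  have := wsum_one N
  norm_num at s1 ⊢
  linarith

/-- sum over a reflected index -/
theorem wsum_reflect (f s' : ℕ) :
    ∑ i ∈ range (s' + 1), (wt (f + i) + wt (f + s' - i)) =
      2 * ∑ i ∈ range (s' + 1), wt (f + i) := by
  rw [sum_add_distrib, two_mul]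
  congr 1
  have := Finset.sum_range_reflect (fun i => wt (f + i)) (s' + 1)
  rw [← this]
  apply Finset.sum_congr rfl
  intro i hi
  have hi' : i ≤ s' := by simpa [Nat.lt_succ_iff] using hi
  congr 1
  simp only [Nat.add_sub_cancel]
  omega

/-- the constant `4^f / C(2f,f) * 2 * W` -/
theorem cf_bound (f s' : ℕ) :
    (4 : ℝ) ^ f / ((2 * f).choose f : ℝ) * (2 * ∑ i ∈ range (s' + 1), wt (f + i)) ≤
      if f = 0 then 9 / 4 else 16 / 25 := by
  have Wnn : 0 ≤ ∑ i ∈ range (s' + 1), wt (f + i) := sum_nonneg fun _ _ => wt_nonneg _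
  by_cases h0 : f = 0
  · subst h0
    rw [if_pos rfl]
    have := wsum_zero (s' + 1)
    norm_num at this ⊢
    linarith
  rw [if_neg h0]
  by_cases h1 : f = 1
  · subst h1
    have := wsum_one (s' + 1)
    norm_num at this ⊢
    linarith
  by_cases h2 : f = 2
  · subst h2
    have := wsum_two (s' + 1)
    have c : ((2 * 2).choose 2 : ℕ) = 6 := by decide
    rw [c]
    norm_num at this ⊢
    linarith
  have hf : 3 ≤ f := by omega
  have F : (3 : ℝ) ≤ f := by exact_mod_cast hf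
  have F0 : (0 : ℝ) < f := by linarith
  have tail := wsum_tail f (s' + 1) (by omega)
  have hc : (4 : ℝ) ^ f / ((2 * f).choose f : ℝ) ≤ 2 * f := by
    have := Nat.four_pow_le_two_mul_self_mul_centralBinom f (by omega)
    rw [Nat.centralBinom_eq_two_mul_choose] at this
    have cpos : (0 : ℝ) < ((2 * f).choose f : ℝ) := by
      exact_mod_cast Nat.choose_pos (by omega)
    rw [div_le_iff₀ cpos]
    exact_mod_cast this
  calc (4 : ℝ) ^ f / ((2 * f).choose f : ℝ) * (2 * ∑ i ∈ range (s' + 1), wt (f + i))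
      ≤ (2 * f) * (2 * (64 / 5 / (f : ℝ) ^ 5)) := by
        apply mul_le_mul hc (by linarith) (by positivity) (by positivity)
    _ = 256 / 5 / (f : ℝ) ^ 4 := by field_simp; ring
    _ ≤ 256 / 5 / 3 ^ 4 := by
        apply div_le_div_of_nonneg_left (by norm_num) (by norm_num)
        exact pow_le_pow_left₀ (by norm_num) F 4
    _ ≤ 16 / 25 := by norm_num

end Vale.Agent.Lib.P162.QF
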