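import Vale.Agent.Lib.P162.QF.Num1

/-!
# The numerical inequality, part 2: `binE`, `Gtwo`, `Gone`
-/

namespace Vale.Agent.Lib.P162.QF

open Finset Nat

/-- the scale at level `D + 1` -/
noncomputable def rr (D : ℕ) : ℝ := 10 ^ 4 / Real.sqrt ((2 : ℝ) ^ (D + 1))

lemma sqrtN_pos (D : ℕ) : 0 < Real.sqrt ((2 : ℝ) ^ (D + 1)) := by positivity

lemma rr_pos (D : ℕ) : 0 < rr D := by unfold rr; positivity

theorem gD_nonneg' (D s : ℕ) : 0 ≤ gD D s := by
  unfold gD hh
  have := a3_nonneg s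
  positivity

lemma gD_succ (D s : ℕ) : gD (D + 1) s = Real.sqrt (s ! : ℝ) * rr D ^ s * a3 s := rfl

lemma gD_zero (D : ℕ) : gD D 0 = 1 := by simp [gD, hh]

lemma gD_one (D : ℕ) : gD D 1 = 0 := by simp [gD, hh]

theorem gD_eq (D s : ℕ) : gD D s = Real.sqrt 2 ^ s * gD (D + 1) s := by
  have h : (10 : ℝ) ^ 4 / Real.sqrt ((2 : ℝ) ^ D) = Real.sqrt 2 * rr D := by
    unfold rr
    have e : Real.sqrt ((2 : ℝ) ^ (D + 1)) = Real.sqrt ((2 : ℝ) ^ D) * Real.sqrt 2 := by
      rw [pow_succ, Real.sqrt_mul (by positivity)]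
    have s2 : Real.sqrt 2 ≠ 0 := by positivity
    have sD : Real.sqrt ((2 : ℝ) ^ D) ≠ 0 := by positivity
    rw [e]; field_simp
  unfold gD hh
  rw [h, mul_pow]
  change _ = _ * (Real.sqrt (s ! : ℝ) * (10 ^ 4 / Real.sqrt ((2 : ℝ) ^ (D + 1))) ^ s * a3 s)
  unfold rr
  ring

/-- squares of the constants -/
lemma gD_succ_sq (D s : ℕ) : gD (D + 1) s ^ 2 = (s ! : ℝ) * rr D ^ (2 * s) * a3 s ^ 2 := by
  rw [gD_succ, mul_pow, mul_pow, Real.sq_sqrt (by positivity)]
  rw [← pow_mul, mul_comm s 2]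

lemma gD_sq (D s : ℕ) :
    gD D s ^ 2 = 2 ^ s * ((s ! : ℝ) * rr D ^ (2 * s) * a3 s ^ 2) := by
  rw [gD_eq, mul_pow, gD_succ_sq, ← pow_mul, mul_comm s 2, pow_mul, Real.sq_sqrt (by norm_num)]

/-- the pair identity -/
theorem key_pair (D p q : ℕ) :
    (gD D p * gD D q) ^ 2 * ((p + q).choose p : ℝ) =
      2 ^ (p + q) * (((p + q)! : ℝ) * rr D ^ (2 * (p + q)) * (a3 p * a3 q) ^ 2) := by
  have hf : ((p + q).choose p : ℝ) * (p ! : ℝ) * (q ! : ℝ) = ((p + q)! : ℝ) := by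
    have := Nat.add_choose_mul_factorial_mul_factorial q p
    rw [add_comm q p] at this
    have h2 : (p + q).choose p * p ! * q ! = (p + q)! := by
      rw [← this]; ring
    exact_mod_cast h2
  rw [mul_pow, gD_sq, gD_sq, ← hf, pow_add, mul_add, pow_add]
  ring

/-- the basic term bound -/
theorem bin_term (D f s' i : ℕ) (hi : i ≤ s') (hS : 2 * f + s' ≠ 1) :
    (s'.choose i : ℝ) * ((2 * f).choose f : ℝ) * (gD D (f + i) * gD D (f + s' - i)) ^ 2 ≤
      2 ^ (2 * f + s') * gD (D + 1) (2 * f + s') ^ 2 * (wt (f + i) + wt (f + s' - i)) := by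
  set p := f + i with hp
  set q := f + s' - i with hq
  have hpq : p + q = 2 * f + s' := by omega
  have hc : (s'.choose i : ℝ) * ((2 * f).choose f : ℝ) ≤ ((p + q).choose p : ℝ) := by
    rw [hpq, hp]
    have := choose_vand f s' i
    exact_mod_cast this
  have h1 : (s'.choose i : ℝ) * ((2 * f).choose f : ℝ) * (gD D p * gD D q) ^ 2 ≤
      (gD D p * gD D q) ^ 2 * ((p + q).choose p : ℝ) := by
    rw [mul_comm]
    exact mul_le_mul_of_nonneg_left hc (sq_nonneg _)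
  refine h1.trans ?_
  rw [key_pair, hpq]
  have h2 := a3_pair_le p q (by omega)
  rw [hpq] at h2
  rw [gD_succ_sq]
  have A : (0 : ℝ) ≤ ((2 * f + s')! : ℝ) * rr D ^ (2 * (2 * f + s')) := by
    have := rr_pos D
    positivity
  calc (2 : ℝ) ^ (2 * f + s') * (((2 * f + s')! : ℝ) * rr D ^ (2 * (2 * f + s')) * (a3 p * a3 q) ^ 2)
      ≤ (2 : ℝ) ^ (2 * f + s') * (((2 * f + s')! : ℝ) * rr D ^ (2 * (2 * f + s')) *
          ((wt p + wt q) * a3 (2 * f + s') ^ 2)) := by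
        apply mul_le_mul_of_nonneg_left _ (by positivity)
        exact mul_le_mul_of_nonneg_left h2 A
    _ = _ := by ring

/-! ### `binE` -/

lemma binE_const (s : ℕ) (c : ℝ) : binE s (fun _ => c) = c := by
  unfold binE
  rw [← Finset.sum_mul]
  have : ∑ i ∈ range (s + 1), (s.choose i : ℝ) = 2 ^ s := by
    have := Nat.sum_range_choose s
    exact_mod_cast this
  rw [this]
  field_simp

lemma binE_add (s : ℕ) (f g : ℕ → ℝ) :
    binE s (fun i => f i + g i) = binE s f + binE s g := by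
  unfold binE
  rw [← mul_add, ← Finset.sum_add_distrib]
  congr 1
  apply Finset.sum_congr rfl
  intros; ring

lemma binE_smul (s : ℕ) (c : ℝ) (f : ℕ → ℝ) :
    binE s (fun i => c * f i) = c * binE s f := by
  unfold binE
  rw [Finset.mul_sum, Finset.mul_sum, Finset.mul_sum]
  apply Finset.sum_congr rfl
  intros; ring

lemma binE_nonneg (s : ℕ) (f : ℕ → ℝ) (hf : ∀ i, 0 ≤ f i) : 0 ≤ binE s f := by
  unfold binE
  apply mul_nonneg (by positivity)
  exact Finset.sum_nonneg fun i _ => mul_nonneg (by positivity) (hf i)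

theorem binE_sq_le (s : ℕ) (X : ℕ → ℝ) : binE s X ^ 2 ≤ binE s (fun i => X i ^ 2) := by
  set m := binE s X with hm
  have h0 : 0 ≤ binE s (fun i => (X i - m) ^ 2) := binE_nonneg _ _ fun _ => sq_nonneg _
  have e : (fun i => (X i - m) ^ 2) = fun i => (X i ^ 2 + (-2 * m) * X i) + m ^ 2 := by
    funext i; ring
  rw [e, binE_add, binE_const, binE_add, binE_smul, ← hm] at h0
  nlinarith

theorem Gone_le_Gtwo (g : ℕ → ℝ) (f s' : ℕ) : Gone g f s' ≤ Gtwo g f s' := by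
  unfold Gone Gtwo
  exact (le_abs_self _).trans (Real.abs_le_sqrt (binE_sq_le _ _))

/-- the main bound on `Gtwo` -/
theorem Gtwo_le (D f s' : ℕ) :
    Gtwo (gD D) f s' ≤ (if f = 0 then 3 / 2 else 4 / 5) * gD (D + 1) (2 * f + s') := by
  have hnn := gD_nonneg' (D + 1) (2 * f + s')
  have hk : (0 : ℝ) ≤ (if f = 0 then (3 / 2 : ℝ) else 4 / 5) := by split_ifs <;> norm_num
  by_cases hS : 2 * f + s' = 1
  · have hf : f = 0 := by omega
    have hs : s' = 1 := by omega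
    subst hf; subst hs
    have : Gtwo (gD D) 0 1 = 0 := by
      simp [Gtwo, binE, sum_range_succ, gD_one, gD_zero]
    rw [this]
    positivity
  unfold Gtwo
  apply Real.sqrt_le_iff.mpr
  refine ⟨by positivity, ?_⟩
  have hc : ((2 * f).choose f : ℝ) > 0 := by
    exact_mod_cast Nat.choose_pos (by omega)
  -- each term
  have hterm : ∀ i ∈ range (s' + 1), (s'.choose i : ℝ) * (gD D (f + i) * gD D (f + s' - i)) ^ 2 ≤
      2 ^ (2 * f + s') * gD (D + 1) (2 * f + s') ^ 2 * (wt (f + i) + wt (f + s' - i)) /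
        ((2 * f).choose f : ℝ) := by
    intro i hi
    have hi' : i ≤ s' := by simpa [Nat.lt_succ_iff] using hi
    rw [le_div_iff₀ hc]
    have := bin_term D f s' i hi' hS
    linarith
  have hsum := Finset.sum_le_sum hterm
  rw [← Finset.sum_div, ← Finset.mul_sum, wsum_reflect] at hsum
  have hb := cf_bound f s'
  set W := ∑ i ∈ range (s' + 1), wt (f + i) with hW
  set H := gD (D + 1) (2 * f + s') with hH
  have hH2 : 0 ≤ H ^ 2 := sq_nonneg _
  unfold binE
  have e2 : (2 : ℝ) ^ (2 * f + s') = 4 ^ f * 2 ^ s' := by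
    rw [pow_add, pow_mul]; norm_num
  have hpos : (0 : ℝ) < 2 ^ s' := by positivity
  calc ((2 : ℝ) ^ s')⁻¹ * ∑ i ∈ range (s' + 1), (s'.choose i : ℝ) *
        (gD D (f + i) * gD D (f + s' - i)) ^ 2
      ≤ ((2 : ℝ) ^ s')⁻¹ * (2 ^ (2 * f + s') * H ^ 2 * (2 * W) / ((2 * f).choose f : ℝ)) :=
        mul_le_mul_of_nonneg_left hsum (by positivity)
    _ = ((4 : ℝ) ^ f / ((2 * f).choose f : ℝ) * (2 * W)) * H ^ 2 := by
        rw [e2]; field_simp
    _ ≤ (if f = 0 then 9 / 4 else 16 / 25) * H ^ 2 :=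
        mul_le_mul_of_nonneg_right hb hH2
    _ = ((if f = 0 then (3 / 2 : ℝ) else 4 / 5) * H) ^ 2 := by
        split_ifs <;> ring

end Vale.Agent.Lib.P162.QF
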