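import Vale.Agent.Lib.P162.QF.Num2

/-!
# The numerical inequality, part 3: `e = 0`
-/

namespace Vale.Agent.Lib.P162.QF

open Finset Nat

lemma gD_succ_pos (D : ℕ) {s : ℕ} (hs : s ≠ 1) : 0 < gD (D + 1) s := by
  rw [gD_succ]
  have := rr_pos D
  have := a3_pos hs
  have : (0 : ℝ) < (s ! : ℝ) := by exact_mod_cast Nat.factorial_pos s
  positivity

lemma bin_term0 (D s j : ℕ) (hj : j ≤ s) (hs : s ≠ 1) :
    (s.choose j : ℝ) * (gD D j * gD D (s - j)) ^ 2 ≤
      2 ^ s * gD (D + 1) s ^ 2 * (wt j + wt (s - j)) := by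
  have := bin_term D 0 s j hj (by simpa using hs)
  simpa using this

lemma wsum_mid (k : ℕ) :
    ∑ i ∈ range (k + 1), (wt (i + 1) + wt (k + 2 - (i + 1))) ≤ 2 * (553 / 5000) := by
  rw [sum_add_distrib]
  have h1 : ∑ i ∈ range (k + 1), wt (i + 1) ≤ 553 / 5000 := by
    have := wsum_one (k + 1)
    simpa [add_comm] using this
  have h2 : ∑ i ∈ range (k + 1), wt (k + 2 - (i + 1)) = ∑ i ∈ range (k + 1), wt (i + 1) := by
    have := Finset.sum_range_reflect (fun i => wt (i + 1)) (k + 1)
    rw [← this]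
    apply Finset.sum_congr rfl
    intro i hi
    have hi' : i < k + 1 := by simpa using hi
    congr 1
    simp only [Nat.add_sub_cancel]
    omega
  rw [h2]; linarith

lemma choose_mid_le (k : ℕ) :
    ∑ i ∈ range (k + 1), ((k + 2).choose (i + 1) : ℝ) ≤ 2 ^ (k + 2) := by
  have all : ∑ i ∈ range (k + 2 + 1), ((k + 2).choose i : ℝ) = 2 ^ (k + 2) := by
    have := Nat.sum_range_choose (k + 2)
    exact_mod_cast this
  rw [sum_range_succ, sum_range_succ'] at all
  have h1 : (0 : ℝ) ≤ ((k + 2).choose (k + 1 + 1) : ℝ) := by positivity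
  have h2 : (0 : ℝ) ≤ ((k + 2).choose 0 : ℝ) := by positivity
  linarith

theorem Gone_zero_le (D s : ℕ) : Gone (gD D) 0 s ≤ gD (D + 1) s := by
  have g0 := gD_zero D
  have g1 := gD_one D
  match s with
  | 0 =>
    have : Gone (gD D) 0 0 = 1 := by simp [Gone, binE, g0]
    rw [this, gD_zero]
  | 1 =>
    have : Gone (gD D) 0 1 = 0 := by simp [Gone, binE, sum_range_succ, g0, g1]
    rw [this, gD_one]
  | 2 =>
    have : Gone (gD D) 0 2 = gD D 2 / 2 := by
      simp [Gone, binE, sum_range_succ, g0, g1]; ring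
    rw [this, gD_eq D 2, Real.sq_sqrt (by norm_num)]
    linarith
  | 3 =>
    have : Gone (gD D) 0 3 = gD D 3 / 4 := by
      simp [Gone, binE, sum_range_succ, g0, g1, Nat.choose]; ring
    rw [this, gD_eq D 3]
    have h := gD_nonneg' (D + 1) 3
    have s2 : Real.sqrt 2 ^ 3 ≤ 4 := by
      have : Real.sqrt 2 ≤ 3 / 2 := by
        rw [Real.sqrt_le_iff]; norm_num
      have h2 : Real.sqrt 2 ^ 2 = 2 := Real.sq_sqrt (by norm_num)
      have h0 := Real.sqrt_nonneg 2
      nlinarith
    nlinarith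
  | (l + 4) =>
    set s := l + 4 with hs
    set h := gD (D + 1) s with hh'
    have hpos : 0 < h := gD_succ_pos D (by omega)
    -- the endpoints
    set t := Real.sqrt 2 ^ s with ht
    have t2 : t ^ 2 = 2 ^ s := by
      rw [ht, ← pow_mul, mul_comm, pow_mul, Real.sq_sqrt (by norm_num)]
    have t4 : 4 ≤ t := by
      rw [ht, hs, pow_add]
      have e4 : Real.sqrt 2 ^ 4 = 4 := by
        have h2 : Real.sqrt 2 ^ 2 = 2 := Real.sq_sqrt (by norm_num)
        calc Real.sqrt 2 ^ 4 = (Real.sqrt 2 ^ 2) ^ 2 := by ring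
          _ = 4 := by rw [h2]; norm_num
      rw [e4]
      have : 1 ≤ Real.sqrt 2 ^ l := one_le_pow₀ (by
        rw [Real.one_le_sqrt]; norm_num)
      linarith
    have gs : gD D s = t * h := gD_eq D s
    -- the sum
    unfold Gone binE
    set k := l + 2 with hk
    have hsk : s = k + 2 := by omega
    have hsplit : ∑ i ∈ range (s + 1), (s.choose i : ℝ) * (gD D (0 + i) * gD D (0 + s - i)) =
        (∑ i ∈ range (k + 1), (s.choose (i + 1) : ℝ) * (gD D (i + 1) * gD D (s - (i + 1)))) +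
          2 * gD D s := by
      rw [hsk, sum_range_succ, sum_range_succ']
      simp [g0]
      ring
    rw [hsplit]
    -- interior
    set I := ∑ i ∈ range (k + 1), (s.choose (i + 1) : ℝ) * (gD D (i + 1) * gD D (s - (i + 1))) with hI
    have hamgm : ∀ i ∈ range (k + 1), (94 / 100 * h) * ((s.choose (i + 1) : ℝ) *
        (gD D (i + 1) * gD D (s - (i + 1)))) ≤
        2 ^ s * h ^ 2 * (wt (i + 1) + wt (k + 2 - (i + 1))) +
          (s.choose (i + 1) : ℝ) * (2209 / 10000 * h ^ 2) := by
      intro i hi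
      have hi' : i + 1 ≤ s := by
        have : i < k + 1 := by simpa using hi
        omega
      have b := bin_term0 D s (i + 1) hi' (by omega)
      set y := gD D (i + 1) * gD D (s - (i + 1)) with hy
      have hc : (0 : ℝ) ≤ (s.choose (i + 1) : ℝ) := by positivity
      have hsq : 94 / 100 * h * y ≤ y ^ 2 + 2209 / 10000 * h ^ 2 := by
        nlinarith [sq_nonneg (y - 47 / 100 * h)]
      have := mul_le_mul_of_nonneg_left hsq hc
      rw [hsk] at b
      rw [← hsk] at b
      have e : k + 2 - (i + 1) = s - (i + 1) := by rw [hsk]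
      rw [e]
      nlinarith
    have hsum := Finset.sum_le_sum hamgm
    rw [← Finset.mul_sum, Finset.sum_add_distrib, ← Finset.mul_sum, ← Finset.sum_mul] at hsum
    have hw := wsum_mid k
    have hch : ∑ i ∈ range (k + 1), (s.choose (i + 1) : ℝ) ≤ 2 ^ s := by
      have := choose_mid_le k
      rwa [← hsk] at this
    have hh2 : 0 ≤ h ^ 2 := sq_nonneg _
    have pow2 : (0 : ℝ) < 2 ^ s := by positivity
    have hbound : 94 / 100 * h * I ≤ 2 ^ s * h ^ 2 * (4421 / 10000) := by
      have a1 : 2 ^ s * h ^ 2 * ∑ i ∈ range (k + 1), (wt (i + 1) + wt (k + 2 - (i + 1))) ≤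
          2 ^ s * h ^ 2 * (2 * (553 / 5000)) :=
        mul_le_mul_of_nonneg_left hw (by positivity)
      have a2 : (∑ i ∈ range (k + 1), (s.choose (i + 1) : ℝ)) * (2209 / 10000 * h ^ 2) ≤
          2 ^ s * (2209 / 10000 * h ^ 2) :=
        mul_le_mul_of_nonneg_right hch (by positivity)
      nlinarith
    have hI2 : I ≤ 2 ^ s * h * (4421 / 9400) := by
      have h94 : (0 : ℝ) < 94 / 100 * h := by positivity
      have : 94 / 100 * h * I ≤ 94 / 100 * h * (2 ^ s * h * (4421 / 9400)) := by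
        calc _ ≤ _ := hbound
          _ = _ := by ring
      exact le_of_mul_le_mul_left this h94
    have hend : 2 * gD D s ≤ 2 ^ s * h * (1 / 2) := by
      rw [gs, ← t2]
      have : 2 * t ≤ t ^ 2 * (1 / 2) := by nlinarith
      nlinarith
    have hfin : I + 2 * gD D s ≤ 2 ^ s * h := by nlinarith
    rw [inv_mul_le_iff₀ pow2]
    exact hfin

end Vale.Agent.Lib.P162.QF
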