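import Vale.Agent.Lib.P162.QF.Num3

/-!
# The numerical inequality, part 4: the passive terms
-/

namespace Vale.Agent.Lib.P162.QF

open Finset Nat

lemma a3_ratio (s r : ℕ) (hr : r ≤ s) (hs : s ≠ 1) :
    a3 (s - r) ≤ ((r : ℝ) + 1) ^ 3 * a3 s := by
  have h0 := a3_nonneg s
  by_cases hS : s - r = 1
  · rw [hS, a3_one]; positivity
  rw [a3_of_ne hS, a3_of_ne hs, ← mul_pow]
  apply pow_le_pow_left₀ (by positivity)
  have e : (s : ℝ) = ((s - r : ℕ) : ℝ) + r := by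
    rw [Nat.cast_sub hr]; ring
  have hS0 : (0 : ℝ) < ((s - r : ℕ) : ℝ) + 1 := by positivity
  have hs0 : (0 : ℝ) < (s : ℝ) + 1 := by positivity
  rw [← div_eq_mul_inv, inv_eq_one_div, div_le_div_iff₀ hS0 hs0]
  rw [e]
  have : (0 : ℝ) ≤ ((s - r : ℕ) : ℝ) * r := by positivity
  nlinarith

/-- the size of the combinatorial prefactor -/
theorem prefactor_sq (e s t1 t2 : ℕ) (he : 2 * e ≤ s) (ht2 : t2 ≤ e) (ht1 : t1 ≤ e - t2) :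
    ((e.choose t2 : ℝ) * ((e - t2).choose t1 : ℝ) * Nfib t1 t2 *
        (Real.sqrt ((s - (t1 + 2 * t2))! : ℝ) / Real.sqrt (s ! : ℝ))) ^ 2 ≤
      (4 * (e : ℝ)) ^ t1 * 8 ^ t2 := by
  have hrs : t1 + 2 * t2 ≤ s := by omega
  have star := nat_star e s t1 t2 he ht2 ht1
  generalize hr : t1 + 2 * t2 = r at *
  have starR : ((e.choose t2 : ℝ) * ((e - t2).choose t1 : ℝ)) ^ 2 * (r ! : ℝ) ≤
      (4 * (e : ℝ)) ^ t1 * 8 ^ t2 * (4 ^ t2 * (t2 ! : ℝ) ^ 2) * (s.choose r : ℝ) := by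
    exact_mod_cast star
  have hfac : (s.choose r : ℝ) * (r ! : ℝ) * ((s - r)! : ℝ) = (s ! : ℝ) := by
    have := Nat.choose_mul_factorial_mul_factorial hrs
    exact_mod_cast this
  have hr0 : (0 : ℝ) < (r ! : ℝ) := by exact_mod_cast Nat.factorial_pos r
  have hS0 : (0 : ℝ) < ((s - r)! : ℝ) := by exact_mod_cast Nat.factorial_pos _
  have hs0 : (0 : ℝ) < (s ! : ℝ) := by exact_mod_cast Nat.factorial_pos _
  have ht0 : (0 : ℝ) < (t2 ! : ℝ) := by exact_mod_cast Nat.factorial_pos _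
  have hc0 : (0 : ℝ) < (s.choose r : ℝ) := by exact_mod_cast Nat.choose_pos hrs
  have e1 : ((2 : ℝ) ^ t2 * (t2 ! : ℝ)) ^ 2 = 4 ^ t2 * (t2 ! : ℝ) ^ 2 := by
    rw [mul_pow, ← pow_mul, mul_comm t2 2, pow_mul]; norm_num
  have hN : Nfib t1 t2 = (r ! : ℝ) / ((2 : ℝ) ^ t2 * (t2 ! : ℝ)) := by
    unfold Nfib; rw [hr]
  generalize hC : (e.choose t2 : ℝ) * ((e - t2).choose t1 : ℝ) = C at *
  have key : (C * Nfib t1 t2 * (Real.sqrt ((s - r)! : ℝ) / Real.sqrt (s ! : ℝ))) ^ 2 =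
      (C ^ 2 * (r ! : ℝ)) / ((4 ^ t2 * (t2 ! : ℝ) ^ 2) * (s.choose r : ℝ)) := by
    rw [mul_pow, mul_pow, div_pow (Real.sqrt _), Real.sq_sqrt hS0.le, Real.sq_sqrt hs0.le, hN,
      div_pow, e1, ← hfac]
    field_simp
  rw [key, div_le_iff₀ (by positivity)]
  calc C ^ 2 * (r ! : ℝ) ≤ _ := starR
    _ = _ := by ring

theorem prefactor_le (e s t1 t2 : ℕ) (he : 2 * e ≤ s) (ht2 : t2 ≤ e) (ht1 : t1 ≤ e - t2) :
    (e.choose t2 : ℝ) * ((e - t2).choose t1 : ℝ) * Nfib t1 t2 *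
        (Real.sqrt ((s - (t1 + 2 * t2))! : ℝ) / Real.sqrt (s ! : ℝ)) ≤
      Real.sqrt (4 * (e : ℝ)) ^ t1 * Real.sqrt 8 ^ t2 := by
  have Psq := prefactor_sq e s t1 t2 he ht2 ht1
  have q4sq : Real.sqrt (4 * (e : ℝ)) ^ 2 = 4 * (e : ℝ) := Real.sq_sqrt (by positivity)
  have q8sq : Real.sqrt 8 ^ 2 = 8 := Real.sq_sqrt (by norm_num)
  have e0 : (Real.sqrt (4 * (e : ℝ)) ^ t1 * Real.sqrt 8 ^ t2) ^ 2 = (4 * (e : ℝ)) ^ t1 * 8 ^ t2 := by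
    rw [mul_pow, ← pow_mul, ← pow_mul, mul_comm t1, mul_comm t2, pow_mul, pow_mul, q4sq, q8sq]
  have Nf0 : 0 ≤ Nfib t1 t2 := by unfold Nfib; positivity
  refine (pow_le_pow_iff_left₀ ?_ (by positivity) (two_ne_zero)).mp (e0 ▸ Psq)
  positivity

/-- ratio of the constants -/
theorem ratio_le (D s r : ℕ) (hrs : r ≤ s) (hs1 : s ≠ 1) :
    gD (D + 1) (s - r) ≤ (Real.sqrt ((s - r)! : ℝ) / Real.sqrt (s ! : ℝ)) * (rr D ^ r)⁻¹ *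
      ((r : ℝ) + 1) ^ 3 * gD (D + 1) s := by
  have hsF : (0 : ℝ) < Real.sqrt (s ! : ℝ) := by
    apply Real.sqrt_pos.mpr; exact_mod_cast Nat.factorial_pos s
  have rrp := rr_pos D
  rw [gD_succ, gD_succ]
  have ea := a3_ratio s r hrs hs1
  have e1 : rr D ^ s = rr D ^ (s - r) * rr D ^ r := by
    rw [← pow_add, Nat.sub_add_cancel hrs]
  rw [e1]
  have e2 : (Real.sqrt ((s - r)! : ℝ) / Real.sqrt (s ! : ℝ)) * (rr D ^ r)⁻¹ * ((r : ℝ) + 1) ^ 3 *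
      (Real.sqrt (s ! : ℝ) * (rr D ^ (s - r) * rr D ^ r) * a3 s) =
      Real.sqrt ((s - r)! : ℝ) * rr D ^ (s - r) * (((r : ℝ) + 1) ^ 3 * a3 s) := by
    field_simp
  rw [e2]
  apply mul_le_mul_of_nonneg_left ea (by positivity)

/-- algebra of the scales -/
lemma scale_alg (N y : ℝ) (hN : N ≠ 0) (hy : y ≠ 0) (t1 t2 : ℕ) :
    ((N ^ 2) ^ (t1 + t2))⁻¹ * ((y / N) ^ (t1 + 2 * t2))⁻¹ = (N ^ t1)⁻¹ * (y ^ (t1 + 2 * t2))⁻¹ := by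
  rw [div_pow]
  have e : (N ^ 2) ^ (t1 + t2) = N ^ t1 * N ^ (t1 + 2 * t2) := by
    rw [← pow_mul, ← pow_add]; congr 1; ring
  rw [e]
  field_simp

lemma power_alg (q p N y a b c : ℝ) (hN : N ≠ 0) (hy : y ≠ 0) (t1 t2 : ℕ) :
    (q ^ t1 * p ^ t2) * (a ^ t1 * ((N ^ t1)⁻¹ * (y ^ (t1 + 2 * t2))⁻¹)) * (b ^ t1 * c ^ t2) =
      ((q / N) * a * b / y) ^ t1 * (p * c / y ^ 2) ^ t2 := by
  simp only [div_pow, mul_pow]
  rw [pow_add, pow_mul y 2 t2]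
  have h1 : N ^ t1 ≠ 0 := pow_ne_zero _ hN
  have h2 : y ^ t1 ≠ 0 := pow_ne_zero _ hy
  have h3 : (y ^ 2) ^ t2 ≠ 0 := pow_ne_zero _ (pow_ne_zero _ hy)
  field_simp

/-- the final numeric step -/
lemma passive_num (P q4 q8 N R x : ℝ) (t1 t2 : ℕ) (hN : 0 < N) (hP0 : 0 ≤ P)
    (hP : P ≤ q4 ^ t1 * q8 ^ t2) (q40 : 0 ≤ q4) (q80 : 0 ≤ q8) (q4le : q4 ≤ 3 / 2 * N) (q8le : q8 ≤ 3)
    (R0 : 0 ≤ R) (hR : R ≤ 8 ^ t1 * 64 ^ t2) (hx : 0 ≤ x) :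
    3 / 2 * (P * (6 ^ t1 * ((N ^ t1)⁻¹ * (((10 : ℝ) ^ 4) ^ (t1 + 2 * t2))⁻¹)) * R) * x ≤
      3 / 2 * ((72 / 10 ^ 4 : ℝ) ^ t1 * (192 / 10 ^ 8 : ℝ) ^ t2) * x := by
  apply mul_le_mul_of_nonneg_right _ hx
  apply mul_le_mul_of_nonneg_left _ (by norm_num)
  have hmid : 0 ≤ (6 : ℝ) ^ t1 * ((N ^ t1)⁻¹ * (((10 : ℝ) ^ 4) ^ (t1 + 2 * t2))⁻¹) := by positivity
  calc P * (6 ^ t1 * ((N ^ t1)⁻¹ * (((10 : ℝ) ^ 4) ^ (t1 + 2 * t2))⁻¹)) * R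
      ≤ (q4 ^ t1 * q8 ^ t2) * (6 ^ t1 * ((N ^ t1)⁻¹ * (((10 : ℝ) ^ 4) ^ (t1 + 2 * t2))⁻¹)) *
          (8 ^ t1 * 64 ^ t2) := by
        apply mul_le_mul _ hR R0 (by positivity)
        exact mul_le_mul_of_nonneg_right hP hmid
    _ = ((q4 / N) * 6 * 8 / 10 ^ 4) ^ t1 * (q8 * 64 / ((10 : ℝ) ^ 4) ^ 2) ^ t2 :=
        power_alg q4 q8 N (10 ^ 4) 6 8 64 hN.ne' (by norm_num) t1 t2
    _ ≤ (72 / 10 ^ 4 : ℝ) ^ t1 * (192 / 10 ^ 8 : ℝ) ^ t2 := by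
        have hq : q4 / N ≤ 3 / 2 := by
          rw [div_le_iff₀ hN]; exact q4le
        have hq0 : 0 ≤ q4 / N := by positivity
        apply mul_le_mul
        · apply pow_le_pow_left₀ (by positivity)
          rw [div_le_div_iff_of_pos_right (by norm_num)]
          nlinarith
        · apply pow_le_pow_left₀ (by positivity)
          norm_num
          nlinarith
        · positivity
        · positivity

/-- the passive terms -/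
theorem passive_term (D e s t1 t2 : ℕ) (he : 2 * e ≤ s) (hs : s ≤ 2 * 2 ^ D) (hs1 : s ≠ 1)
    (ht2 : t2 ≤ e) (ht1 : t1 ≤ e - t2) :
    (e.choose t2 : ℝ) * ((e - t2).choose t1 : ℝ) * 6 ^ t1 *
        (((2 * 2 ^ D : ℕ) : ℝ) ^ (t1 + t2))⁻¹ * Nfib t1 t2 *
        Gtwo (gD D) (e - t1 - t2) (s - (t1 + 2 * t2) - 2 * (e - t1 - t2)) ≤
      3 / 2 * ((72 / 10 ^ 4 : ℝ) ^ t1 * (192 / 10 ^ 8 : ℝ) ^ t2) * gD (D + 1) s := by
  have hrs : t1 + 2 * t2 ≤ s := by omega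
  have hSf : 2 * (e - t1 - t2) + (s - (t1 + 2 * t2) - 2 * (e - t1 - t2)) = s - (t1 + 2 * t2) := by
    omega
  have hh0 : 0 ≤ gD (D + 1) s := gD_nonneg' _ _
  have N0 : 0 < Real.sqrt ((2 : ℝ) ^ (D + 1)) := sqrtN_pos D
  have NN : Real.sqrt ((2 : ℝ) ^ (D + 1)) ^ 2 = (2 : ℝ) ^ (D + 1) := Real.sq_sqrt (by positivity)
  have hn : (((2 * 2 ^ D : ℕ) : ℝ)) = Real.sqrt ((2 : ℝ) ^ (D + 1)) ^ 2 := by
    rw [NN]; push_cast; ring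
  have hG : Gtwo (gD D) (e - t1 - t2) (s - (t1 + 2 * t2) - 2 * (e - t1 - t2)) ≤
      3 / 2 * gD (D + 1) (s - (t1 + 2 * t2)) := by
    have := Gtwo_le D (e - t1 - t2) (s - (t1 + 2 * t2) - 2 * (e - t1 - t2))
    rw [hSf] at this
    refine this.trans ?_
    apply mul_le_mul_of_nonneg_right _ (gD_nonneg' _ _)
    split_ifs <;> norm_num
  have hrat := ratio_le D s (t1 + 2 * t2) hrs hs1
  have Ple := prefactor_le e s t1 t2 he ht2 ht1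
  have q8le : Real.sqrt 8 ≤ 3 := by
    rw [Real.sqrt_le_iff]; norm_num
  have q4le : Real.sqrt (4 * (e : ℝ)) ≤ 3 / 2 * Real.sqrt ((2 : ℝ) ^ (D + 1)) := by
    rw [Real.sqrt_le_iff]
    refine ⟨by positivity, ?_⟩
    have : (2 : ℝ) * e ≤ Real.sqrt ((2 : ℝ) ^ (D + 1)) ^ 2 := by
      rw [NN]
      have : ((2 * e : ℕ) : ℝ) ≤ ((2 * 2 ^ D : ℕ) : ℝ) := by
        exact_mod_cast he.trans hs
      push_cast at this
      rw [pow_succ]; linarith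
    have hN2 : (3 / 2 * Real.sqrt ((2 : ℝ) ^ (D + 1))) ^ 2 =
        9 / 4 * Real.sqrt ((2 : ℝ) ^ (D + 1)) ^ 2 := by ring
    rw [hN2]
    nlinarith [sq_nonneg (Real.sqrt ((2 : ℝ) ^ (D + 1)))]
  have hr8 : (((t1 + 2 * t2 : ℕ) : ℝ) + 1) ^ 3 ≤ 8 ^ t1 * 64 ^ t2 := by
    have h2 : (((t1 + 2 * t2 : ℕ) : ℝ) + 1) ≤ 2 ^ (t1 + 2 * t2) := by
      have : t1 + 2 * t2 + 1 ≤ 2 ^ (t1 + 2 * t2) := Nat.lt_two_pow_self
      exact_mod_cast this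
    calc (((t1 + 2 * t2 : ℕ) : ℝ) + 1) ^ 3 ≤ (2 ^ (t1 + 2 * t2)) ^ 3 :=
          pow_le_pow_left₀ (by positivity) h2 3
      _ = 8 ^ t1 * 64 ^ t2 := by
        rw [← pow_mul, show (t1 + 2 * t2) * 3 = 3 * t1 + 6 * t2 by ring, pow_add, pow_mul,
          pow_mul]
        norm_num
  have hE := scale_alg (Real.sqrt ((2 : ℝ) ^ (D + 1))) (10 ^ 4) N0.ne' (by norm_num) t1 t2
  have Nf0 : 0 ≤ Nfib t1 t2 := by unfold Nfib; positivity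
  have hrr : rr D = 10 ^ 4 / Real.sqrt ((2 : ℝ) ^ (D + 1)) := rfl
  rw [← hrr] at hE
  generalize hR : (((t1 + 2 * t2 : ℕ) : ℝ) + 1) ^ 3 = R at *
  generalize hr3 : (rr D ^ (t1 + 2 * t2))⁻¹ = ri at *
  generalize hq : (Real.sqrt ((s - (t1 + 2 * t2))! : ℝ) / Real.sqrt (s ! : ℝ)) = Q at *
  have hQ0 : 0 ≤ Q := by
    rw [← hq]; positivity
  have hri0 : 0 ≤ ri := by
    rw [← hr3]; have := rr_pos D; positivity
  have hR0 : 0 ≤ R := by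
    rw [← hR]; positivity
  generalize hGG : Gtwo (gD D) (e - t1 - t2) (s - (t1 + 2 * t2) - 2 * (e - t1 - t2)) = G at *
  generalize hgs : gD (D + 1) (s - (t1 + 2 * t2)) = gS at *
  generalize hCC : (e.choose t2 : ℝ) * ((e - t2).choose t1 : ℝ) = C at *
  have C0 : 0 ≤ C := by rw [← hCC]; positivity
  rw [hn]
  calc C * 6 ^ t1 * ((Real.sqrt ((2 : ℝ) ^ (D + 1)) ^ 2) ^ (t1 + t2))⁻¹ * Nfib t1 t2 * G
      ≤ C * 6 ^ t1 * ((Real.sqrt ((2 : ℝ) ^ (D + 1)) ^ 2) ^ (t1 + t2))⁻¹ * Nfib t1 t2 *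
          (3 / 2 * (Q * ri * R * gD (D + 1) s)) := by
        apply mul_le_mul_of_nonneg_left _ (by positivity)
        refine hG.trans ?_
        linarith
    _ = 3 / 2 * ((C * Nfib t1 t2 * Q) * (6 ^ t1 * (((Real.sqrt ((2 : ℝ) ^ (D + 1)) ^ 2) ^ (t1 + t2))⁻¹ * ri)) * R) *
          gD (D + 1) s := by ring
    _ = 3 / 2 * ((C * Nfib t1 t2 * Q) * (6 ^ t1 * ((Real.sqrt ((2 : ℝ) ^ (D + 1)) ^ t1)⁻¹ *
          (((10 : ℝ) ^ 4) ^ (t1 + 2 * t2))⁻¹)) * R) * gD (D + 1) s := by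
        rw [hE]
    _ ≤ _ := passive_num _ _ _ _ _ _ t1 t2 N0 (by positivity) Ple (Real.sqrt_nonneg _)
          (Real.sqrt_nonneg _) q4le q8le hR0 hr8 hh0

end Vale.Agent.Lib.P162.QF
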