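import Vale.Agent.Lib.P162.QF.Fourier

/-!
# Structure of `PhiA` (M5)
-/

namespace Vale.Agent.Lib.P162.QF

open Vale.Agent.Lib.P162 Equiv Finset

set_option linter.unusedSectionVars false

variable {ι : Type*} [Fintype ι] [DecidableEq ι] {D : ℕ}

/-- `PhiA` vanishes at improper colourings -/
lemma PhiA_not_proper {K : Finset ι} {F : (ι → Pos (D + 1)) → ℝ} (hF : VanOn K F) {χ : ι → Bool}
    {u : ι → Pos D} (h : ¬ Proper K χ u) : PhiA K F χ u = 0 := by
  unfold Proper at h
  push Not at h
  obtain ⟨a, ha, b, hb, hab, hu, hχ⟩ := h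
  unfold PhiA
  have : ∀ c : Pos D → Bool, F (joinT (flipH K χ c u) u) = 0 := by
    intro c
    refine hF _ a ha b hb hab ?_
    simp only [joinT, flipH, if_pos ha, if_pos hb, hu, hχ]
  simp only [this]
  simp [avg]

/-- translation of coins -/
def coinShift (d : Pos D → Bool) : (Pos D → Bool) ≃ (Pos D → Bool) where
  toFun c := fun l => xor (c l) (d l)
  invFun c := fun l => xor (c l) (d l)
  left_inv c := by funext l; simp
  right_inv c := by funext l; simp

/-- `PhiA` takes the same value at two proper colourings agreeing off `K` -/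
lemma PhiA_proper_eq {K : Finset ι} (F : (ι → Pos (D + 1)) → ℝ) {χ χ' : ι → Bool}
    {u : ι → Pos D} (h : Proper K χ u) (h' : Proper K χ' u) (hoff : ∀ i, i ∉ K → χ i = χ' i) :
    PhiA K F χ u = PhiA K F χ' u := by
  classical
  let d : Pos D → Bool := fun l => decide (∃ a ∈ K, u a = l ∧ χ a ≠ χ' a)
  have hd : ∀ a ∈ K, χ' a = xor (χ a) (d (u a)) := by
    intro a ha
    by_cases hc : χ a = χ' a
    · have : d (u a) = false := by
        simp only [d, decide_eq_false_iff_not]
        rintro ⟨b, hb, hub, hne⟩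
        have hab : b ≠ a := by
          rintro rfl
          exact hne hc
        have h1 := h b hb a ha hab hub
        have h2 := h' b hb a ha hab hub
        revert h1 h2 hne hc
        cases χ a <;> cases χ' a <;> cases χ b <;> cases χ' b <;> simp
      rw [this, ← hc]
      simp
    · have : d (u a) = true := by
        simp only [d, decide_eq_true_eq]
        exact ⟨a, ha, rfl, hc⟩
      rw [this]
      revert hc
      cases χ a <;> cases χ' a <;> simp
  unfold PhiA
  rw [← avg_equiv (coinShift d) (fun c => F (joinT (flipH K χ c u) u))]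
  refine avg_congr fun c => ?_
  congr 2
  funext i
  simp only [flipH, coinShift, Equiv.coe_fn_mk]
  by_cases hi : i ∈ K
  · rw [if_pos hi, if_pos hi, hd i hi]
    cases χ i <;> cases c (u i) <;> cases d (u i) <;> rfl
  · rw [if_neg hi, if_neg hi, hoff i hi]

/-- colours shifted by coins, a bijection -/
def flipE (K : Finset ι) (c : Pos D → Bool) (u : ι → Pos D) : (ι → Bool) ≃ (ι → Bool) where
  toFun χ := flipH K χ c u
  invFun χ := flipH K χ c u
  left_inv χ := by
    funext i
    simp only [flipH]
    by_cases hi : i ∈ K <;> simp [hi]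
  right_inv χ := by
    funext i
    simp only [flipH]
    by_cases hi : i ∈ K <;> simp [hi]

lemma sq_avg_le {Y : Type*} [Fintype Y] [Nonempty Y] (f : Y → ℝ) :
    avg f ^ 2 ≤ avg fun y => f y ^ 2 := by
  have h0 : 0 ≤ avg fun y => (f y - avg f) ^ 2 := avg_nonneg fun _ => sq_nonneg _
  have h1 : (fun y => (f y - avg f) ^ 2) =
      fun y => (f y ^ 2 - (2 * avg f) * f y) + avg f ^ 2 := by
    funext y; ring
  rw [h1, avg_add, avg_sub, avg_mul_left, avg_const] at h0
  nlinarith [h0]

/-- Jensen: the average of `PhiA ^ 2` is at most the norm of `F` -/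
lemma avg_PhiA_sq_le (K : Finset ι) (F : (ι → Pos (D + 1)) → ℝ) :
    (avg fun χ : ι → Bool => avg fun u : ι → Pos D => PhiA K F χ u ^ 2) ≤ nsq F := by
  have h1 : ∀ χ u, PhiA K F χ u ^ 2 ≤ avg fun c : Pos D → Bool => F (joinT (flipH K χ c u) u) ^ 2 :=
    fun χ u => sq_avg_le _
  refine (avg_mono fun χ => avg_mono fun u => h1 χ u).trans (le_of_eq ?_)
  unfold nsq
  rw [avg_tup D fun x => F x ^ 2]
  -- swap `χ` inside
  have h2 : (avg fun χ : ι → Bool => avg fun u : ι → Pos D =>
        avg fun c : Pos D → Bool => F (joinT (flipH K χ c u) u) ^ 2) =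
      avg fun u : ι → Pos D => avg fun c : Pos D → Bool => avg fun χ : ι → Bool =>
        F (joinT (flipH K χ c u) u) ^ 2 := by
    rw [avg_comm]
    refine avg_congr fun u => ?_
    rw [avg_comm]
  have h3 : ∀ (u : ι → Pos D) (c : Pos D → Bool), (avg fun χ : ι → Bool =>
        F (joinT (flipH K χ c u) u) ^ 2) = avg fun χ : ι → Bool => F (joinT χ u) ^ 2 := by
    intro u c
    exact avg_equiv (flipE K c u) (fun χ => F (joinT χ u) ^ 2)
  rw [h2]
  simp only [h3, avg_const]
  rw [avg_comm]

end Vale.Agent.Lib.P162.QF
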