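import Vale.Agent.Lib.P162.QF.Alg

/-!
# The recursion of a pass on tuples and the induction hypothesis applied twice (M2, M3)
-/

namespace Vale.Agent.Lib.P162.QF

open Vale.Agent.Lib.P162 Equiv Finset

set_option linter.unusedSectionVars false

variable {ι : Type*} [Fintype ι] [DecidableEq ι] {D : ℕ}

/-- the two colour classes of `A` -/
def cl0 (A : Finset ι) (χ : ι → Bool) : Finset ι := A.filter fun a => χ a = false
def cl1 (A : Finset ι) (χ : ι → Bool) : Finset ι := A.filter fun a => χ a = true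

/-- the inverse of a step on a point -/
lemma stepG_inv_cons (g0 g1 : Perm (Pos D)) (c : Pos D → Bool) (a : Bool) (v : Pos D) :
    (stepG D g0 g1 c)⁻¹ (Fin.cons a v) =
      Fin.cons (xor a (c (if a = true then g1⁻¹ v else g0⁻¹ v))) (if a = true then g1⁻¹ v else g0⁻¹ v) := by
  rw [Perm.inv_eq_iff_eq, stepG_cons]
  cases a <;> simp

/-- M2: a pass at level `D + 1` is `Q_{A0} Q_{A1}` applied to `PhiA`. Uses
`(stepG D g0 g1 c)⁻¹ (cons χ v) = cons (xor χ (c (g_χ⁻¹ v))) (g_χ⁻¹ v)` -/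
theorem QA_succ (A : Finset ι) (F : (ι → Pos (D + 1)) → ℝ) (χ : ι → Bool) (v : ι → Pos D) :
    QA (D + 1) A F (joinT χ v) = QA D (cl0 A χ) (QA D (cl1 A χ) (PhiA A F χ)) v := by
  unfold QA
  rw [Exp_succ]
  refine Exp_congr D fun g0 => Exp_congr D fun g1 => ?_
  unfold PhiA
  refine avg_congr fun c => ?_
  congr 1
  funext i
  unfold joinT flipH
  by_cases hi : i ∈ A
  · simp only [hi, if_true, stepG_inv_cons]
    cases h : χ i
    · have h0 : i ∈ cl0 A χ := by simp [cl0, hi, h]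
      have h1 : i ∉ cl1 A χ := by simp [cl1, h]
      simp [h0, h1]
    · have h0 : i ∉ cl0 A χ := by simp [cl0, h]
      have h1 : i ∈ cl1 A χ := by simp [cl1, hi, h]
      simp [h0, h1]
  · have h0 : i ∉ cl0 A χ := by simp [cl0, hi]
    have h1 : i ∉ cl1 A χ := by simp [cl1, hi]
    simp [hi, h0, h1]

/-- `PhiA` inherits the vanishing on each colour class -/
lemma PhiA_vanOn {A : Finset ι} {F : (ι → Pos (D + 1)) → ℝ} (hF : VanOn A F) (χ : ι → Bool) (b : Bool) :
    VanOn (A.filter fun a => χ a = b) (PhiA A F χ) := by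
  intro u a ha a' ha' hne hu
  unfold PhiA
  obtain ⟨ha1, ha2⟩ := Finset.mem_filter.mp ha
  obtain ⟨ha1', ha2'⟩ := Finset.mem_filter.mp ha'
  have h0 : ∀ c : Pos D → Bool, F (joinT (flipH A χ c u) u) = 0 := by
    intro c
    apply hF _ a ha1 a' ha1' hne
    unfold joinT flipH
    simp only [ha1, ha1', if_true, ha2, ha2', hu]
  simp only [h0]
  exact avg_const 0

private lemma filter_union_cl {A S0 S1 : Finset ι} {χ : ι → Bool} (h0 : S0 ⊆ cl0 A χ) (h1 : S1 ⊆ cl1 A χ) :
    (S0 ∪ S1).filter (fun a => χ a = false) = S0 ∧ (S0 ∪ S1).filter (fun a => χ a = true) = S1 := by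
  have c0 : ∀ a ∈ S0, χ a = false := fun a ha => (Finset.mem_filter.mp (h0 ha)).2
  have c1 : ∀ a ∈ S1, χ a = true := fun a ha => (Finset.mem_filter.mp (h1 ha)).2
  constructor
  · ext a
    simp only [Finset.mem_filter, Finset.mem_union]
    constructor
    · rintro ⟨h | h, hc⟩
      · exact h
      · rw [c1 a h] at hc
        exact absurd hc (by simp)
    · intro h
      exact ⟨Or.inl h, c0 a h⟩
  · ext a
    simp only [Finset.mem_filter, Finset.mem_union]
    constructor
    · rintro ⟨h | h, hc⟩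
      · rw [c0 a h] at hc
        exact absurd hc (by simp)
      · exact h
    · intro h
      exact ⟨Or.inr h, c1 a h⟩

private lemma sum_powerset_split (g : ℕ → ℝ) (A : Finset ι) (χ : ι → Bool) (f : Finset ι → ℝ) :
    ∑ S0 ∈ (cl0 A χ).powerset, ∑ S1 ∈ (cl1 A χ).powerset, g S0.card * (g S1.card * f (S0 ∪ S1)) =
      ∑ S ∈ A.powerset, gg g χ S * f S := by
  rw [← Finset.sum_product']
  refine Finset.sum_nbij' (fun p => p.1 ∪ p.2)
    (fun S => (S.filter fun a => χ a = false, S.filter fun a => χ a = true)) ?_ ?_ ?_ ?_ ?_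
  · rintro ⟨S0, S1⟩ hp
    obtain ⟨h0, h1⟩ := Finset.mem_product.mp hp
    have h0' : S0 ⊆ A := (Finset.mem_powerset.mp h0).trans (Finset.filter_subset _ _)
    have h1' : S1 ⊆ A := (Finset.mem_powerset.mp h1).trans (Finset.filter_subset _ _)
    exact Finset.mem_powerset.mpr (Finset.union_subset h0' h1')
  · intro S hS
    have hS' := Finset.mem_powerset.mp hS
    refine Finset.mem_product.mpr ⟨Finset.mem_powerset.mpr ?_, Finset.mem_powerset.mpr ?_⟩
    · exact Finset.filter_subset_filter _ hS'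
    · exact Finset.filter_subset_filter _ hS'
  · rintro ⟨S0, S1⟩ hp
    obtain ⟨h0, h1⟩ := Finset.mem_product.mp hp
    obtain ⟨e0, e1⟩ := filter_union_cl (Finset.mem_powerset.mp h0) (Finset.mem_powerset.mp h1)
    show (((S0 ∪ S1).filter fun a => χ a = false), ((S0 ∪ S1).filter fun a => χ a = true)) = (S0, S1)
    rw [e0, e1]
  · intro S _
    ext a
    simp only [Finset.mem_union, Finset.mem_filter]
    cases χ a <;> simp
  · rintro ⟨S0, S1⟩ hp
    obtain ⟨h0, h1⟩ := Finset.mem_product.mp hp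
    obtain ⟨e0, e1⟩ := filter_union_cl (Finset.mem_powerset.mp h0) (Finset.mem_powerset.mp h1)
    show g S0.card * (g S1.card * f (S0 ∪ S1)) = gg g χ (S0 ∪ S1) * f (S0 ∪ S1)
    unfold gg
    rw [e0, e1]
    ring

/-- M3: the induction hypothesis applied twice -/
theorem QFB_twice {g : ℕ → ℝ} (hg : ∀ s, 0 ≤ g s) (h : QFB ι D g) {A : Finset ι}
    {F : (ι → Pos (D + 1)) → ℝ} (hF : VanOn A F) (χ : ι → Bool) :
    nsq (QA D (cl0 A χ) (QA D (cl1 A χ) (PhiA A F χ))) ≤
      ∑ S ∈ A.powerset, gg g χ S * nsq (EA (A \ S) (PhiA A F χ)) := by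
  set Φ := PhiA A F χ with hΦ
  have hdisj : Disjoint (cl1 A χ) (cl0 A χ) := by
    rw [Finset.disjoint_left]
    intro a ha ha'
    have h1 := (Finset.mem_filter.mp ha).2
    have h2 := (Finset.mem_filter.mp ha').2
    rw [h1] at h2
    exact absurd h2 (by simp)
  have hv0 : VanOn (cl0 A χ) Φ := PhiA_vanOn hF χ false
  have hv1 : VanOn (cl1 A χ) Φ := PhiA_vanOn hF χ true
  have step1 := h (cl0 A χ) (QA D (cl1 A χ) Φ) (hv0.QA hdisj)
  refine step1.trans ?_
  rw [← sum_powerset_split]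
  refine Finset.sum_le_sum fun S0 hS0 => ?_
  rw [← Finset.mul_sum]
  apply mul_le_mul_of_nonneg_left _ (hg _)
  have hS0' := Finset.mem_powerset.mp hS0
  have hd2 : Disjoint (cl0 A χ \ S0) (cl1 A χ) :=
    (hdisj.symm.mono_left Finset.sdiff_subset)
  rw [EA_QA _ _ hd2]
  have hv2 : VanOn (cl1 A χ) (EA (cl0 A χ \ S0) Φ) := hv1.EA hd2
  refine (h (cl1 A χ) _ hv2).trans ?_
  refine le_of_eq (Finset.sum_congr rfl fun S1 hS1 => ?_)
  congr 1
  rw [EA_EA]
  congr 2
  have hS1' := Finset.mem_powerset.mp hS1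
  have c0 : ∀ a ∈ S0, χ a = false := fun a ha => (Finset.mem_filter.mp (hS0' ha)).2
  have c1 : ∀ a ∈ S1, χ a = true := fun a ha => (Finset.mem_filter.mp (hS1' ha)).2
  ext a
  simp only [Finset.mem_union, Finset.mem_sdiff, cl0, cl1, Finset.mem_filter]
  cases hc : χ a
  · have n1 : a ∉ S1 := fun h => by
      rw [c1 a h] at hc
      exact absurd hc (by simp)
    simp [n1]
  · have n0 : a ∉ S0 := fun h => by
      rw [c0 a h] at hc
      exact absurd hc (by simp)
    simp [n0]

/-- M2': the norm at level `D + 1` in head-tail coordinates -/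
theorem nsq_QA_succ (A : Finset ι) (F : (ι → Pos (D + 1)) → ℝ) :
    nsq (QA (D + 1) A F) =
      avg fun χ : ι → Bool => nsq (QA D (cl0 A χ) (QA D (cl1 A χ) (PhiA A F χ))) := by
  unfold nsq
  rw [avg_tup]
  refine avg_congr fun χ => avg_congr fun t => ?_
  rw [QA_succ]

end Vale.Agent.Lib.P162.QF
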